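import Mathlib

/-!
P162: definition of the Thorp shuffle, its law, convolution powers, total variation distance
to uniform, and mixing time.
-/

namespace Vale.Agent.P162

/-- New position of the card in position `p` in one Thorp shuffle of `2 * m` cards with coins
`b`: positions are `0, …, 2m-1`; the cards in positions `i` and `m + i` go to positions
`2i` and `2i + 1`, in the order chosen by the coin `b i`. -/
def thorpFun {m : ℕ} (b : Fin m → Bool) (p : Fin (2 * m)) : Fin (2 * m) :=
  if h : (p : ℕ) < m then
    ⟨2 * (p : ℕ) + (if b ⟨p, h⟩ then 1 else 0), by split <;> omega⟩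
  else
    ⟨2 * ((p : ℕ) - m) + (if b ⟨(p : ℕ) - m, by omega⟩ then 0 else 1), by
      have := p.isLt; split <;> omega⟩

/-- The law `q` of one Thorp shuffle of `2 * m` cards, as a function on permutations of
positions. -/
noncomputable def thorpLaw (m : ℕ) (g : Equiv.Perm (Fin (2 * m))) : ℝ :=
  (Fintype.card {b : Fin m → Bool // ∀ p, g p = thorpFun b p} : ℝ) / 2 ^ m

/-- `t`-fold convolution power: the law after `t` independent shuffles. -/
noncomputable def thorpPow (m : ℕ) : ℕ → Equiv.Perm (Fin (2 * m)) → ℝ
  | 0, g => if g = 1 then 1 else 0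
  | t + 1, g => ∑ h : Equiv.Perm (Fin (2 * m)), thorpLaw m h * thorpPow m t (h⁻¹ * g)

/-- Total variation distance to the uniform law after `t` shuffles. -/
noncomputable def thorpTV (m t : ℕ) : ℝ :=
  (1 / 2) * ∑ g : Equiv.Perm (Fin (2 * m)), |thorpPow m t g - 1 / ((2 * m).factorial : ℝ)|

/-- The mixing time of the deck of `2 * m` cards. -/
noncomputable def tmix (m : ℕ) : ℕ := sInf {t : ℕ | thorpTV m t ≤ 1 / 4}

end Vale.Agent.P162
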