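import Mathlib
import Vale.Agent.P162.ThorpDefs

/-!
P162 (Thorp shuffle): shared definitions and intermediate statements (as Props)
for the entropy-contraction proof of `t_mix (2^d) = O(d^2)`.
-/

namespace Vale.Agent.P162

/-- Uniform average over a finite type. -/
noncomputable def avg {Ω : Type} [Fintype Ω] (F : Ω → ℝ) : ℝ :=
  (∑ ω, F ω) / (Fintype.card Ω : ℝ)

open Classical in
/-- Fibre of the map `s` through the point `ω`. -/
noncomputable def fib {Ω S : Type} [Fintype Ω] (s : Ω → S) (ω : Ω) : Finset Ω :=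
  Finset.univ.filter (fun ω' => s ω' = s ω)

/-- Conditional average of `F` given the map `s`. -/
noncomputable def cavg {Ω S : Type} [Fintype Ω] (s : Ω → S) (F : Ω → ℝ) (ω : Ω) : ℝ :=
  (∑ ω' ∈ fib s ω, F ω') / ((fib s ω).card : ℝ)

/-- `x log x`. -/
noncomputable def phi (x : ℝ) : ℝ := x * Real.log x

/-- Average of `F log F`. -/
noncomputable def Phi {Ω : Type} [Fintype Ω] (F : Ω → ℝ) : ℝ := avg (fun ω => phi (F ω))

/-- The two-map entropy inequality with defect `ε`. -/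
def LP {Ω S T : Type} [Fintype Ω] (s : Ω → S) (t : Ω → T) (ε : ℝ) : Prop :=
  ∀ F : Ω → ℝ, (∀ ω, 0 ≤ F ω) →
    Phi (cavg s F) + Phi (cavg t F) ≤ (1 + ε) * Phi F + (1 - ε) * phi (avg F)

/-- The sign attached to a bit. -/
def sgn (b : Bool) : ℝ := if b then 1 else -1

/-- Walsh character. -/
noncomputable def chi {W : Type} (A : Finset W) (x : W → Bool) : ℝ := ∏ a ∈ A, sgn (x a)

/-- Walsh coefficient. -/
noncomputable def coef {W : Type} [Fintype W] [DecidableEq W] (G : (W → Bool) → ℝ)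
    (A : Finset W) : ℝ :=
  avg (fun x => G x * chi A x)

/-- `row`, `col` cut `W` into four cells of exactly `b` elements. -/
def Tab {W : Type} [Fintype W] (row col : W → Bool) (b : ℕ) : Prop :=
  ∀ x y : Bool, (Finset.univ.filter (fun w => row w = x ∧ col w = y)).card = b

/-- Tensorisation of `LP`. -/
def S_TENSOR : Prop :=
  ∀ (Ω S T : Type) [Fintype Ω] [Nonempty Ω] (s : Ω → S) (t : Ω → T) (ε : ℝ), LP s t ε →
    ∀ (ι : Type) [Fintype ι] [DecidableEq ι],
      LP (Ω := ι → Ω) (fun ω i => s (ω i)) (fun ω i => t (ω i)) ε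

/-- Soft lemma: a defect `ε < 1` depending only on the size of the space. -/
def S_SOFT : Prop :=
  ∀ n : ℕ, ∃ ε : ℝ, 0 ≤ ε ∧ ε < 1 ∧
    ∀ (Ω S T : Type) [Fintype Ω] [Nonempty Ω] (s : Ω → S) (t : Ω → T), Fintype.card Ω = n →
      (∀ ω ω' : Ω, ∃ ω₁ ω₂ : Ω, s ω₁ = s ω ∧ t ω₁ = t ω₂ ∧ s ω₂ = s ω') → LP s t ε

/-- Bonami's inequality on the cube, dual form of `(2, 2m)`-hypercontractivity. -/
def S_HYPER : Prop :=
  ∀ (W : Type) [Fintype W] [DecidableEq W] (m : ℕ), 1 ≤ m → ∀ G : (W → Bool) → ℝ,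
    ∑ A : Finset W, (1 / (2 * (m : ℝ) - 1)) ^ A.card * coef G A ^ 2 ≤
      (avg (fun x => |G x| ^ (2 * (m : ℝ) / (2 * m - 1)))) ^ ((2 * (m : ℝ) - 1) / m)

/-- The triangular system. `H t I` is the entropy of the labels `I` after `t` layers. -/
def S_TRIANGLE : Prop :=
  ∀ (d : ℕ) (ε : ℕ → ℝ), (∀ r, 0 ≤ ε r) → (∀ r, ε r < 1) →
    ∀ H : ℕ → Finset ℕ → ℝ,
      (∀ t I J, I ⊆ J → J ⊆ Finset.range d → H t I ≤ H t J) →
      (∀ t I, t < d → I ⊆ Finset.range d → t ∉ I → H (t + 1) I = H t I) →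
      (∀ t, t < d → H (t + 1) (Finset.range d) = H t ((Finset.range d).erase t)) →
      (∀ t k i A, t ≤ d → k < d → i < d → k ≠ i → A ⊆ Finset.range d → k ∉ A → i ∉ A →
        H t (insert k A) + H t (insert i A) ≤
          (1 + ε (d - 2 - A.card)) * H t (insert k (insert i A))
            + (1 - ε (d - 2 - A.card)) * H t A) →
      H d (Finset.range d) - H d ∅ ≤
        (1 / 2) * (∏ r ∈ Finset.range d, (1 + 2 * (ε r / (1 - ε r))) - 1) *
          (H 0 (Finset.range d) - H d (Finset.range d))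

/-- Local inequality for all tables with `2^r` elements per cell. -/
def S_TABLE : Prop :=
  ∃ ε : ℕ → ℝ, Summable ε ∧ (∀ r, 0 ≤ ε r) ∧ (∀ r, ε r < 1) ∧
    ∀ (r : ℕ) (W : Type) [Fintype W] [DecidableEq W] (row col : W → Bool),
      Tab row col (2 ^ r) →
      LP (Ω := Equiv.Perm W) (fun π => row ∘ π) (fun π => col ∘ π) (ε r)

/-- The `I`-coordinates of all cards; `X c` is the position of card `c`. -/
def lab {d : ℕ} (I : Finset (Fin d)) (X : Equiv.Perm (Fin d → Bool)) :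
    (Fin d → Bool) → Fin d → Bool :=
  fun c i => if i ∈ I then X c i else false

/-- Density after `t` layers of the butterfly (layer `j` re-randomises coordinate `j`). -/
noncomputable def law {d : ℕ} (f : Equiv.Perm (Fin d → Bool) → ℝ) :
    ℕ → Equiv.Perm (Fin d → Bool) → ℝ
  | 0 => f
  | t + 1 => if h : t < d then cavg (lab (Finset.univ.erase ⟨t, h⟩)) (law f t) else law f t

/-- Constant entropy contraction for one butterfly (`d` layers). -/
def S_BUTTERFLY : Prop :=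
  ∃ C : ℝ, 0 < C ∧ ∀ (d : ℕ) (f : Equiv.Perm (Fin d → Bool) → ℝ), (∀ X, 0 ≤ f X) →
    Phi (law f d) - phi (avg f) ≤ C * (Phi f - Phi (law f d))

/-- Goal: `t_mix (2^d) ≤ C d^2`. -/
def S_GOAL : Prop :=
  ∃ C : ℝ, ∀ d : ℕ, 1 ≤ d →
    (∀ t : ℕ, C * (d : ℝ) ^ 2 ≤ t → thorpTV (2 ^ (d - 1)) t ≤ 1 / 4) ∧
      (tmix (2 ^ (d - 1)) : ℝ) ≤ C * (d : ℝ) ^ 2

end Vale.Agent.P162
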