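import Mathlib
import Vale.Agent.P162.Defs

/-!
P162, task T0: shared lemmas on averages, conditional averages and entropies.
-/

namespace Vale.Agent.P162

section AvgLemmas

variable {Ω S T : Type} [Fintype Ω]

lemma avg_def (F : Ω → ℝ) : avg F = (∑ ω, F ω) / (Fintype.card Ω : ℝ) := rfl

lemma avg_const [Nonempty Ω] (c : ℝ) : avg (fun _ : Ω => c) = c := by
  have h : (Fintype.card Ω : ℝ) ≠ 0 := by exact_mod_cast Fintype.card_ne_zero
  simp only [avg, Finset.sum_const, Finset.card_univ, nsmul_eq_mul]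
  field_simp

lemma avg_add (F G : Ω → ℝ) : avg (fun ω => F ω + G ω) = avg F + avg G := by
  simp only [avg, Finset.sum_add_distrib, add_div]

lemma avg_sub (F G : Ω → ℝ) : avg (fun ω => F ω - G ω) = avg F - avg G := by
  simp only [avg, Finset.sum_sub_distrib, sub_div]

lemma avg_neg (F : Ω → ℝ) : avg (fun ω => - F ω) = - avg F := by
  simp only [avg, Finset.sum_neg_distrib, neg_div]

lemma avg_const_mul (c : ℝ) (F : Ω → ℝ) : avg (fun ω => c * F ω) = c * avg F := by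
  simp only [avg, ← Finset.mul_sum, mul_div_assoc]

lemma avg_mul_const (c : ℝ) (F : Ω → ℝ) : avg (fun ω => F ω * c) = avg F * c := by
  simp only [avg, ← Finset.sum_mul]
  ring

lemma avg_mono {F G : Ω → ℝ} (h : ∀ ω, F ω ≤ G ω) : avg F ≤ avg G := by
  unfold avg
  have : (∑ ω, F ω) ≤ ∑ ω, G ω := Finset.sum_le_sum (fun ω _ => h ω)
  gcongr

lemma avg_nonneg {F : Ω → ℝ} (h : ∀ ω, 0 ≤ F ω) : 0 ≤ avg F := by
  unfold avg
  have : 0 ≤ ∑ ω, F ω := Finset.sum_nonneg (fun ω _ => h ω)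
  positivity

lemma avg_congr {F G : Ω → ℝ} (h : ∀ ω, F ω = G ω) : avg F = avg G := by
  have : F = G := funext h
  rw [this]

lemma card_mul_avg [Nonempty Ω] (F : Ω → ℝ) : (Fintype.card Ω : ℝ) * avg F = ∑ ω, F ω := by
  have h : (Fintype.card Ω : ℝ) ≠ 0 := by exact_mod_cast Fintype.card_ne_zero
  unfold avg
  field_simp

lemma avg_eq_zero_iff [Nonempty Ω] {F : Ω → ℝ} (h : ∀ ω, 0 ≤ F ω) :
    avg F = 0 ↔ ∀ ω, F ω = 0 := by
  have hc : (Fintype.card Ω : ℝ) ≠ 0 := by exact_mod_cast Fintype.card_ne_zero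
  unfold avg
  rw [div_eq_zero_iff]
  constructor
  · rintro (h0 | h0)
    · intro ω
      exact (Finset.sum_eq_zero_iff_of_nonneg (fun ω _ => h ω)).1 h0 ω (Finset.mem_univ ω)
    · exact absurd h0 hc
  · intro h0
    left
    exact Finset.sum_eq_zero (fun ω _ => h0 ω)

lemma avg_pos_of_pos [Nonempty Ω] {F : Ω → ℝ} (h : ∀ ω, 0 ≤ F ω) {ω₀ : Ω} (h0 : 0 < F ω₀) :
    0 < avg F := by
  rcases (avg_nonneg h).lt_or_eq with h1 | h1
  · exact h1
  · have := (avg_eq_zero_iff h).1 h1.symm ω₀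
    linarith

lemma le_card_mul_avg [Nonempty Ω] {F : Ω → ℝ} (h : ∀ ω, 0 ≤ F ω) (ω : Ω) :
    F ω ≤ (Fintype.card Ω : ℝ) * avg F := by
  rw [card_mul_avg]
  exact Finset.single_le_sum (fun i _ => h i) (Finset.mem_univ ω)

end AvgLemmas

section Fibres

variable {Ω S T : Type} [Fintype Ω]

lemma mem_fib {s : Ω → S} {ω ω' : Ω} : ω' ∈ fib s ω ↔ s ω' = s ω := by
  unfold fib
  simp

lemma self_mem_fib (s : Ω → S) (ω : Ω) : ω ∈ fib s ω := mem_fib.2 rfl

lemma fib_eq_of_eq {s : Ω → S} {ω ω' : Ω} (h : s ω = s ω') : fib s ω = fib s ω' := by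
  ext x
  simp only [mem_fib, h]

lemma card_fib_pos (s : Ω → S) (ω : Ω) : 0 < (fib s ω).card :=
  Finset.card_pos.2 ⟨ω, self_mem_fib s ω⟩

lemma card_fib_ne_zero (s : Ω → S) (ω : Ω) : ((fib s ω).card : ℝ) ≠ 0 := by
  exact_mod_cast (card_fib_pos s ω).ne'

lemma cavg_eq_of_eq {s : Ω → S} (F : Ω → ℝ) {ω ω' : Ω} (h : s ω = s ω') :
    cavg s F ω = cavg s F ω' := by
  unfold cavg
  rw [fib_eq_of_eq h]

lemma cavg_nonneg (s : Ω → S) {F : Ω → ℝ} (h : ∀ ω, 0 ≤ F ω) (ω : Ω) : 0 ≤ cavg s F ω := by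
  unfold cavg
  have : 0 ≤ ∑ ω' ∈ fib s ω, F ω' := Finset.sum_nonneg (fun ω _ => h ω)
  positivity

lemma cavg_mono (s : Ω → S) {F G : Ω → ℝ} (h : ∀ ω, F ω ≤ G ω) (ω : Ω) :
    cavg s F ω ≤ cavg s G ω := by
  unfold cavg
  have : (∑ ω' ∈ fib s ω, F ω') ≤ ∑ ω' ∈ fib s ω, G ω' := Finset.sum_le_sum (fun ω _ => h ω)
  gcongr

lemma cavg_add (s : Ω → S) (F G : Ω → ℝ) (ω : Ω) :
    cavg s (fun ω => F ω + G ω) ω = cavg s F ω + cavg s G ω := by
  simp only [cavg, Finset.sum_add_distrib, add_div]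

lemma cavg_sub (s : Ω → S) (F G : Ω → ℝ) (ω : Ω) :
    cavg s (fun ω => F ω - G ω) ω = cavg s F ω - cavg s G ω := by
  simp only [cavg, Finset.sum_sub_distrib, sub_div]

lemma cavg_const_mul (s : Ω → S) (c : ℝ) (F : Ω → ℝ) (ω : Ω) :
    cavg s (fun ω => c * F ω) ω = c * cavg s F ω := by
  simp only [cavg, ← Finset.mul_sum, mul_div_assoc]

/-- A function constant on the fibres of `s` is not changed by `cavg s`. -/
lemma cavg_of_const {s : Ω → S} {G : Ω → ℝ} (hG : ∀ ω ω', s ω = s ω' → G ω = G ω') (ω : Ω) :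
    cavg s G ω = G ω := by
  unfold cavg
  have h1 : ∑ ω' ∈ fib s ω, G ω' = ((fib s ω).card : ℝ) * G ω := by
    rw [Finset.sum_congr rfl (fun ω' h => hG ω' ω (mem_fib.1 h))]
    simp
  rw [h1]
  field_simp [card_fib_ne_zero s ω]

lemma cavg_const (s : Ω → S) (c : ℝ) (ω : Ω) : cavg s (fun _ => c) ω = c :=
  cavg_of_const (G := fun _ => c) (fun _ _ _ => rfl) ω

lemma cavg_cavg_self (s : Ω → S) (F : Ω → ℝ) : cavg s (cavg s F) = cavg s F := by
  funext ω
  exact cavg_of_const (fun _ _ h => cavg_eq_of_eq F h) ω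

lemma sum_fib_comm (s : Ω → S) (K : Ω → Ω → ℝ) :
    ∑ ω, ∑ ω' ∈ fib s ω, K ω ω' = ∑ ω', ∑ ω ∈ fib s ω', K ω ω' := by
  apply Finset.sum_comm'
  intro x y
  simp only [mem_fib, Finset.mem_univ, true_and, and_true]
  exact eq_comm

/-- Pull-out, in terms of sums. -/
lemma sum_cavg_mul (s : Ω → S) (F G : Ω → ℝ) (hG : ∀ ω ω', s ω = s ω' → G ω = G ω') :
    ∑ ω, cavg s F ω * G ω = ∑ ω, F ω * G ω := by
  have h1 : ∀ ω, cavg s F ω * G ω = ∑ ω' ∈ fib s ω, F ω' * (G ω / ((fib s ω).card : ℝ)) := by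
    intro ω
    unfold cavg
    rw [← Finset.sum_mul]
    ring
  simp only [h1]
  rw [sum_fib_comm]
  refine Finset.sum_congr rfl (fun ω' _ => ?_)
  have h2 : ∀ ω ∈ fib s ω', F ω' * (G ω / ((fib s ω).card : ℝ)) =
      F ω' * (G ω' / ((fib s ω').card : ℝ)) := by
    intro ω hω
    rw [hG ω ω' (mem_fib.1 hω), fib_eq_of_eq (mem_fib.1 hω)]
  rw [Finset.sum_congr rfl h2, Finset.sum_const, nsmul_eq_mul]
  field_simp [card_fib_ne_zero s ω']

/-- Pull-out: `G` constant on the fibres of `s`. -/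
lemma avg_cavg_mul (s : Ω → S) (F G : Ω → ℝ) (hG : ∀ ω ω', s ω = s ω' → G ω = G ω') :
    avg (fun ω => cavg s F ω * G ω) = avg (fun ω => F ω * G ω) := by
  unfold avg
  rw [sum_cavg_mul s F G hG]

/-- Pull-out, other direction of the equation. -/
lemma avg_mul_of_const (s : Ω → S) (F G : Ω → ℝ) (hG : ∀ ω ω', s ω = s ω' → G ω = G ω') :
    avg (fun ω => F ω * G ω) = avg (fun ω => cavg s F ω * G ω) :=
  (avg_cavg_mul s F G hG).symm

lemma avg_cavg (s : Ω → S) (F : Ω → ℝ) : avg (cavg s F) = avg F := by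
  have := avg_cavg_mul s F (fun _ => 1) (fun _ _ _ => rfl)
  simpa using this

/-- Symmetry of the conditional average. -/
lemma avg_cavg_mul_comm (s : Ω → S) (F G : Ω → ℝ) :
    avg (fun ω => cavg s F ω * G ω) = avg (fun ω => F ω * cavg s G ω) := by
  have h1 := avg_cavg_mul s G (cavg s F) (fun _ _ h => cavg_eq_of_eq F h)
  have h2 := avg_cavg_mul s F (cavg s G) (fun _ _ h => cavg_eq_of_eq G h)
  calc avg (fun ω => cavg s F ω * G ω) = avg (fun ω => G ω * cavg s F ω) :=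
        avg_congr (fun ω => mul_comm _ _)
    _ = avg (fun ω => cavg s G ω * cavg s F ω) := h1.symm
    _ = avg (fun ω => cavg s F ω * cavg s G ω) := avg_congr (fun ω => mul_comm _ _)
    _ = avg (fun ω => F ω * cavg s G ω) := h2

/-- Tower property: `s'` is finer than `s`. -/
lemma cavg_cavg_of_finer (s : Ω → S) (s' : Ω → T) (F : Ω → ℝ)
    (h : ∀ ω ω', s' ω = s' ω' → s ω = s ω') : cavg s (cavg s' F) = cavg s F := by
  classical
  funext ω
  have key : ∀ K : Ω → ℝ, ∑ ω' ∈ fib s ω, K ω' =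
      ∑ ω', K ω' * (if s ω' = s ω then (1 : ℝ) else 0) := by
    intro K
    have : fib s ω = Finset.univ.filter (fun ω' => s ω' = s ω) := by
      ext x; simp [mem_fib]
    rw [this, Finset.sum_filter]
    refine Finset.sum_congr rfl (fun x _ => ?_)
    split <;> simp
  unfold cavg
  congr 1
  change ∑ ω' ∈ fib s ω, cavg s' F ω' = _
  rw [key, key, sum_cavg_mul s' F (fun ω' => if s ω' = s ω then (1 : ℝ) else 0)]
  intro x y hxy
  simp only [h x y hxy]

/-- The coarse average is constant on the fibres of a finer map. -/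
lemma cavg_finer_cavg (s : Ω → S) (s' : Ω → T) (F : Ω → ℝ)
    (h : ∀ ω ω', s' ω = s' ω' → s ω = s ω') : cavg s' (cavg s F) = cavg s F := by
  funext ω
  exact cavg_of_const (fun a b hab => cavg_eq_of_eq F (h a b hab)) ω

lemma cavg_eq_zero {s : Ω → S} {F : Ω → ℝ} (hF : ∀ ω, 0 ≤ F ω) {ω : Ω}
    (h : cavg s F ω = 0) : F ω = 0 := by
  unfold cavg at h
  rw [div_eq_zero_iff] at h
  rcases h with h | h
  · exact (Finset.sum_eq_zero_iff_of_nonneg (fun x _ => hF x)).1 h ω (self_mem_fib s ω)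
  · exact absurd h (card_fib_ne_zero s ω)

lemma cavg_pos {s : Ω → S} {F : Ω → ℝ} (hF : ∀ ω, 0 ≤ F ω) {ω : Ω} (h : 0 < F ω) :
    0 < cavg s F ω := by
  rcases (cavg_nonneg s hF ω).lt_or_eq with h1 | h1
  · exact h1
  · have := cavg_eq_zero hF h1.symm
    linarith

lemma cavg_unit (F : Ω → ℝ) (ω : Ω) : cavg (fun _ : Ω => ()) F ω = avg F := by
  unfold cavg avg
  have : fib (fun _ : Ω => ()) ω = Finset.univ := by
    ext x; simp [mem_fib]
  rw [this, Finset.card_univ]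

lemma cavg_of_injective {s : Ω → S} (hs : Function.Injective s) (F : Ω → ℝ) : cavg s F = F := by
  funext ω
  exact cavg_of_const (fun a b h => by rw [hs h]) ω

/-- `cavg` only depends on the partition into fibres. -/
lemma cavg_congr_map {s : Ω → S} {s' : Ω → T} (h : ∀ ω ω', s ω = s ω' ↔ s' ω = s' ω')
    (F : Ω → ℝ) : cavg s F = cavg s' F := by
  funext ω
  have : fib s ω = fib s' ω := by
    ext x; simp only [mem_fib, h]
  unfold cavg
  rw [this]

end Fibres

section Entropy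

variable {Ω S T : Type} [Fintype Ω]

lemma phi_zero : phi 0 = 0 := by simp [phi]

lemma phi_one : phi 1 = 0 := by simp [phi]

lemma phi_mul {a x : ℝ} (ha : 0 < a) (hx : 0 ≤ x) : phi (a * x) = a * phi x + x * phi a := by
  rcases hx.lt_or_eq with hx | hx
  · unfold phi
    rw [Real.log_mul ha.ne' hx.ne']
    ring
  · subst hx
    simp [phi]

lemma sub_one_le_phi {x : ℝ} (hx : 0 ≤ x) : x - 1 ≤ phi x := by
  rcases hx.lt_or_eq with hx | hx
  · have h := Real.one_sub_inv_le_log_of_pos hx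
    have := mul_le_mul_of_nonneg_left h hx.le
    unfold phi
    have h2 : x * (1 - x⁻¹) = x - 1 := by field_simp
    linarith
  · subst hx
    simp [phi]

/-- Pointwise log-sum inequality. -/
lemma sub_le_mul_log_div {a c : ℝ} (ha : 0 ≤ a) (hc : 0 < c) : a - c ≤ a * Real.log (a / c) := by
  rcases ha.lt_or_eq with ha | ha
  · have h := Real.one_sub_inv_le_log_of_pos (div_pos ha hc)
    have := mul_le_mul_of_nonneg_left h ha.le
    have h2 : a * (1 - (a / c)⁻¹) = a - c := by field_simp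
    linarith
  · subst ha
    simp
    exact hc.le

/-- Relative entropy of two functions (averages). -/
noncomputable def KL (F G : Ω → ℝ) : ℝ := avg (fun ω => F ω * Real.log (F ω / G ω))

/-- Data processing for relative entropy. -/
lemma kl_cavg_le (s : Ω → S) {F G : Ω → ℝ} (hF : ∀ ω, 0 ≤ F ω) (hG : ∀ ω, 0 ≤ G ω)
    (hFG : ∀ ω, G ω = 0 → F ω = 0) :
    avg (fun ω => cavg s F ω * Real.log (cavg s F ω / cavg s G ω)) ≤
      avg (fun ω => F ω * Real.log (F ω / G ω)) := by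
  set f := cavg s F with hf
  set g := cavg s G with hg
  have hfg : ∀ ω, g ω = 0 → f ω = 0 := by
    intro ω h0
    have h1 : ∀ ω' ∈ fib s ω, G ω' = 0 := by
      intro ω' hω'
      apply cavg_eq_zero (s := s) hG
      rw [cavg_eq_of_eq G (mem_fib.1 hω')]
      exact h0
    have h2 : ∀ ω' ∈ fib s ω, F ω' = 0 := fun ω' h => hFG ω' (h1 ω' h)
    rw [hf]
    unfold cavg
    rw [Finset.sum_eq_zero h2, zero_div]
  have hf0 : ∀ ω, 0 ≤ f ω := cavg_nonneg s hF
  have hg0 : ∀ ω, 0 ≤ g ω := cavg_nonneg s hG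
  have pt : ∀ ω, F ω - G ω * (f ω / g ω) + F ω * Real.log (f ω / g ω) ≤
      F ω * Real.log (F ω / G ω) := by
    intro ω
    rcases (hF ω).lt_or_eq with h | h
    · have hGpos : 0 < G ω := by
        rcases (hG ω).lt_or_eq with h' | h'
        · exact h'
        · have := hFG ω h'.symm
          linarith
      have hfpos : 0 < f ω := cavg_pos hF h
      have hgpos : 0 < g ω := cavg_pos hG hGpos
      have h1 := sub_le_mul_log_div h.le (mul_pos hGpos (div_pos hfpos hgpos))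
      have h2 : Real.log (F ω / (G ω * (f ω / g ω))) =
          Real.log (F ω / G ω) - Real.log (f ω / g ω) := by
        rw [Real.log_div h.ne' (mul_pos hGpos (div_pos hfpos hgpos)).ne',
          Real.log_mul hGpos.ne' (div_pos hfpos hgpos).ne', Real.log_div h.ne' hGpos.ne']
        ring
      rw [h2] at h1
      linarith
    · rw [← h]
      have : 0 ≤ G ω * (f ω / g ω) := mul_nonneg (hG ω) (div_nonneg (hf0 ω) (hg0 ω))
      simp
      exact this
  have h1 := avg_mono pt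
  have hc1 : ∀ ω ω', s ω = s ω' → f ω / g ω = f ω' / g ω' := by
    intro ω ω' h
    rw [hf, hg, cavg_eq_of_eq F h, cavg_eq_of_eq G h]
  have hc2 : ∀ ω ω', s ω = s ω' → Real.log (f ω / g ω) = Real.log (f ω' / g ω') := by
    intro ω ω' h
    rw [hc1 ω ω' h]
  have e1 : avg (fun ω => F ω - G ω * (f ω / g ω) + F ω * Real.log (f ω / g ω)) =
      avg F - avg (fun ω => G ω * (f ω / g ω)) + avg (fun ω => F ω * Real.log (f ω / g ω)) := by
    rw [avg_add (fun ω => F ω - G ω * (f ω / g ω)) (fun ω => F ω * Real.log (f ω / g ω)),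
      avg_sub]
  rw [e1, ← avg_cavg_mul s G (fun ω => f ω / g ω) hc1,
    ← avg_cavg_mul s F (fun ω => Real.log (f ω / g ω)) hc2] at h1
  have e2 : avg (fun ω => cavg s G ω * (f ω / g ω)) = avg F := by
    rw [← avg_cavg s F]
    apply avg_congr
    intro ω
    change g ω * (f ω / g ω) = f ω
    by_cases h0 : g ω = 0
    · rw [hfg ω h0]; simp
    · field_simp
  rw [e2] at h1
  linarith

lemma kl_cavg_le' (s : Ω → S) {F G : Ω → ℝ} (hF : ∀ ω, 0 ≤ F ω) (hG : ∀ ω, 0 ≤ G ω)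
    (hFG : ∀ ω, G ω = 0 → F ω = 0) : KL (cavg s F) (cavg s G) ≤ KL F G :=
  kl_cavg_le s hF hG hFG

lemma Phi_eq_kl_one (F : Ω → ℝ) : Phi F = KL F (fun _ => 1) := by
  unfold Phi KL phi
  simp

/-- Jensen for conditional averages. -/
lemma Phi_cavg_le (s : Ω → S) {F : Ω → ℝ} (hF : ∀ ω, 0 ≤ F ω) : Phi (cavg s F) ≤ Phi F := by
  have h := kl_cavg_le' s (F := F) (G := fun _ => 1) hF (fun _ => zero_le_one)
    (fun _ h => absurd h one_ne_zero)
  rw [Phi_eq_kl_one, Phi_eq_kl_one]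
  have h1 : cavg s (fun _ : Ω => (1 : ℝ)) = fun _ => 1 := funext (fun ω => cavg_const s 1 ω)
  rwa [h1] at h

/-- Jensen for averages. -/
lemma phi_avg_le [Nonempty Ω] {F : Ω → ℝ} (hF : ∀ ω, 0 ≤ F ω) : phi (avg F) ≤ Phi F := by
  have h := Phi_cavg_le (fun _ : Ω => ()) hF
  have h1 : cavg (fun _ : Ω => ()) F = fun _ => avg F := funext (fun ω => cavg_unit F ω)
  rw [h1] at h
  unfold Phi at h
  rw [avg_const] at h
  exact h

/-- Jensen with a finer and a coarser map. -/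
lemma Phi_cavg_mono (s : Ω → S) (s' : Ω → T) {F : Ω → ℝ} (hF : ∀ ω, 0 ≤ F ω)
    (h : ∀ ω ω', s' ω = s' ω' → s ω = s ω') : Phi (cavg s F) ≤ Phi (cavg s' F) := by
  rw [← cavg_cavg_of_finer s s' F h]
  exact Phi_cavg_le s (cavg_nonneg s' hF)

/-- Chain rule: relative entropy to the conditional average. -/
lemma kl_self_cavg (s : Ω → S) {F : Ω → ℝ} (hF : ∀ ω, 0 ≤ F ω) :
    KL F (cavg s F) = Phi F - Phi (cavg s F) := by
  have pt : ∀ ω, F ω * Real.log (F ω / cavg s F ω) =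
      phi (F ω) - F ω * Real.log (cavg s F ω) := by
    intro ω
    rcases (hF ω).lt_or_eq with h | h
    · rw [Real.log_div h.ne' (cavg_pos hF h).ne']
      unfold phi
      ring
    · rw [← h]; simp [phi]
  unfold KL
  rw [avg_congr pt, avg_sub, ← avg_cavg_mul s F (fun ω => Real.log (cavg s F ω))
    (fun ω ω' h => by rw [cavg_eq_of_eq F h])]
  rfl

lemma Phi_const_mul [Nonempty Ω] {a : ℝ} (ha : 0 < a) {F : Ω → ℝ} (hF : ∀ ω, 0 ≤ F ω) :
    Phi (fun ω => a * F ω) = a * Phi F + avg F * phi a := by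
  unfold Phi
  rw [avg_congr (fun ω => phi_mul ha (hF ω)), avg_add, avg_const_mul, avg_mul_const]

end Entropy

section Transport

variable {Ω Ω' S T : Type} [Fintype Ω] [Fintype Ω']

lemma avg_equiv (e : Ω ≃ Ω') (F : Ω' → ℝ) : avg (fun ω => F (e ω)) = avg F := by
  unfold avg
  rw [Equiv.sum_comp e F, Fintype.card_congr e]

lemma fib_equiv (e : Ω ≃ Ω') (s : Ω' → S) (ω : Ω) :
    fib (fun ω => s (e ω)) ω = (fib s (e ω)).map e.symm.toEmbedding := by
  ext x
  simp only [mem_fib, Finset.mem_map, Equiv.coe_toEmbedding]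
  constructor
  · intro h
    exact ⟨e x, h, by simp⟩
  · rintro ⟨y, hy, rfl⟩
    simpa using hy

lemma cavg_equiv (e : Ω ≃ Ω') (s : Ω' → S) (F : Ω' → ℝ) (ω : Ω) :
    cavg (fun ω => s (e ω)) (fun ω => F (e ω)) ω = cavg s F (e ω) := by
  unfold cavg
  rw [fib_equiv, Finset.card_map, Finset.sum_map]
  simp

lemma Phi_equiv (e : Ω ≃ Ω') (F : Ω' → ℝ) : Phi (fun ω => F (e ω)) = Phi F := by
  unfold Phi
  exact avg_equiv e (fun ω => phi (F ω))

lemma LP_equiv (e : Ω ≃ Ω') {s : Ω' → S} {t : Ω' → T} {ε : ℝ} (h : LP s t ε) :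
    LP (fun ω => s (e ω)) (fun ω => t (e ω)) ε := by
  intro F hF
  have h1 := h (fun ω' => F (e.symm ω')) (fun ω' => hF _)
  have hs : Phi (cavg (fun ω => s (e ω)) F) = Phi (cavg s (fun ω' => F (e.symm ω'))) := by
    rw [← Phi_equiv e (cavg s (fun ω' => F (e.symm ω')))]
    congr 1
    funext ω
    rw [← cavg_equiv e s (fun ω' => F (e.symm ω')) ω]
    simp
  have ht : Phi (cavg (fun ω => t (e ω)) F) = Phi (cavg t (fun ω' => F (e.symm ω'))) := by
    rw [← Phi_equiv e (cavg t (fun ω' => F (e.symm ω')))]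
    congr 1
    funext ω
    rw [← cavg_equiv e t (fun ω' => F (e.symm ω')) ω]
    simp
  have hP : Phi (fun ω' => F (e.symm ω')) = Phi F := Phi_equiv e.symm F
  have hA : avg (fun ω' => F (e.symm ω')) = avg F := avg_equiv e.symm F
  rw [hs, ht, ← hP, ← hA]
  exact h1

lemma LP_congr_maps {S' T' : Type} {s : Ω → S} {t : Ω → T} {s' : Ω → S'} {t' : Ω → T'} {ε : ℝ}
    (hs : ∀ ω ω', s ω = s ω' ↔ s' ω = s' ω') (ht : ∀ ω ω', t ω = t ω' ↔ t' ω = t' ω')
    (h : LP s t ε) : LP s' t' ε := by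
  intro F hF
  rw [← cavg_congr_map hs F, ← cavg_congr_map ht F]
  exact h F hF

end Transport

end Vale.Agent.P162
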