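import Mathlib
import Vale.Agent.P162.Defs

/-!
# Bonami's hypercontractive inequality (2 → 2m) on the discrete cube
-/

namespace Vale.Agent.P162

open Finset

/-- splitting a sum over `range (2m+1)` into even and odd indices -/
lemma sum_range_even_odd (f : ℕ → ℝ) (m : ℕ) :
    ∑ k ∈ range (2 * m + 1), f k
      = ∑ j ∈ range (m + 1), f (2 * j) + ∑ j ∈ range m, f (2 * j + 1) := by
  induction m with
  | zero => simp
  | succ m ih =>
    have h1 : 2 * (m + 1) + 1 = (2 * m + 1) + 1 + 1 := by ring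
    rw [h1, sum_range_succ, sum_range_succ, ih, sum_range_succ (fun j => f (2 * j)) (m + 1),
      sum_range_succ (fun j => f (2 * j + 1)) m]
    have h2 : 2 * (m + 1) = 2 * m + 1 + 1 := by ring
    rw [h2]
    ring

lemma choose_two_mul_le (m : ℕ) : ∀ j : ℕ,
    (((2 * m).choose (2 * j) : ℕ) : ℝ) ≤ ((m.choose j : ℕ) : ℝ) * ((2 * m - 1 : ℝ)) ^ j := by
  intro j
  rcases Nat.eq_zero_or_pos m with hm | hm
  · subst hm
    rcases Nat.eq_zero_or_pos j with hj | hj
    · subst hj; simp
    · rw [Nat.choose_eq_zero_of_lt (by omega), Nat.choose_eq_zero_of_lt (by omega)]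
      simp
  have hm1 : (1 : ℝ) ≤ 2 * m - 1 := by
    have : (1 : ℝ) ≤ m := by exact_mod_cast hm
    linarith
  induction j with
  | zero => simp
  | succ j ih =>
    rcases Nat.lt_or_ge j m with hj | hj
    · -- recursion
      have e1 : ((2 * m).choose (2 * j + 1 + 1)) * (2 * j + 1 + 1)
          = (2 * m).choose (2 * j + 1) * (2 * m - (2 * j + 1)) := Nat.choose_succ_right_eq _ _
      have e2 : ((2 * m).choose (2 * j + 1)) * (2 * j + 1)
          = (2 * m).choose (2 * j) * (2 * m - 2 * j) := Nat.choose_succ_right_eq _ _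
      have e3 : (m.choose (j + 1)) * (j + 1) = m.choose j * (m - j) :=
        Nat.choose_succ_right_eq _ _
      have f1 : ((2 * m).choose (2 * (j + 1)) : ℝ) * (2 * j + 2)
          = ((2 * m).choose (2 * j + 1) : ℝ) * (2 * m - 2 * j - 1) := by
        have : ((((2 * m).choose (2 * j + 1 + 1)) * (2 * j + 1 + 1) : ℕ) : ℝ)
          = (((2 * m).choose (2 * j + 1) * (2 * m - (2 * j + 1)) : ℕ) : ℝ) := by rw [e1]
        rw [Nat.cast_mul, Nat.cast_mul, Nat.cast_sub (by omega)] at this
        push_cast at this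
        have h2 : 2 * (j + 1) = 2 * j + 1 + 1 := by ring
        rw [h2]
        linarith
      have f2 : ((2 * m).choose (2 * j + 1) : ℝ) * (2 * j + 1)
          = ((2 * m).choose (2 * j) : ℝ) * (2 * m - 2 * j) := by
        have : ((((2 * m).choose (2 * j + 1)) * (2 * j + 1) : ℕ) : ℝ)
          = (((2 * m).choose (2 * j) * (2 * m - 2 * j) : ℕ) : ℝ) := by rw [e2]
        rw [Nat.cast_mul, Nat.cast_mul, Nat.cast_sub (by omega)] at this
        push_cast at this
        linarith
      have f3 : ((m.choose (j + 1)) : ℝ) * (j + 1) = (m.choose j : ℝ) * (m - j) := by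
        have : (((m.choose (j + 1)) * (j + 1) : ℕ) : ℝ) = ((m.choose j * (m - j) : ℕ) : ℝ) := by
          rw [e3]
        rw [Nat.cast_mul, Nat.cast_mul, Nat.cast_sub (by omega)] at this
        push_cast at this
        linarith
      have hjm : (j : ℝ) + 1 ≤ m := by exact_mod_cast hj
      have hj0 : (0 : ℝ) ≤ j := Nat.cast_nonneg j
      -- C(2m,2j+2) = C(2m,2j) (m-j)(2m-2j-1)/((j+1)(2j+1))
      have key : ((2 * m).choose (2 * (j + 1)) : ℝ) * ((j + 1) * (2 * j + 1))
          = ((2 * m).choose (2 * j) : ℝ) * ((m - j) * (2 * m - 2 * j - 1)) := by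
        have : ((2 * m).choose (2 * (j + 1)) : ℝ) * (2 * j + 2) * (2 * j + 1)
          = ((2 * m).choose (2 * j) : ℝ) * (2 * m - 2 * j) * (2 * m - 2 * j - 1) := by
          rw [f1]
          calc ((2 * m).choose (2 * j + 1) : ℝ) * (2 * m - 2 * j - 1) * (2 * j + 1)
              = (((2 * m).choose (2 * j + 1) : ℝ) * (2 * j + 1)) * (2 * m - 2 * j - 1) := by ring
            _ = _ := by rw [f2]
        nlinarith [this]
      have hpos : (0 : ℝ) < (j + 1) * (2 * j + 1) := by positivity
      refine le_of_mul_le_mul_right ?_ hpos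
      rw [key]
      have h4 : ((m.choose (j + 1) : ℕ) : ℝ) * (2 * m - 1) ^ (j + 1) * ((j + 1) * (2 * j + 1))
          = ((m.choose j : ℝ) * (2 * m - 1) ^ j) * ((m - j) * ((2 * m - 1) * (2 * j + 1))) := by
        rw [pow_succ]
        calc ((m.choose (j + 1) : ℕ) : ℝ) * ((2 * m - 1) ^ j * (2 * m - 1)) * ((j + 1) * (2 * j + 1))
            = (((m.choose (j + 1) : ℕ) : ℝ) * (j + 1)) * (2 * m - 1) ^ j
              * ((2 * m - 1) * (2 * j + 1)) := by ring
          _ = _ := by rw [f3]; ring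
      rw [h4]
      refine mul_le_mul ih ?_ ?_ ?_
      · refine mul_le_mul_of_nonneg_left ?_ (by linarith)
        nlinarith
      · exact mul_nonneg (by linarith) (by linarith)
      · exact mul_nonneg (Nat.cast_nonneg _) (pow_nonneg (by linarith) _)
    · rw [Nat.choose_eq_zero_of_lt (by omega)]
      simp only [Nat.cast_zero]
      exact mul_nonneg (Nat.cast_nonneg _) (pow_nonneg (by linarith) _)

/-- the two-point inequality -/
lemma two_point (m : ℕ) {ρ : ℝ} (hρ : ρ ^ 2 * (2 * m - 1) ≤ 1) (a b : ℝ) :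
    (a + ρ * b) ^ (2 * m) + (a - ρ * b) ^ (2 * m) ≤ 2 * (a ^ 2 + b ^ 2) ^ m := by
  rcases Nat.eq_zero_or_pos m with hm | hm
  · subst hm; norm_num
  have hm1 : (1 : ℝ) ≤ 2 * m - 1 := by
    have : (1 : ℝ) ≤ m := by exact_mod_cast hm
    linarith
  have e1 : (a + ρ * b) ^ (2 * m) + (a - ρ * b) ^ (2 * m)
      = 2 * ∑ j ∈ range (m + 1), (ρ ^ 2 * b ^ 2) ^ j * (a ^ 2) ^ (m - j) * ((2 * m).choose (2 * j)) := by
    have h1 := add_pow (ρ * b) a (2 * m)
    have h2 := add_pow (-(ρ * b)) a (2 * m)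
    rw [add_comm a (ρ * b), show a - ρ * b = -(ρ * b) + a by ring, h1, h2,
      sum_range_even_odd, sum_range_even_odd]
    have h3 : ∀ j ∈ range m, (-(ρ * b)) ^ (2 * j + 1) * a ^ (2 * m - (2 * j + 1))
        * ((2 * m).choose (2 * j + 1) : ℝ)
        = - ((ρ * b) ^ (2 * j + 1) * a ^ (2 * m - (2 * j + 1)) * ((2 * m).choose (2 * j + 1) : ℝ)) := by
      intro j _
      rw [Odd.neg_pow (by exact odd_two_mul_add_one j)]
      ring
    rw [sum_congr rfl h3, sum_neg_distrib]
    have h4 : ∀ j ∈ range (m + 1), (-(ρ * b)) ^ (2 * j) * a ^ (2 * m - 2 * j)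
        * ((2 * m).choose (2 * j) : ℝ)
        = (ρ ^ 2 * b ^ 2) ^ j * (a ^ 2) ^ (m - j) * ((2 * m).choose (2 * j)) := by
      intro j hj
      rw [pow_mul, neg_sq, mul_pow, show 2 * m - 2 * j = 2 * (m - j) by omega, pow_mul a]
    have h5 : ∀ j ∈ range (m + 1), (ρ * b) ^ (2 * j) * a ^ (2 * m - 2 * j)
        * ((2 * m).choose (2 * j) : ℝ)
        = (ρ ^ 2 * b ^ 2) ^ j * (a ^ 2) ^ (m - j) * ((2 * m).choose (2 * j)) := by
      intro j hj
      rw [pow_mul, mul_pow, show 2 * m - 2 * j = 2 * (m - j) by omega, pow_mul a]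
    rw [sum_congr rfl h4, sum_congr rfl h5]
    ring
  rw [e1, add_comm (a ^ 2) (b ^ 2), add_pow (b ^ 2) (a ^ 2) m]
  refine mul_le_mul_of_nonneg_left ?_ (by norm_num)
  refine sum_le_sum fun j _ => ?_
  rw [mul_pow]
  have hc := choose_two_mul_le m j
  have h6 : (ρ ^ 2) ^ j * ((2 * m).choose (2 * j) : ℝ) ≤ (m.choose j : ℝ) := by
    calc (ρ ^ 2) ^ j * ((2 * m).choose (2 * j) : ℝ)
        ≤ (ρ ^ 2) ^ j * ((m.choose j : ℝ) * (2 * m - 1) ^ j) :=
          mul_le_mul_of_nonneg_left hc (by positivity)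
      _ = (ρ ^ 2 * (2 * m - 1)) ^ j * (m.choose j : ℝ) := by rw [mul_pow]; ring
      _ ≤ 1 * (m.choose j : ℝ) := by
          refine mul_le_mul_of_nonneg_right ?_ (Nat.cast_nonneg _)
          exact pow_le_one₀ (mul_nonneg (sq_nonneg _) (by linarith)) hρ
      _ = _ := one_mul _
  calc (ρ ^ 2) ^ j * (b ^ 2) ^ j * (a ^ 2) ^ (m - j) * ((2 * m).choose (2 * j) : ℝ)
      = ((b ^ 2) ^ j * (a ^ 2) ^ (m - j)) * ((ρ ^ 2) ^ j * ((2 * m).choose (2 * j) : ℝ)) := by ring
    _ ≤ ((b ^ 2) ^ j * (a ^ 2) ^ (m - j)) * (m.choose j : ℝ) :=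
        mul_le_mul_of_nonneg_left h6 (by positivity)

/-- Minkowski's inequality in the form we need: if the averages of `X^m` and `Y^m` are at most
`α^m`, `β^m` then that of `(X+Y)^m` is at most `(α+β)^m`. -/
lemma mink {X : Type*} [Fintype X] (m : ℕ) (w : X → ℝ) (hw : ∀ x, 0 ≤ w x)
    (F G : X → ℝ) (hF : ∀ x, 0 ≤ F x) (hG : ∀ x, 0 ≤ G x) {α β W : ℝ} (hα : 0 ≤ α) (hβ : 0 ≤ β)
    (_hW : 0 ≤ W)
    (h1 : ∑ x, w x * F x ^ m ≤ W * α ^ m) (h2 : ∑ x, w x * G x ^ m ≤ W * β ^ m)
    (h0 : ∑ x, w x ≤ W) :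
    ∑ x, w x * (F x + G x) ^ m ≤ W * (α + β) ^ m := by
  rcases Nat.eq_zero_or_pos m with hm | hm
  · subst hm; simpa using h0
  have hm' : m ≠ 0 := by omega
  rcases eq_or_lt_of_le hα with hα' | hα'
  · -- α = 0
    have hz : ∀ x, w x * F x ^ m = 0 := by
      have : ∑ x, w x * F x ^ m ≤ 0 := by rw [← hα', zero_pow hm', mul_zero] at h1; exact h1
      have h3 : ∑ x, w x * F x ^ m = 0 :=
        le_antisymm this (sum_nonneg fun x _ => mul_nonneg (hw x) (pow_nonneg (hF x) _))
      intro x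
      exact (sum_eq_zero_iff_of_nonneg (fun x _ => mul_nonneg (hw x) (pow_nonneg (hF x) _))).1 h3 x
        (mem_univ x)
    have hz2 : ∀ x, w x * (F x + G x) ^ m = w x * G x ^ m := by
      intro x
      rcases mul_eq_zero.1 (hz x) with h | h
      · rw [h]; simp
      · rw [pow_eq_zero_iff hm'] at h
        rw [h, zero_add]
    rw [sum_congr rfl fun x _ => hz2 x, ← hα', zero_add]
    exact h2
  rcases eq_or_lt_of_le hβ with hβ' | hβ'
  · have hz : ∀ x, w x * G x ^ m = 0 := by
      have : ∑ x, w x * G x ^ m ≤ 0 := by rw [← hβ', zero_pow hm', mul_zero] at h2; exact h2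
      have h3 : ∑ x, w x * G x ^ m = 0 :=
        le_antisymm this (sum_nonneg fun x _ => mul_nonneg (hw x) (pow_nonneg (hG x) _))
      intro x
      exact (sum_eq_zero_iff_of_nonneg (fun x _ => mul_nonneg (hw x) (pow_nonneg (hG x) _))).1 h3 x
        (mem_univ x)
    have hz2 : ∀ x, w x * (F x + G x) ^ m = w x * F x ^ m := by
      intro x
      rcases mul_eq_zero.1 (hz x) with h | h
      · rw [h]; simp
      · rw [pow_eq_zero_iff hm'] at h
        rw [h, add_zero]
    rw [sum_congr rfl fun x _ => hz2 x, ← hβ', add_zero]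
    exact h1
  -- main case
  have hs : 0 < α + β := by linarith
  have conv := convexOn_pow (𝕜 := ℝ) m
  have key : ∀ x, (F x + G x) ^ m
      ≤ (α + β) ^ m * (α / (α + β) * (F x / α) ^ m + β / (α + β) * (G x / β) ^ m) := by
    intro x
    have hab : α / (α + β) + β / (α + β) = 1 := by rw [← add_div, div_self hs.ne']
    have h := conv.2 (Set.mem_Ici.2 (div_nonneg (hF x) hα)) (Set.mem_Ici.2 (div_nonneg (hG x) hβ))
      (div_nonneg hα hs.le) (div_nonneg hβ hs.le) hab
    simp only [smul_eq_mul] at h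
    have e : F x + G x = (α + β) * (α / (α + β) * (F x / α) + β / (α + β) * (G x / β)) := by
      field_simp
    rw [e, mul_pow]
    refine mul_le_mul_of_nonneg_left ?_ (by positivity)
    exact h
  calc ∑ x, w x * (F x + G x) ^ m
      ≤ ∑ x, w x * ((α + β) ^ m * (α / (α + β) * (F x / α) ^ m + β / (α + β) * (G x / β) ^ m)) :=
        sum_le_sum fun x _ => mul_le_mul_of_nonneg_left (key x) (hw x)
    _ = (α + β) ^ m * (α / (α + β) * ((∑ x, w x * F x ^ m) / α ^ m)
          + β / (α + β) * ((∑ x, w x * G x ^ m) / β ^ m)) := by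
        rw [sum_div, sum_div, mul_sum, mul_sum, ← sum_add_distrib, mul_sum]
        refine sum_congr rfl fun x _ => ?_
        rw [div_pow, div_pow]
        ring
    _ ≤ (α + β) ^ m * (α / (α + β) * W + β / (α + β) * W) := by
        refine mul_le_mul_of_nonneg_left ?_ (by positivity)
        refine add_le_add ?_ ?_
        · refine mul_le_mul_of_nonneg_left ?_ (by positivity)
          rw [div_le_iff₀ (by positivity)]
          exact h1
        · refine mul_le_mul_of_nonneg_left ?_ (by positivity)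
          rw [div_le_iff₀ (by positivity)]
          exact h2
    _ = W * (α + β) ^ m := by
        rw [← add_mul, ← add_div, div_self hs.ne', one_mul, mul_comm]

variable {ι : Type} [DecidableEq ι]

@[simp] lemma sgn_not (b : Bool) : sgn (!b) = - sgn b := by cases b <;> simp [sgn]

lemma sgn_sq (b : Bool) : sgn b * sgn b = 1 := by cases b <;> simp [sgn]

/-- flipping a coordinate -/
def flip (a : ι) (x : ι → Bool) : ι → Bool := Function.update x a (!(x a))

lemma flip_flip (a : ι) (x : ι → Bool) : flip a (flip a x) = x := by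
  unfold flip; simp

/-- flip as an equivalence of the cube -/
def flipEquiv (a : ι) : (ι → Bool) ≃ (ι → Bool) where
  toFun := flip a
  invFun := flip a
  left_inv := flip_flip a
  right_inv := flip_flip a

lemma chi_flip_of_notMem {a : ι} {S : Finset ι} (h : a ∉ S) (x : ι → Bool) :
    chi S (flip a x) = chi S x := by
  unfold chi flip
  refine prod_congr rfl fun i hi => ?_
  have hne : i ≠ a := by
    intro e
    rw [e] at hi
    exact h hi
  rw [Function.update_of_ne hne]

variable [Fintype ι]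

/-- **Bonami's inequality** in induction form. -/
lemma bonami_aux (m : ℕ) {ρ : ℝ} (hρ : ρ ^ 2 * (2 * m - 1) ≤ 1) (T : Finset ι) :
    ∀ c : Finset ι → ℝ,
      ∑ x : ι → Bool, (∑ S ∈ T.powerset, ρ ^ S.card * c S * chi S x) ^ (2 * m)
        ≤ (2 : ℝ) ^ Fintype.card ι * (∑ S ∈ T.powerset, c S ^ 2) ^ m := by
  induction T using Finset.induction_on with
  | empty =>
    intro c
    simp only [powerset_empty, sum_singleton, card_empty, pow_zero, one_mul, chi, prod_empty,
      mul_one, sum_const, card_univ, Fintype.card_fun, Fintype.card_bool, nsmul_eq_mul,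
      Nat.cast_pow, Nat.cast_ofNat]
    rw [pow_mul]
  | insert a T ha ih =>
    intro c
    have hsplit : ∀ x : ι → Bool, ∑ S ∈ (insert a T).powerset, ρ ^ S.card * c S * chi S x
        = (∑ S ∈ T.powerset, ρ ^ S.card * c S * chi S x)
          + ρ * ((sgn (x a)) * (∑ S ∈ T.powerset, ρ ^ S.card * c (insert a S) * chi S x)) := by
      intro x
      rw [sum_powerset_insert ha, mul_sum, mul_sum]
      congr 1
      refine sum_congr rfl fun S hS => ?_
      have haS : a ∉ S := fun h => ha (mem_powerset.1 hS h)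
      unfold chi
      rw [card_insert_of_notMem haS, prod_insert haS, pow_succ]
      ring
    have hsplit2 : ∑ S ∈ (insert a T).powerset, c S ^ 2
        = ∑ S ∈ T.powerset, c S ^ 2 + ∑ S ∈ T.powerset, c (insert a S) ^ 2 :=
      sum_powerset_insert ha _
    set G : (ι → Bool) → ℝ := fun x => ∑ S ∈ T.powerset, ρ ^ S.card * c S * chi S x with hG
    set H : (ι → Bool) → ℝ := fun x => ∑ S ∈ T.powerset, ρ ^ S.card * c (insert a S) * chi S x
      with hH
    have hGf : ∀ x, G (flip a x) = G x := by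
      intro x
      refine sum_congr rfl fun S hS => ?_
      rw [chi_flip_of_notMem (fun h => ha (mem_powerset.1 hS h))]
    have hHf : ∀ x, H (flip a x) = H x := by
      intro x
      refine sum_congr rfl fun S hS => ?_
      rw [chi_flip_of_notMem (fun h => ha (mem_powerset.1 hS h))]
    have e0 : ∑ x : ι → Bool, (∑ S ∈ (insert a T).powerset, ρ ^ S.card * c S * chi S x) ^ (2 * m)
        = ∑ x : ι → Bool, (G x + ρ * (sgn (x a) * H x)) ^ (2 * m) :=
      sum_congr rfl fun x _ => by rw [hsplit x]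
    have e1 : ∑ x : ι → Bool, (G x + ρ * (sgn (x a) * H x)) ^ (2 * m)
        = ∑ x : ι → Bool, (G x - ρ * (sgn (x a) * H x)) ^ (2 * m) := by
      rw [← Equiv.sum_comp (flipEquiv a)]
      refine sum_congr rfl fun x _ => ?_
      have : flipEquiv a x = flip a x := rfl
      rw [this, hGf, hHf]
      have h2 : flip a x a = !(x a) := by unfold flip; simp
      rw [h2, sgn_not]
      ring
    have e2 : ∑ x : ι → Bool, (G x + ρ * (sgn (x a) * H x)) ^ (2 * m)
        ≤ ∑ x : ι → Bool, (G x ^ 2 + H x ^ 2) ^ m := by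
      have h2 : 2 * ∑ x : ι → Bool, (G x + ρ * (sgn (x a) * H x)) ^ (2 * m)
          ≤ 2 * ∑ x : ι → Bool, (G x ^ 2 + H x ^ 2) ^ m := by
        calc 2 * ∑ x : ι → Bool, (G x + ρ * (sgn (x a) * H x)) ^ (2 * m)
            = ∑ x : ι → Bool, (G x + ρ * (sgn (x a) * H x)) ^ (2 * m)
              + ∑ x : ι → Bool, (G x - ρ * (sgn (x a) * H x)) ^ (2 * m) := by
                rw [← e1]; ring
          _ = ∑ x : ι → Bool, ((G x + ρ * (sgn (x a) * H x)) ^ (2 * m)
              + (G x - ρ * (sgn (x a) * H x)) ^ (2 * m)) := by rw [sum_add_distrib]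
          _ ≤ ∑ x : ι → Bool, 2 * (G x ^ 2 + H x ^ 2) ^ m := by
                refine sum_le_sum fun x _ => ?_
                have h := two_point m hρ (G x) (sgn (x a) * H x)
                have h3 : (sgn (x a) * H x) ^ 2 = H x ^ 2 := by
                  rw [mul_pow, sq (sgn (x a)), sgn_sq, one_mul]
                rw [h3] at h
                exact h
          _ = 2 * ∑ x : ι → Bool, (G x ^ 2 + H x ^ 2) ^ m := by rw [mul_sum]
      linarith
    rw [e0, hsplit2]
    refine e2.trans ?_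
    have hm := mink (X := ι → Bool) m (fun _ => 1) (fun _ => zero_le_one) (fun x => G x ^ 2)
      (fun x => H x ^ 2) (fun x => sq_nonneg _) (fun x => sq_nonneg _)
      (α := ∑ S ∈ T.powerset, c S ^ 2) (β := ∑ S ∈ T.powerset, c (insert a S) ^ 2)
      (W := (2 : ℝ) ^ Fintype.card ι)
      (sum_nonneg fun _ _ => sq_nonneg _) (sum_nonneg fun _ _ => sq_nonneg _) (by positivity)
      (by
        have := ih c
        simp only [one_mul, ← pow_mul]
        exact this)
      (by
        have := ih (fun S => c (insert a S))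
        simp only [one_mul, ← pow_mul]
        exact this)
      (by simp)
    simpa using hm

/-- **Bonami's inequality**: for `ρ² (2m-1) ≤ 1`,
`E (∑_S ρ^{|S|} c_S χ_S)^{2m} ≤ (∑_S c_S²)^m`. -/
theorem bonami (m : ℕ) {ρ : ℝ} (hρ : ρ ^ 2 * (2 * m - 1) ≤ 1) (c : Finset ι → ℝ) :
    ∑ x : ι → Bool, (∑ S : Finset ι, ρ ^ S.card * c S * chi S x) ^ (2 * m)
      ≤ (2 : ℝ) ^ Fintype.card ι * (∑ S : Finset ι, c S ^ 2) ^ m := by
  have := bonami_aux m hρ (univ : Finset ι) c
  simpa using this

end Vale.Agent.P162
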