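import Mathlib
import Vale.Agent.P162.Defs
import Vale.Agent.P162.Basic

/-! T7, part 1: the local inequality for one pair of coordinates. -/

namespace Vale.Agent.P162

open Finset

section pullback

variable {Ω Φ S S0 : Type} [Fintype Ω] [Fintype Φ]

lemma cavg_pullback (s0 : Ω → S0) (s : Ω → S) (hs : ∀ ω ω', s ω = s ω' → s0 ω = s0 ω')
    (ω0 : Ω) (j : Φ → Ω) (hj : Function.Injective j)
    (hr : ∀ ω, s0 ω = s0 ω0 ↔ ∃ φ, j φ = ω) (F : Ω → ℝ) (φ : Φ) :
    cavg s F (j φ) = cavg (fun x => s (j x)) (fun x => F (j x)) φ := by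
  have h : fib s (j φ) = (fib (fun x => s (j x)) φ).map ⟨j, hj⟩ := by
    ext ω
    simp only [mem_fib, mem_map, Function.Embedding.coeFn_mk]
    constructor
    · intro hω
      have h1 : s0 ω = s0 ω0 := by
        rw [hs _ _ hω]
        exact (hr _).2 ⟨φ, rfl⟩
      obtain ⟨x, rfl⟩ := (hr _).1 h1
      exact ⟨x, hω, rfl⟩
    · rintro ⟨x, hx, rfl⟩
      exact hx
  unfold cavg
  rw [h, sum_map, card_map]
  rfl

lemma cavg_base (s0 : Ω → S0) (ω0 : Ω) (j : Φ → Ω) (hj : Function.Injective j)
    (hr : ∀ ω, s0 ω = s0 ω0 ↔ ∃ φ, j φ = ω) (G : Ω → ℝ) :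
    cavg s0 G ω0 = avg (fun x => G (j x)) := by
  have h : fib s0 ω0 = (univ : Finset Φ).map ⟨j, hj⟩ := by
    ext ω
    simp only [mem_fib, mem_map, mem_univ, true_and, Function.Embedding.coeFn_mk]
    exact hr ω
  unfold cavg avg
  rw [h, sum_map, card_map, card_univ]
  rfl

end pullback

/-- Conditional form of `LP`: if `LP` holds on every fibre of `s0` then it holds conditionally. -/
lemma cond_LP {Ω S T U S0 : Type} [Fintype Ω] (s0 : Ω → S0) (s : Ω → S) (t : Ω → T) (u : Ω → U)
    (hs0 : ∀ ω ω', s ω = s ω' → s0 ω = s0 ω') (ht0 : ∀ ω ω', t ω = t ω' → s0 ω = s0 ω')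
    (hus : ∀ ω ω', u ω = u ω' → s ω = s ω') (hut : ∀ ω ω', u ω = u ω' → t ω = t ω') {ε : ℝ}
    (Φ : Type) [Fintype Φ]
    (h : ∀ ω0 : Ω, ∃ j : Φ → Ω, Function.Injective j ∧ (∀ ω, s0 ω = s0 ω0 ↔ ∃ φ, j φ = ω) ∧
      LP (fun x => s (j x)) (fun x => t (j x)) ε)
    (F : Ω → ℝ) (hF : ∀ ω, 0 ≤ F ω) :
    Phi (cavg s F) + Phi (cavg t F) ≤ (1 + ε) * Phi (cavg u F) + (1 - ε) * Phi (cavg s0 F) := by
  set G := cavg u F with hG
  have hG0 : ∀ ω, 0 ≤ G ω := cavg_nonneg u hF
  have es : cavg s F = cavg s G := (cavg_cavg_of_finer s u F hus).symm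
  have et : cavg t F = cavg t G := (cavg_cavg_of_finer t u F hut).symm
  have e0 : cavg s0 F = cavg s0 G :=
    (cavg_cavg_of_finer s0 u F (fun ω ω' h => hs0 _ _ (hus _ _ h))).symm
  rw [es, et, e0]
  have key : ∀ ω0, cavg s0 (fun ω => phi (cavg s G ω)) ω0 + cavg s0 (fun ω => phi (cavg t G ω)) ω0
      ≤ (1 + ε) * cavg s0 (fun ω => phi (G ω)) ω0 + (1 - ε) * phi (cavg s0 G ω0) := by
    intro ω0
    obtain ⟨j, hj, hr, hLP⟩ := h ω0
    have h1 := hLP (fun x => G (j x)) (fun x => hG0 _)
    rw [cavg_base s0 ω0 j hj hr, cavg_base s0 ω0 j hj hr, cavg_base s0 ω0 j hj hr,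
      cavg_base s0 ω0 j hj hr]
    have e1 : ∀ x, cavg s G (j x) = cavg (fun x => s (j x)) (fun x => G (j x)) x :=
      fun x => cavg_pullback s0 s hs0 ω0 j hj hr G x
    have e2 : ∀ x, cavg t G (j x) = cavg (fun x => t (j x)) (fun x => G (j x)) x :=
      fun x => cavg_pullback s0 t ht0 ω0 j hj hr G x
    simp only [e1, e2]
    exact h1
  have hav := avg_mono key
  rw [avg_add, avg_add, avg_const_mul, avg_const_mul] at hav
  have a1 : avg (fun ω0 => cavg s0 (fun ω => phi (cavg s G ω)) ω0) = Phi (cavg s G) :=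
    avg_cavg s0 _
  have a2 : avg (fun ω0 => cavg s0 (fun ω => phi (cavg t G ω)) ω0) = Phi (cavg t G) :=
    avg_cavg s0 _
  have a3 : avg (fun ω0 => cavg s0 (fun ω => phi (G ω)) ω0) = Phi G := avg_cavg s0 _
  rw [a1, a2, a3] at hav
  exact hav

/-! ### The fibres of the label map -/

section fibre

variable {d : ℕ} (A : Finset (Fin d))

/-- coordinates in `A` -/
abbrev CA := {j : Fin d // j ∈ A} → Bool
/-- coordinates outside `A` -/
abbrev CW := {j : Fin d // j ∉ A} → Bool

/-- splitting of the coordinates -/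
def spl : (Fin d → Bool) ≃ CA A × CW A := Equiv.piEquivPiSubtypeProd (fun j => j ∈ A) (fun _ => Bool)

lemma spl_fst (x : Fin d → Bool) (j : {j : Fin d // j ∈ A}) : (spl A x).1 j = x j := rfl
lemma spl_snd (x : Fin d → Bool) (j : {j : Fin d // j ∉ A}) : (spl A x).2 j = x j := rfl

lemma spl_symm_mem (a : CA A) (w : CW A) {j : Fin d} (hj : j ∈ A) :
    (spl A).symm (a, w) j = a ⟨j, hj⟩ := by
  have := spl_fst A ((spl A).symm (a, w)) ⟨j, hj⟩
  rw [Equiv.apply_symm_apply] at this
  exact this.symm

lemma spl_symm_notMem (a : CA A) (w : CW A) {j : Fin d} (hj : j ∉ A) :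
    (spl A).symm (a, w) j = w ⟨j, hj⟩ := by
  have := spl_snd A ((spl A).symm (a, w)) ⟨j, hj⟩
  rw [Equiv.apply_symm_apply] at this
  exact this.symm

/-- a family of permutations of the `A`-classes, as a permutation of all positions -/
def glue (π : CA A → Equiv.Perm (CW A)) : Equiv.Perm (Fin d → Bool) where
  toFun x := (spl A).symm ((spl A x).1, π (spl A x).1 (spl A x).2)
  invFun x := (spl A).symm ((spl A x).1, (π (spl A x).1).symm (spl A x).2)
  left_inv x := by simp
  right_inv x := by simp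

lemma glue_apply (π : CA A → Equiv.Perm (CW A)) (x : Fin d → Bool) :
    glue A π x = (spl A).symm ((spl A x).1, π (spl A x).1 (spl A x).2) := rfl

lemma glue_injective : Function.Injective (glue A) := by
  intro π π' h
  funext a
  ext1 w
  have h1 : glue A π ((spl A).symm (a, w)) = glue A π' ((spl A).symm (a, w)) := by rw [h]
  rw [glue_apply, glue_apply, Equiv.apply_symm_apply] at h1
  exact (Prod.ext_iff.1 ((spl A).symm.injective h1)).2

lemma lab_eq_iff' (I : Finset (Fin d)) (X Y : Equiv.Perm (Fin d → Bool)) :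
    lab I X = lab I Y ↔ ∀ c, ∀ i ∈ I, X c i = Y c i := by
  constructor
  · intro h c i hi
    have := congrFun (congrFun h c) i
    unfold lab at this
    rwa [if_pos hi, if_pos hi] at this
  · intro h
    funext c i
    unfold lab
    split_ifs with hi
    · exact h c i hi
    · rfl

lemma fst_of_lab {X Y : Equiv.Perm (Fin d → Bool)} (h : lab A X = lab A Y) (c : Fin d → Bool) :
    (spl A (X c)).1 = (spl A (Y c)).1 := by
  funext j
  rw [spl_fst, spl_fst]
  exact (lab_eq_iff' A X Y).1 h c j j.2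

/-- the permutation of one class extracted from two labelled permutations -/
def unglue {X Y : Equiv.Perm (Fin d → Bool)} (h : lab A X = lab A Y) (a : CA A) :
    Equiv.Perm (CW A) where
  toFun w := (spl A (X (Y.symm ((spl A).symm (a, w))))).2
  invFun w := (spl A (Y (X.symm ((spl A).symm (a, w))))).2
  left_inv w := by
    have h1 : (spl A (X (Y.symm ((spl A).symm (a, w))))).1 = a := by
      rw [fst_of_lab A h, Equiv.apply_symm_apply, Equiv.apply_symm_apply]
    have h2 : (spl A).symm (a, (spl A (X (Y.symm ((spl A).symm (a, w))))).2)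
        = X (Y.symm ((spl A).symm (a, w))) := by
      rw [Equiv.symm_apply_eq]
      exact Prod.ext h1.symm rfl
    simp only
    rw [h2, Equiv.symm_apply_apply, Equiv.apply_symm_apply, Equiv.apply_symm_apply]
  right_inv w := by
    have h1 : (spl A (Y (X.symm ((spl A).symm (a, w))))).1 = a := by
      rw [← fst_of_lab A h, Equiv.apply_symm_apply, Equiv.apply_symm_apply]
    have h2 : (spl A).symm (a, (spl A (Y (X.symm ((spl A).symm (a, w))))).2)
        = Y (X.symm ((spl A).symm (a, w))) := by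
      rw [Equiv.symm_apply_eq]
      exact Prod.ext h1.symm rfl
    simp only
    rw [h2, Equiv.symm_apply_apply, Equiv.apply_symm_apply, Equiv.apply_symm_apply]

lemma lab_fibre (X0 X : Equiv.Perm (Fin d → Bool)) :
    lab A X = lab A X0 ↔ ∃ π, glue A π * X0 = X := by
  constructor
  · intro h
    refine ⟨fun a => unglue A h a, ?_⟩
    ext1 c
    rw [Equiv.Perm.mul_apply, glue_apply, Equiv.symm_apply_eq]
    refine Prod.ext (fst_of_lab A h c).symm ?_
    change (spl A (X (X0.symm ((spl A).symm ((spl A (X0 c)).1, (spl A (X0 c)).2))))).2 = _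
    rw [Prod.mk.eta, Equiv.symm_apply_apply, Equiv.symm_apply_apply]
  · rintro ⟨π, rfl⟩
    rw [lab_eq_iff']
    intro c i hi
    rw [Equiv.Perm.mul_apply, glue_apply, spl_symm_mem A _ _ hi, spl_fst]

lemma lab_insert_glue {k : Fin d} (hk : k ∉ A) (X0 : Equiv.Perm (Fin d → Bool))
    (π π' : CA A → Equiv.Perm (CW A)) :
    (fun a => (fun w : CW A => w ⟨k, hk⟩) ∘ (π a)) = (fun a => (fun w : CW A => w ⟨k, hk⟩) ∘ (π' a))
      ↔ lab (insert k A) (glue A π * X0) = lab (insert k A) (glue A π' * X0) := by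
  rw [lab_eq_iff']
  constructor
  · intro h c i hi
    rw [Equiv.Perm.mul_apply, Equiv.Perm.mul_apply, glue_apply, glue_apply]
    rcases mem_insert.1 hi with rfl | hi
    · rw [spl_symm_notMem A _ _ hk, spl_symm_notMem A _ _ hk]
      exact congrFun (congrFun h (spl A (X0 c)).1) (spl A (X0 c)).2
    · rw [spl_symm_mem A _ _ hi, spl_symm_mem A _ _ hi]
  · intro h
    funext a w
    have h1 := h (X0.symm ((spl A).symm (a, w))) k (mem_insert_self _ _)
    rw [Equiv.Perm.mul_apply, Equiv.Perm.mul_apply, glue_apply, glue_apply,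
      Equiv.apply_symm_apply, Equiv.apply_symm_apply, spl_symm_notMem A _ _ hk,
      spl_symm_notMem A _ _ hk] at h1
    exact h1

lemma card_cell {J : Type} [Fintype J] [DecidableEq J] {k i : J} (hki : k ≠ i) (x y : Bool) :
    (univ.filter (fun w : J → Bool => w k = x ∧ w i = y)).card = 2 ^ (Fintype.card J - 2) := by
  have h1 : (univ.filter (fun w : J → Bool => w k = x ∧ w i = y))
      = Fintype.piFinset (fun j => if j = k then {x} else if j = i then {y} else univ) := by
    ext w
    simp only [mem_filter, mem_univ, true_and, Fintype.mem_piFinset]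
    constructor
    · rintro ⟨h1, h2⟩ j
      split_ifs with hj hj'
      · rw [hj, mem_singleton]; exact h1
      · rw [hj', mem_singleton]; exact h2
      · exact mem_univ _
    · intro h
      constructor
      · have := h k
        rw [if_pos rfl, mem_singleton] at this
        exact this
      · have := h i
        rw [if_neg hki.symm, if_pos rfl, mem_singleton] at this
        exact this
  rw [h1, Fintype.card_piFinset]
  have h2 : ∀ j ∈ (univ : Finset J),
      (if j = k then ({x} : Finset Bool) else if j = i then {y} else univ).card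
        = if j ∈ ({k, i} : Finset J) then 1 else 2 := by
    intro j _
    by_cases hjk : j = k
    · simp [hjk]
    · by_cases hji : j = i
      · simp [hji, hki.symm]
      · simp [hjk, hji]
  rw [prod_congr rfl h2, prod_ite]
  simp only [prod_const_one, one_mul, prod_const]
  congr 1
  have h3 : (univ.filter (fun j : J => j ∉ ({k, i} : Finset J))) = univ \ {k, i} := by
    ext j; simp
  rw [h3, card_sdiff_of_subset (subset_univ _), card_univ, card_pair hki]

end fibre

/-- The local inequality. -/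
theorem local_ineq (hT : S_TENSOR) {ε : ℝ} {r : ℕ}
    (hTab : ∀ (W : Type) [Fintype W] [DecidableEq W] (row col : W → Bool),
      Tab row col (2 ^ r) → LP (Ω := Equiv.Perm W) (fun π => row ∘ π) (fun π => col ∘ π) ε)
    {d : ℕ} (A : Finset (Fin d)) (k i : Fin d) (hki : k ≠ i) (hk : k ∉ A) (hi : i ∉ A)
    (hr : d - 2 - A.card = r)
    (F : Equiv.Perm (Fin d → Bool) → ℝ) (hF : ∀ X, 0 ≤ F X) :
    Phi (cavg (lab (insert k A)) F) + Phi (cavg (lab (insert i A)) F) ≤
      (1 + ε) * Phi (cavg (lab (insert k (insert i A))) F) + (1 - ε) * Phi (cavg (lab A) F) := by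
  classical
  have fin : ∀ (I J : Finset (Fin d)), I ⊆ J → ∀ X Y : Equiv.Perm (Fin d → Bool),
      lab J X = lab J Y → lab I X = lab I Y := by
    intro I J hIJ X Y h
    rw [lab_eq_iff'] at h ⊢
    exact fun c i hi => h c i (hIJ hi)
  refine cond_LP (lab A) (lab (insert k A)) (lab (insert i A)) (lab (insert k (insert i A)))
    (fin _ _ (subset_insert _ _)) (fin _ _ (subset_insert _ _))
    (fin _ _ (insert_subset_insert _ (subset_insert _ _)))
    (fin _ _ (subset_insert _ _)) (CA A → Equiv.Perm (CW A)) ?_ F hF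
  intro X0
  refine ⟨fun π => glue A π * X0, ?_, lab_fibre A X0, ?_⟩
  · intro π π' h
    exact glue_injective A (mul_right_cancel h)
  · have hcard : Fintype.card {j : Fin d // j ∉ A} - 2 = r := by
      rw [Fintype.card_subtype_compl, Fintype.card_fin, Fintype.card_coe, ← hr]
      omega
    have htab : Tab (fun w : CW A => w ⟨k, hk⟩) (fun w : CW A => w ⟨i, hi⟩) (2 ^ r) := by
      intro x y
      rw [← hcard]
      convert card_cell (J := {j : Fin d // j ∉ A}) (k := ⟨k, hk⟩) (i := ⟨i, hi⟩)
        (fun e => hki (congrArg Subtype.val e)) x y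
    have hLP := hTab (CW A) _ _ htab
    have hten := hT _ _ _ _ _ _ hLP (CA A)
    exact LP_congr_maps (fun π π' => lab_insert_glue A hk X0 π π')
      (fun π π' => lab_insert_glue A hi X0 π π') hten

end Vale.Agent.P162
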