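import Mathlib
import Vale.Agent.P162.Defs
import Vale.Agent.P162.Basic
import Vale.Agent.P162.Butterfly1

/-! T7: constant entropy contraction for one butterfly. -/

namespace Vale.Agent.P162

open Finset

/-- a set of naturals as a set of coordinates -/
def cof (d : ℕ) (I : Finset ℕ) : Finset (Fin d) := univ.filter (fun j => (j : ℕ) ∈ I)

lemma mem_cof {d : ℕ} {I : Finset ℕ} {j : Fin d} : j ∈ cof d I ↔ (j : ℕ) ∈ I := by
  unfold cof; simp

lemma cof_insert {d : ℕ} (I : Finset ℕ) (k : ℕ) (hk : k < d) :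
    cof d (insert k I) = insert ⟨k, hk⟩ (cof d I) := by
  ext j
  rw [mem_cof, mem_insert, mem_insert, mem_cof, Fin.ext_iff]

lemma cof_mono {d : ℕ} {I J : Finset ℕ} (h : I ⊆ J) : cof d I ⊆ cof d J := by
  intro j hj
  rw [mem_cof] at hj ⊢
  exact h hj

lemma card_cof {d : ℕ} {I : Finset ℕ} (h : I ⊆ range d) : (cof d I).card = I.card := by
  rw [← card_map Fin.valEmbedding]
  congr 1
  ext a
  simp only [mem_map, mem_cof, Fin.valEmbedding_apply]
  constructor
  · rintro ⟨j, hj, rfl⟩; exact hj
  · intro ha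
    exact ⟨⟨a, mem_range.1 (h ha)⟩, ha, rfl⟩

lemma lab_refine {d : ℕ} {I J : Finset (Fin d)} (hIJ : I ⊆ J) (X Y : Equiv.Perm (Fin d → Bool))
    (h : lab J X = lab J Y) : lab I X = lab I Y := by
  rw [lab_eq_iff'] at h ⊢
  exact fun c i hi => h c i (hIJ hi)

lemma law_nonneg {d : ℕ} {f : Equiv.Perm (Fin d → Bool) → ℝ} (hf : ∀ X, 0 ≤ f X) (t : ℕ) :
    ∀ X, 0 ≤ law f t X := by
  induction t with
  | zero => exact hf
  | succ t ih =>
    intro X
    unfold law
    split_ifs
    · exact cavg_nonneg _ ih X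
    · exact ih X

lemma avg_law {d : ℕ} (f : Equiv.Perm (Fin d → Bool) → ℝ) (t : ℕ) : avg (law f t) = avg f := by
  induction t with
  | zero => rfl
  | succ t ih =>
    unfold law
    split_ifs
    · rw [avg_cavg, ih]
    · exact ih

theorem butterfly : S_TENSOR → S_TRIANGLE → S_TABLE → S_BUTTERFLY := by
  rintro hT hTri ⟨ε, hsum, hε0, hε1, hTab⟩
  -- summability of γ
  set γ : ℕ → ℝ := fun r => ε r / (1 - ε r) with hγ
  have hγ0 : ∀ r, 0 ≤ γ r := fun r => div_nonneg (hε0 r) (by linarith [hε1 r])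
  have hγsum : Summable γ := by
    have hev : ∀ᶠ r in Filter.atTop, ‖γ r‖ ≤ 2 * ε r := by
      have h1 : ∀ᶠ r in Filter.atTop, ε r < 1 / 2 :=
        (hsum.tendsto_atTop_zero).eventually (gt_mem_nhds (by norm_num))
      filter_upwards [h1] with r hr
      rw [Real.norm_of_nonneg (hγ0 r)]
      have h2 := hε0 r
      rw [hγ]
      simp only
      rw [div_le_iff₀ (by linarith)]
      nlinarith
    exact Summable.of_norm_bounded_eventually_nat (hsum.mul_left 2) hev
  have hγ2 : Summable (fun r => 2 * γ r) := hγsum.mul_left 2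
  set C : ℝ := Real.exp (∑' r, 2 * γ r) with hC
  have hprod : ∀ d : ℕ, ∏ r ∈ range d, (1 + 2 * γ r) ≤ C := by
    intro d
    calc ∏ r ∈ range d, (1 + 2 * γ r) ≤ ∏ r ∈ range d, Real.exp (2 * γ r) := by
          refine prod_le_prod (fun r _ => by linarith [hγ0 r]) fun r _ => ?_
          rw [add_comm]
          exact Real.add_one_le_exp _
      _ = Real.exp (∑ r ∈ range d, 2 * γ r) := (Real.exp_sum _ _).symm
      _ ≤ C := by
          rw [hC]
          exact Real.exp_le_exp.2 (hγ2.sum_le_tsum _ fun r _ => by linarith [hγ0 r])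
  refine ⟨C, Real.exp_pos _, ?_⟩
  intro d f hf
  obtain ⟨H, hH⟩ : ∃ H : ℕ → Finset ℕ → ℝ, ∀ t I, H t I = Phi (cavg (lab (cof d I)) (law f t)) :=
    ⟨_, fun _ _ => rfl⟩
  have hcofu : cof d (range d) = univ := by
    ext j; simp [mem_cof]
  have hcofe : cof d ∅ = ∅ := by
    ext j; simp [mem_cof]
  have hcofer : ∀ t (ht : t < d), cof d ((range d).erase t) = univ.erase ⟨t, ht⟩ := by
    intro t ht
    ext j
    rw [mem_cof, mem_erase, mem_erase, Ne, Ne, Fin.ext_iff]
    simp
  have hcavgu : ∀ G : Equiv.Perm (Fin d → Bool) → ℝ,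
      cavg (lab (univ : Finset (Fin d))) G = G := by
    intro G
    refine cavg_of_injective (fun X Y h => ?_) G
    rw [lab_eq_iff'] at h
    ext1 c
    funext i
    exact h c i (mem_univ _)
  have hH_univ : ∀ t, H t (range d) = Phi (law f t) := by
    intro t
    rw [hH, hcofu, hcavgu]
  have hmono : ∀ t I J, I ⊆ J → J ⊆ range d → H t I ≤ H t J := by
    intro t I J hIJ _
    rw [hH, hH]
    exact Phi_cavg_mono _ _ (law_nonneg hf t) (fun X Y h => lab_refine (cof_mono hIJ) X Y h)
  have hinv : ∀ t I, t < d → I ⊆ range d → t ∉ I → H (t + 1) I = H t I := by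
    intro t I ht hI htI
    rw [hH, hH]
    have hlaw : law f (t + 1) = cavg (lab (univ.erase ⟨t, ht⟩)) (law f t) := by
      simp only [law]
      rw [dif_pos ht]
    rw [hlaw, cavg_cavg_of_finer]
    intro X Y h
    refine lab_refine ?_ X Y h
    intro j hj
    rw [mem_cof] at hj
    rw [mem_erase]
    refine ⟨?_, mem_univ _⟩
    rintro rfl
    exact htI hj
  have hupd : ∀ t, t < d → H (t + 1) (range d) = H t ((range d).erase t) := by
    intro t ht
    rw [hH_univ, hH, hcofer t ht]
    congr 1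
    simp only [law]
    rw [dif_pos ht]
  have hloc : ∀ t k i A, t ≤ d → k < d → i < d → k ≠ i → A ⊆ range d → k ∉ A → i ∉ A →
        H t (insert k A) + H t (insert i A) ≤
          (1 + ε (d - 2 - A.card)) * H t (insert k (insert i A))
            + (1 - ε (d - 2 - A.card)) * H t A := by
    intro t k i A _ hk hi hki hA hkA hiA
    rw [hH, hH, hH, hH, cof_insert A k hk, cof_insert A i hi, cof_insert _ k hk,
      cof_insert A i hi]
    refine local_ineq hT (r := d - 2 - A.card) (fun W _ _ row col htab => hTab _ W row col htab)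
      (cof d A) ⟨k, hk⟩ ⟨i, hi⟩ (fun e => hki (congrArg Fin.val e)) ?_ ?_ ?_ (law f t)
      (law_nonneg hf t)
    · rw [mem_cof]; exact hkA
    · rw [mem_cof]; exact hiA
    · rw [card_cof hA]
  have hmain := hTri d ε hε0 hε1 H hmono hinv hupd hloc
  rw [hH_univ, hH_univ] at hmain
  have hempty : H d ∅ = phi (avg f) := by
    rw [hH, hcofe]
    have : cavg (lab (∅ : Finset (Fin d))) (law f d) = fun _ => avg f := by
      rw [← avg_law f d]
      funext X
      rw [← cavg_unit (law f d) X]
      refine congrFun (cavg_congr_map (fun X Y => ?_) (law f d)) X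
      rw [lab_eq_iff']
      simp
    rw [this]
    unfold Phi
    exact avg_const _
  rw [hempty] at hmain
  have hdiff : 0 ≤ Phi (law f 0) - Phi (law f d) := by
    have hstep : ∀ t, t < d → Phi (law f (t + 1)) ≤ Phi (law f t) := by
      intro t ht
      rw [← hH_univ, ← hH_univ, hupd t ht]
      exact hmono t _ _ (erase_subset _ _) (Subset.refl _)
    have hall : ∀ t, t ≤ d → Phi (law f t) ≤ Phi (law f 0) := by
      intro t
      induction t with
      | zero => intro _; exact le_refl _
      | succ t ih => intro h; exact (hstep t (by omega)).trans (ih (by omega))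
    linarith [hall d le_rfl]
  have h0 : law f 0 = f := rfl
  rw [h0] at hmain hdiff
  refine hmain.trans ?_
  refine mul_le_mul_of_nonneg_right ?_ hdiff
  have := hprod d
  have hCpos : 0 < C := Real.exp_pos _
  have h3 : (1 / 2) * (∏ r ∈ range d, (1 + 2 * (ε r / (1 - ε r))) - 1) ≤ (1 / 2) * (C - 1) := by
    refine mul_le_mul_of_nonneg_left ?_ (by norm_num)
    linarith
  linarith

end Vale.Agent.P162
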