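import Vale.Agent.P162.Slice

namespace Vale.Agent.P162

open Finset

lemma cc_odd (N i : ℕ) : cc N (2 * i + 1) = 0 := by
  induction i with
  | zero => simp [cc]
  | succ i ih =>
    have : 2 * (i + 1) + 1 = (2 * i + 1) + 2 := by ring
    rw [this, cc, ih, mul_zero]

lemma cc_step (N i : ℕ) : |cc N (2 * (i + 1))| =
    ((2 * (i : ℝ) + 1) / |(N : ℝ) - 2 * i - 1|) * |cc N (2 * i)| := by
  have : 2 * (i + 1) = 2 * i + 2 := by ring
  rw [this, cc, abs_mul, abs_neg, abs_div]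
  push_cast
  rw [abs_of_pos (by positivity : (0 : ℝ) < 2 * (i : ℝ) + 1)]

lemma cc_bound1 (N I : ℕ) (q : ℝ) (hq : 0 < q)
    (h : ∀ t < I, (2 * (t : ℝ) + 1) * q ^ 2 ≤ (N : ℝ) - 2 * t - 1) :
    ∀ i ≤ I, |cc N (2 * i)| ≤ (1 / q) ^ (2 * i) := by
  intro i
  induction i with
  | zero => intro _; simp [cc]
  | succ i ih =>
    intro hi
    have h1 := ih (by omega)
    have h2 := h i (by omega)
    rw [cc_step]
    have hpos : 0 < (N : ℝ) - 2 * i - 1 := lt_of_lt_of_le (by positivity) h2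
    rw [abs_of_pos hpos]
    have h3 : (2 * (i : ℝ) + 1) / ((N : ℝ) - 2 * i - 1) ≤ (1 / q) ^ 2 := by
      rw [div_le_iff₀ hpos, one_div, inv_pow, inv_mul_eq_div, le_div_iff₀ (by positivity)]
      exact h2
    calc _ ≤ (1 / q) ^ 2 * (1 / q) ^ (2 * i) :=
          mul_le_mul h3 h1 (abs_nonneg _) (by positivity)
      _ = _ := by rw [← pow_add]; congr 1; ring

lemma cc_bound2 (N I : ℕ) (q : ℝ) (hq : 0 < q)
    (h : ∀ t < I, (2 * (t : ℝ) + 1) * q ^ 2 ≤ (N : ℝ) - 2 * t - 1) :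
    ∀ i, 1 ≤ i → i ≤ I → |cc N (2 * i)| ≤ q ^ 2 / ((N : ℝ) - 1) * (1 / q) ^ (2 * i) := by
  intro i
  induction i with
  | zero => intro h; omega
  | succ i ih =>
    intro _ hi
    have h0 := h 0 (by omega)
    simp only [Nat.cast_zero, mul_zero, zero_add, one_mul, sub_zero] at h0
    have hN : 0 < (N : ℝ) - 1 := lt_of_lt_of_le (by positivity) h0
    rcases Nat.eq_zero_or_pos i with rfl | hi0
    · rw [cc_step]
      simp only [Nat.cast_zero, mul_zero, zero_add, sub_zero, cc, abs_one, mul_one]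
      rw [abs_of_pos hN]
      apply le_of_eq
      field_simp
    · have h1 := ih hi0 (by omega)
      have h2 := h i (by omega)
      rw [cc_step]
      have hpos : 0 < (N : ℝ) - 2 * i - 1 := lt_of_lt_of_le (by positivity) h2
      rw [abs_of_pos hpos]
      have h3 : (2 * (i : ℝ) + 1) / ((N : ℝ) - 2 * i - 1) ≤ (1 / q) ^ 2 := by
        rw [div_le_iff₀ hpos, one_div, inv_pow, inv_mul_eq_div, le_div_iff₀ (by positivity)]
        exact h2
      calc _ ≤ (1 / q) ^ 2 * (q ^ 2 / ((N : ℝ) - 1) * (1 / q) ^ (2 * i)) :=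
            mul_le_mul h3 h1 (abs_nonneg _) (by positivity)
        _ = _ := by ring

lemma cc_bound3 (N I : ℕ) (q : ℝ) (hq : 0 < q)
    (h : ∀ t < I, (2 * (t : ℝ) + 1) * q ^ 2 ≤ (N : ℝ) - 2 * t - 1) :
    ∀ i, I ≤ i → 4 * i ≤ N → |cc N (2 * i)| ≤ (1 / q) ^ (2 * I) := by
  intro i hi
  induction i, hi using Nat.le_induction with
  | base => intro _; exact cc_bound1 N I q hq h I le_rfl
  | succ i hi ih =>
    intro hN
    have h1 := ih (by omega)
    have hN' : ((4 * (i + 1) : ℕ) : ℝ) ≤ (N : ℝ) := by exact_mod_cast hN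
    push_cast at hN'
    have hi0 : (0 : ℝ) ≤ (i : ℝ) := Nat.cast_nonneg i
    have hpos : 0 < (N : ℝ) - 2 * i - 1 := by linarith
    rw [cc_step, abs_of_pos hpos]
    have h3 : (2 * (i : ℝ) + 1) / ((N : ℝ) - 2 * i - 1) ≤ 1 := by
      rw [div_le_one hpos]; linarith
    calc _ ≤ 1 * |cc N (2 * i)| := mul_le_mul_of_nonneg_right h3 (abs_nonneg _)
      _ ≤ _ := by rw [one_mul]; exact h1

lemma cc_bound (N I : ℕ) (q : ℝ) (hq : 0 < q)
    (h : ∀ t < I, (2 * (t : ℝ) + 1) * q ^ 2 ≤ (N : ℝ) - 2 * t - 1) (hN : 1 < N) (j : ℕ)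
    (hj : 1 ≤ j) (hjN : 2 * j ≤ N) :
    |cc N j| ≤ q ^ 2 / ((N : ℝ) - 1) * (1 / q) ^ j + (1 / q) ^ (2 * I) := by
  have hN1 : (0 : ℝ) < (N : ℝ) - 1 := by
    have : (1 : ℝ) < (N : ℝ) := by exact_mod_cast hN
    linarith
  have hp1 : 0 ≤ q ^ 2 / ((N : ℝ) - 1) * (1 / q) ^ j := by positivity
  have hp2 : 0 ≤ (1 / q) ^ (2 * I) := by positivity
  rcases Nat.even_or_odd' j with ⟨i, rfl | rfl⟩
  · rcases le_total i I with hi | hi
    · have := cc_bound2 N I q hq h i (by omega) hi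
      linarith
    · have := cc_bound3 N I q hq h i hi (by omega)
      linarith
  · rw [cc_odd, abs_zero]; positivity

end Vale.Agent.P162
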