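import Vale.Agent.P162.Kernel

namespace Vale.Agent.P162

open Finset

set_option linter.unusedSectionVars false

section Count

variable {W : Type} [Fintype W] [DecidableEq W]

lemma card_four (x y : W → Bool) :
    (univ.filter (fun w => x w = true ∧ y w = true)).card +
    (univ.filter (fun w => x w = true ∧ y w = false)).card +
    (univ.filter (fun w => x w = false ∧ y w = true)).card +
    (univ.filter (fun w => x w = false ∧ y w = false)).card = Fintype.card W := by
  have e : ∀ a b : Bool, (univ.filter (fun w => x w = a ∧ y w = b)).card =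
      ∑ w : W, if x w = a ∧ y w = b then 1 else 0 := by
    intro a b; rw [Finset.card_filter]
  rw [e, e, e, e, ← Finset.sum_add_distrib, ← Finset.sum_add_distrib, ← Finset.sum_add_distrib,
    ← Finset.card_univ, Finset.card_eq_sum_ones]
  apply Finset.sum_congr rfl
  intro w _
  cases x w <;> cases y w <;> simp

lemma card_row (x y : W → Bool) (a : Bool) :
    (univ.filter (fun w => x w = a)).card =
    (univ.filter (fun w => x w = a ∧ y w = true)).card +
    (univ.filter (fun w => x w = a ∧ y w = false)).card := by
  have e : ∀ a b : Bool, (univ.filter (fun w => x w = a ∧ y w = b)).card =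
      ∑ w : W, if x w = a ∧ y w = b then 1 else 0 := by
    intro a b; rw [Finset.card_filter]
  rw [e, e, ← Finset.sum_add_distrib, Finset.card_filter]
  apply Finset.sum_congr rfl
  intro w _
  cases x w <;> cases y w <;> cases a <;> simp

lemma card_col (x y : W → Bool) (a : Bool) :
    (univ.filter (fun w => y w = a)).card =
    (univ.filter (fun w => x w = true ∧ y w = a)).card +
    (univ.filter (fun w => x w = false ∧ y w = a)).card := by
  have e : ∀ a b : Bool, (univ.filter (fun w => x w = a ∧ y w = b)).card =
      ∑ w : W, if x w = a ∧ y w = b then 1 else 0 := by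
    intro a b; rw [Finset.card_filter]
  rw [e, e, ← Finset.sum_add_distrib, Finset.card_filter]
  apply Finset.sum_congr rfl
  intro w _
  cases x w <;> cases y w <;> cases a <;> simp

lemma card_diag (x y : W → Bool) :
    (univ.filter (fun w => xmul x y w = true)).card =
    (univ.filter (fun w => x w = true ∧ y w = true)).card +
    (univ.filter (fun w => x w = false ∧ y w = false)).card := by
  have e : ∀ a b : Bool, (univ.filter (fun w => x w = a ∧ y w = b)).card =
      ∑ w : W, if x w = a ∧ y w = b then 1 else 0 := by
    intro a b; rw [Finset.card_filter]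
  rw [e, e, ← Finset.sum_add_distrib, Finset.card_filter]
  apply Finset.sum_congr rfl
  intro w _
  unfold xmul
  cases x w <;> cases y w <;> simp

lemma tab_iff (x y : W → Bool) {b : ℕ} (hW : Fintype.card W = 4 * b) :
    Tab x y b ↔ (x ∈ bal W ∧ y ∈ bal W ∧ xmul x y ∈ bal W) := by
  have h4 := card_four x y
  have h1 := card_row x y true
  have h2 := card_col x y true
  have h3 := card_diag x y
  rw [mem_bal_iff, mem_bal_iff, mem_bal_iff]
  constructor
  · intro h
    have a1 := h true true
    have a2 := h true false
    have a3 := h false true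
    have a4 := h false false
    omega
  · rintro ⟨g1, g2, g3⟩ a c
    cases a <;> cases c <;> omega

lemma tab_card {x y : W → Bool} {b : ℕ} (h : Tab x y b) : Fintype.card W = 4 * b := by
  have h4 := card_four x y
  have a1 := h true true
  have a2 := h true false
  have a3 := h false true
  have a4 := h false false
  omega

lemma card_bool_fib {x : W → Bool} (a : Bool) (hx : x ∈ bal W) :
    2 * (univ.filter (fun w => x w = a)).card = Fintype.card W := by
  cases a
  · exact (mem_bal_iff' x).1 hx
  · exact (mem_bal_iff x).1 hx

lemma orb_bal {x : W → Bool} (hx : x ∈ bal W) : orb x = bal W := by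
  ext k
  constructor
  · intro hk
    simp only [orb, mem_filter, mem_univ, true_and] at hk
    rw [mem_bal_iff, hk true]
    exact card_bool_fib true hx
  · intro hk
    simp only [orb, mem_filter, mem_univ, true_and]
    intro a
    have h1 := card_bool_fib a hx
    have h2 := card_bool_fib a hk
    omega

/-- joint labelling -/
def jl (x y : W → Bool) : W → Bool × Bool := fun w => (x w, y w)

lemma jl_fib (x y : W → Bool) (p : Bool × Bool) :
    (univ.filter (fun w => jl x y w = p)).card =
      (univ.filter (fun w => x w = p.1 ∧ y w = p.2)).card := by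
  congr 1
  ext w
  simp [jl, Prod.ext_iff]

lemma mem_orb_jl {row col x y : W → Bool} {b : ℕ} (h : Tab row col b) :
    jl x y ∈ orb (jl row col) ↔ Tab x y b := by
  simp only [orb, mem_filter, mem_univ, true_and, jl_fib]
  constructor
  · intro hk a c
    rw [hk (a, c)]; exact h a c
  · intro hk p
    rw [hk p.1 p.2, h p.1 p.2]

lemma pair_sum {row col : W → Bool} {b : ℕ} (h : Tab row col b)
    (u : (W → Bool) → (W → Bool) → ℝ) :
    ∑ k ∈ orb (jl row col), u (fun w => (k w).1) (fun w => (k w).2) =
      ∑ x, ∑ y, ibal (xmul x y) * (ibal x * ibal y * u x y) := by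
  classical
  rw [← Finset.sum_product']
  have h1 : ∀ p ∈ (univ : Finset (W → Bool)) ×ˢ (univ : Finset (W → Bool)),
      ibal (xmul p.1 p.2) * (ibal p.1 * ibal p.2 * u p.1 p.2) =
      if jl p.1 p.2 ∈ orb (jl row col) then u p.1 p.2 else 0 := by
    intro p _
    have := (mem_orb_jl h).trans (tab_iff p.1 p.2 (tab_card h))
    unfold ibal
    by_cases c1 : p.1 ∈ bal W <;> by_cases c2 : p.2 ∈ bal W <;>
      by_cases c3 : xmul p.1 p.2 ∈ bal W <;> simp [this, c1, c2, c3]
  rw [Finset.sum_congr rfl h1, ← Finset.sum_filter]
  apply Finset.sum_bij' (fun k _ => ((fun w => (k w).1, fun w => (k w).2) : (W → Bool) × (W → Bool)))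
    (fun p _ => jl p.1 p.2)
  · intro k hk
    simp only [mem_filter, mem_product, mem_univ, true_and, and_self]
    exact hk
  · intro p hp
    simp only [mem_filter, mem_product, mem_univ, true_and, and_self] at hp
    exact hp
  · intro k _; rfl
  · intro p _; rfl
  · intro k _; rfl

/-- number of balanced vectors / 2^N -/
lemma beta_empty : beta (∅ : Finset W) = (bal W).card / 2 ^ (Fintype.card W) := by
  unfold beta coef avg
  rw [card_cubeN]
  congr 1
  have : ∀ x ∈ (univ : Finset (W → Bool)), ibal x * chi (∅ : Finset W) x =
      if x ∈ bal W then (1 : ℝ) else 0 := by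
    intro x _; rw [chi_empty, mul_one]; rfl
  rw [Finset.sum_congr rfl this, ← Finset.sum_filter]
  simp

lemma avg_single {x₀ : W → Bool} (hx : x₀ ∈ bal W) (g : (W → Bool) → ℝ) :
    avg (fun π : Equiv.Perm W => g (x₀ ∘ π)) = avg (fun x => g x * ibal x) / beta (∅ : Finset W) := by
  rw [avg_comp_label x₀ g, orb_bal hx, beta_empty]
  have hpos : (0 : ℝ) < (bal W).card := by
    have := orb_card_pos x₀
    rw [orb_bal hx] at this; exact_mod_cast this
  unfold avg
  rw [card_cubeN]
  have : ∑ x, g x * ibal x = ∑ x ∈ bal W, g x := by
    have : ∀ x ∈ (univ : Finset (W → Bool)), g x * ibal x = if x ∈ bal W then g x else 0 := by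
      intro x _; unfold ibal; split <;> simp
    rw [Finset.sum_congr rfl this, ← Finset.sum_filter]; simp
  rw [this]
  field_simp

lemma avg_pair {row col : W → Bool} {b : ℕ} (h : Tab row col b) (g k : (W → Bool) → ℝ) :
    avg (fun π : Equiv.Perm W => g (row ∘ π) * k (col ∘ π)) =
      (2 ^ (Fintype.card W)) ^ 2 / ((orb (jl row col)).card : ℝ) *
        ∑ A : Finset W, beta A * (coef (fun x => g x * ibal x) A * coef (fun x => k x * ibal x) A) := by
  have h1 := avg_comp_label (jl row col) (fun z => g (fun w => (z w).1) * k (fun w => (z w).2))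
  have h2 : (fun π : Equiv.Perm W => g (row ∘ π) * k (col ∘ π)) =
      fun π : Equiv.Perm W => g (fun w => ((jl row col ∘ π) w).1) *
        k (fun w => ((jl row col ∘ π) w).2) := by
    funext π; rfl
  rw [h2, h1, pair_sum h (fun x y => g x * k y)]
  have h3 : ∀ x y : W → Bool, ibal (xmul x y) * (ibal x * ibal y * (g x * k y)) =
      ibal (xmul x y) * ((g x * ibal x) * (k y * ibal y)) := by
    intro x y; ring
  simp_rw [h3]
  rw [kernel_sum (fun x => g x * ibal x) (fun y => k y * ibal y)]
  ring

end Count

end Vale.Agent.P162
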