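import Vale.Agent.P162.Count

namespace Vale.Agent.P162

open Finset

set_option linter.unusedSectionVars false

lemma centralBinom_two_mul_le (b : ℕ) :
    Nat.centralBinom (2 * b) ≤ Nat.centralBinom b * 4 ^ b := by
  have h1 : Nat.centralBinom (2 * b) = (2 * b + 2 * b).choose (2 * b) := by
    rw [Nat.centralBinom_eq_two_mul_choose]; congr 1; ring
  rw [h1, Nat.add_choose_eq]
  have h2 : ∀ ij ∈ Finset.HasAntidiagonal.antidiagonal (2 * b), (2 * b).choose ij.1 * (2 * b).choose ij.2 ≤
      (2 * b).choose ij.1 * Nat.centralBinom b := by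
    intro ij _
    exact Nat.mul_le_mul_left _ (Nat.choose_le_centralBinom _ _)
  refine (Finset.sum_le_sum h2).trans ?_
  rw [← Finset.sum_mul, mul_comm]
  apply Nat.mul_le_mul_left
  rw [Finset.Nat.sum_antidiagonal_eq_sum_range_succ_mk]
  simp only
  rw [Nat.sum_range_choose, pow_mul]
  norm_num

section

variable {W : Type} [Fintype W] [DecidableEq W]

lemma tab_bal {row col : W → Bool} {b : ℕ} (h : Tab row col b) : row ∈ bal W ∧ col ∈ bal W := by
  have := (tab_iff row col (tab_card h)).1 h
  exact ⟨this.1, this.2.1⟩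

lemma card_bal {row col : W → Bool} {b : ℕ} (h : Tab row col b) :
    (bal W).card = Nat.centralBinom (2 * b) := by
  have hW := tab_card h
  have h1 := card_perm_eq row
  rw [orb_bal (tab_bal h).1, stabCard_eq, Fintype.card_perm, hW, Fintype.prod_bool] at h1
  have c1 := card_bool_fib true (tab_bal h).1
  have c2 := card_bool_fib false (tab_bal h).1
  have d1 : (univ.filter (fun w => row w = true)).card = 2 * b := by omega
  have d2 : (univ.filter (fun w => row w = false)).card = 2 * b := by omega
  rw [d1, d2] at h1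
  have h2 : Nat.centralBinom (2 * b) * (2 * b).factorial * (2 * b).factorial =
      (4 * b).factorial := by
    have := Nat.choose_mul_factorial_mul_factorial (n := 2 * (2 * b)) (k := 2 * b) (by omega)
    rw [Nat.centralBinom_eq_two_mul_choose]
    have e : 2 * (2 * b) - 2 * b = 2 * b := by omega
    rw [e] at this
    rw [this]; congr 1; ring
  have hp : 0 < (2 * b).factorial * (2 * b).factorial := by positivity
  have h3 : (2 * b).factorial * (2 * b).factorial * (bal W).card =
      (2 * b).factorial * (2 * b).factorial * Nat.centralBinom (2 * b) := by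
    rw [← h1, ← h2]; ring
  exact Nat.eq_of_mul_eq_mul_left hp h3

lemma card_orb {row col : W → Bool} {b : ℕ} (h : Tab row col b) :
    (orb (jl row col)).card = Nat.centralBinom (2 * b) * Nat.centralBinom b ^ 2 := by
  have hW := tab_card h
  have h1 := card_perm_eq (jl row col)
  rw [stabCard_eq, Fintype.card_perm, hW] at h1
  have e1 : ∏ p : Bool × Bool, ((univ.filter (fun w => jl row col w = p)).card).factorial =
      b.factorial ^ 4 := by
    have : ∀ p ∈ (univ : Finset (Bool × Bool)),
        ((univ.filter (fun w => jl row col w = p)).card).factorial = b.factorial := by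
      intro p _
      rw [jl_fib, h p.1 p.2]
    rw [Finset.prod_congr rfl this, Finset.prod_const]
    congr 1
  rw [e1] at h1
  have h2 : Nat.centralBinom (2 * b) * (2 * b).factorial * (2 * b).factorial =
      (4 * b).factorial := by
    have := Nat.choose_mul_factorial_mul_factorial (n := 2 * (2 * b)) (k := 2 * b) (by omega)
    rw [Nat.centralBinom_eq_two_mul_choose]
    have e : 2 * (2 * b) - 2 * b = 2 * b := by omega
    rw [e] at this
    rw [this]; congr 1; ring
  have h3 : Nat.centralBinom b * b.factorial * b.factorial = (2 * b).factorial := by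
    have := Nat.choose_mul_factorial_mul_factorial (n := 2 * b) (k := b) (by omega)
    rw [Nat.centralBinom_eq_two_mul_choose]
    have e : 2 * b - b = b := by omega
    rw [e] at this
    exact this
  have hp : 0 < b.factorial ^ 4 := by positivity
  have h4 : b.factorial ^ 4 * (orb (jl row col)).card =
      b.factorial ^ 4 * (Nat.centralBinom (2 * b) * Nat.centralBinom b ^ 2) := by
    rw [← h1, ← h2, ← h3]; ring
  exact Nat.eq_of_mul_eq_mul_left hp h4

/-- the density of the slice -/
noncomputable def mu0 (b : ℕ) : ℝ := (Nat.centralBinom (2 * b) : ℝ) / 2 ^ (4 * b)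

/-- the density of orthogonal pairs in the slice -/
noncomputable def oo (b : ℕ) : ℝ := (Nat.centralBinom b : ℝ) ^ 2 / (Nat.centralBinom (2 * b) : ℝ)

lemma mu0_pos (b : ℕ) : 0 < mu0 b := by
  unfold mu0
  have : (0 : ℝ) < Nat.centralBinom (2 * b) := by exact_mod_cast Nat.centralBinom_pos _
  positivity

lemma oo_pos (b : ℕ) : 0 < oo b := by
  unfold oo
  have : (0 : ℝ) < Nat.centralBinom (2 * b) := by exact_mod_cast Nat.centralBinom_pos _
  have : (0 : ℝ) < Nat.centralBinom b := by exact_mod_cast Nat.centralBinom_pos _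
  positivity

lemma mu0_le_oo (b : ℕ) : mu0 b ≤ oo b := by
  unfold mu0 oo
  have h1 : (0 : ℝ) < Nat.centralBinom (2 * b) := by exact_mod_cast Nat.centralBinom_pos _
  have h3 : (Nat.centralBinom (2 * b) : ℝ) ≤ Nat.centralBinom b * 4 ^ b := by
    exact_mod_cast centralBinom_two_mul_le b
  rw [div_le_div_iff₀ (by positivity) h1]
  have e : (2 : ℝ) ^ (4 * b) = (4 ^ b) ^ 2 := by
    rw [← pow_mul]
    have : (4 : ℝ) = 2 ^ 2 := by norm_num
    rw [this, ← pow_mul]
    congr 1; ring
  rw [e, ← sq, ← mul_pow]
  exact pow_le_pow_left₀ h1.le h3 2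

lemma mu0_ge (b : ℕ) (hb : 0 < b) : 1 / (4 * (b : ℝ)) ≤ mu0 b := by
  unfold mu0
  have h := Nat.four_pow_le_two_mul_self_mul_centralBinom (2 * b) (by omega)
  have h' : (4 : ℝ) ^ (2 * b) ≤ 2 * (2 * b) * (Nat.centralBinom (2 * b) : ℝ) := by
    exact_mod_cast h
  have hb' : (0 : ℝ) < b := by exact_mod_cast hb
  rw [div_le_div_iff₀ (by positivity) (by positivity)]
  have e : (2 : ℝ) ^ (4 * b) = 4 ^ (2 * b) := by
    have : (4 : ℝ) = 2 ^ 2 := by norm_num
    rw [this, ← pow_mul]
    congr 1; ring
  rw [e]
  linarith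

lemma mu0_le_one (b : ℕ) : mu0 b ≤ 1 := by
  unfold mu0
  rw [div_le_one (by positivity)]
  have h : Nat.centralBinom (2 * b) ≤ 2 ^ (4 * b) := by
    rw [Nat.centralBinom_eq_two_mul_choose]
    have e : 4 * b = 2 * (2 * b) := by ring
    rw [e]
    exact Nat.choose_le_two_pow _ _
  exact_mod_cast h

lemma beta_empty_eq {row col : W → Bool} {b : ℕ} (h : Tab row col b) :
    beta (∅ : Finset W) = mu0 b := by
  rw [beta_empty, card_bal h, tab_card h]; rfl

lemma pair_const {row col : W → Bool} {b : ℕ} (h : Tab row col b) :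
    ((2 : ℝ) ^ (Fintype.card W)) ^ 2 / ((orb (jl row col)).card : ℝ) =
      1 / (oo b * mu0 b ^ 2) := by
  rw [card_orb h, tab_card h]
  unfold oo mu0
  have h1 : (Nat.centralBinom (2 * b) : ℝ) ≠ 0 := by
    exact_mod_cast (Nat.centralBinom_pos _).ne'
  have h2 : (Nat.centralBinom b : ℝ) ≠ 0 := by
    exact_mod_cast (Nat.centralBinom_pos _).ne'
  push_cast
  field_simp

/-- signed average of a product, through Walsh coefficients -/
lemma avg_pair' {row col : W → Bool} {b : ℕ} (h : Tab row col b) (g k : (W → Bool) → ℝ) :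
    avg (fun π : Equiv.Perm W => g (row ∘ π) * k (col ∘ π)) =
      1 / (oo b * mu0 b) * ∑ A : Finset W, cc (4 * b) A.card *
        (coef (fun x => g x * ibal x) A * coef (fun x => k x * ibal x) A) := by
  rw [avg_pair h, pair_const h]
  have h0 := (mu0_pos b).ne'
  have h1 := (oo_pos b).ne'
  have e : ∀ A ∈ (univ : Finset (Finset W)), beta A * (coef (fun x => g x * ibal x) A *
      coef (fun x => k x * ibal x) A) = mu0 b * (cc (4 * b) A.card *
        (coef (fun x => g x * ibal x) A * coef (fun x => k x * ibal x) A)) := by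
    intro A _
    rw [beta_eq, beta_empty_eq h, tab_card h]; ring
  rw [Finset.sum_congr rfl e, ← Finset.mul_sum]
  field_simp

/-- complement symmetry of `cc` -/
lemma cc_compl {row col : W → Bool} {b : ℕ} (h : Tab row col b) (A : Finset W) :
    cc (4 * b) Aᶜ.card = cc (4 * b) A.card := by
  have h1 := beta_compl (tab_card h) A
  rw [beta_eq A, beta_eq Aᶜ, beta_empty_eq h, tab_card h] at h1
  exact mul_left_cancel₀ (mu0_pos b).ne' h1

end

end Vale.Agent.P162
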