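import Vale.Agent.P162.Ent

/-! Donsker–Varadhan step and scalar inequalities. -/

namespace Vale.Agent.P162.Tb

open Finset

set_option linter.unusedSectionVars false

/-- `x log x - x + 1` -/
noncomputable def phs (x : ℝ) : ℝ := phi x - x + 1

lemma sqrt_sub_one_sq_le {x : ℝ} (hx : 0 ≤ x) : (√x - 1) ^ 2 ≤ phs x := by
  unfold phs phi
  rcases hx.eq_or_lt with rfl | hx
  · simp
  · have hy : 0 < √x := Real.sqrt_pos.mpr hx
    have hxy : x = √x ^ 2 := (Real.sq_sqrt hx.le).symm
    have hlog : Real.log x = 2 * Real.log (√x) := by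
      conv_lhs => rw [hxy]
      rw [Real.log_pow]; push_cast; ring
    have h1 : 1 - (√x)⁻¹ ≤ Real.log (√x) := Real.one_sub_inv_le_log_of_pos hy
    rw [hlog]
    set y := √x with hydef
    rw [hxy]
    have h2 : y ^ 2 * (1 - y⁻¹) ≤ y ^ 2 * Real.log y :=
      mul_le_mul_of_nonneg_left h1 (sq_nonneg _)
    have h3 : y ^ 2 * (1 - y⁻¹) = y ^ 2 - y := by field_simp
    nlinarith

lemma phs_nonneg {x : ℝ} (hx : 0 ≤ x) : 0 ≤ phs x :=
  (sq_nonneg _).trans (sqrt_sub_one_sq_le hx)

/-- part of `x` above `K` -/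
noncomputable def hi (K x : ℝ) : ℝ := if x ≤ K then 0 else x

/-- part of `x` below `K` -/
noncomputable def lo (K x : ℝ) : ℝ := if x ≤ K then x else 0

lemma lo_add_hi (K x : ℝ) : lo K x + hi K x = x := by
  unfold lo hi; split <;> simp

lemma hi_nonneg {K x : ℝ} (hx : 0 ≤ x) : 0 ≤ hi K x := by
  unfold hi; split <;> simp [hx]

lemma lo_nonneg {K x : ℝ} (hx : 0 ≤ x) : 0 ≤ lo K x := by
  unfold lo; split <;> simp [hx]

lemma hi_le {K x : ℝ} (hx : 0 ≤ x) : hi K x ≤ x := by
  unfold hi; split <;> simp [hx]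

lemma hi_bound {κ x : ℝ} (hκ : 1 < κ) (hx : 0 ≤ x) : hi (Real.exp κ) x ≤ phs x / (κ - 1) := by
  have hk : 0 < κ - 1 := by linarith
  rw [le_div_iff₀ hk]
  unfold hi
  split
  · rw [zero_mul]; exact phs_nonneg hx
  · rename_i h
    push Not at h
    have hx' : 0 < x := lt_trans (Real.exp_pos _) h
    have h1 : κ < Real.log x := by
      rw [Real.lt_log_iff_exp_lt hx']; exact h
    unfold phs phi
    nlinarith

lemma g0_sq {x : ℝ} (hx : 0 ≤ x) : (lo 9 x - 1) ^ 2 ≤ 16 * phs x := by
  have h := sqrt_sub_one_sq_le hx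
  have hy : 0 ≤ √x := Real.sqrt_nonneg x
  have hxy : x = √x ^ 2 := (Real.sq_sqrt hx).symm
  unfold lo
  split
  · rename_i h9
    have hy3 : √x ≤ 3 := by
      rw [Real.sqrt_le_left (by norm_num)]; norm_num; exact h9
    have e : (x - 1) ^ 2 = (√x - 1) ^ 2 * (√x + 1) ^ 2 := by
      conv_lhs => rw [hxy]
      ring
    rw [e]
    have h2 : (√x + 1) ^ 2 ≤ 16 := by nlinarith
    calc _ ≤ (√x - 1) ^ 2 * 16 := mul_le_mul_of_nonneg_left h2 (sq_nonneg _)
      _ ≤ _ := by linarith
  · rename_i h9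
    push Not at h9
    have hy3 : 3 ≤ √x := by
      apply Real.le_sqrt_of_sq_le; norm_num; exact h9.le
    nlinarith

lemma g1_le {K x : ℝ} (hx : 0 ≤ x) (hK : 9 ≤ K) : lo K x - lo 9 x ≤ 9 / 4 * phs x := by
  have h := sqrt_sub_one_sq_le hx
  have h0 := phs_nonneg hx
  have hxy : x = √x ^ 2 := (Real.sq_sqrt hx).symm
  by_cases h9 : x ≤ 9
  · have : lo K x - lo 9 x = 0 := by
      unfold lo; rw [if_pos (h9.trans hK), if_pos h9]; ring
    rw [this]; positivity
  · have h9' := h9
    push Not at h9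
    have hy3 : 3 ≤ √x := by
      apply Real.le_sqrt_of_sq_le; norm_num; exact h9.le
    have h1 : lo K x - lo 9 x ≤ x := by
      unfold lo
      rw [if_neg h9']
      split <;> simp [hx]
    nlinarith

lemma g1_nonneg {K x : ℝ} (hx : 0 ≤ x) (hK : 9 ≤ K) : 0 ≤ lo K x - lo 9 x := by
  by_cases h9 : x ≤ 9
  · unfold lo; rw [if_pos (h9.trans hK), if_pos h9]; simp
  · unfold lo; rw [if_neg h9]
    split <;> simp [hx]

lemma g1_le_K {K x : ℝ} (hx : 0 ≤ x) (hK : 9 ≤ K) : lo K x - lo 9 x ≤ K := by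
  unfold lo
  by_cases h : x ≤ K
  · rw [if_pos h]; split <;> linarith
  · rw [if_neg h]; split <;> linarith

lemma g1_le_x {K x : ℝ} (hx : 0 ≤ x) : lo K x - lo 9 x ≤ x := by
  unfold lo
  split <;> split <;> simp [hx]

section DV

variable {Ω S T : Type} [Fintype Ω] [Nonempty Ω]

lemma dv (s : Ω → S) (t : Ω → T) {F : Ω → ℝ} (hF : ∀ ω, 0 ≤ F ω) (h1 : avg F = 1)
    {o : ℝ} (ho : 0 < o) (ho1 : o ≤ 1) (K : ℝ) :
    Phi (cavg s F) + Phi (cavg t F) ≤ Phi F
      - Real.log o * (avg (fun ω => hi K (cavg s F ω)) + avg (fun ω => hi K (cavg t F ω)))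
      + avg (fun ω => lo K (cavg s F ω) * lo K (cavg t F ω))
      + o * avg (fun ω => hi K (cavg s F ω) * cavg t F ω + cavg s F ω * hi K (cavg t F ω)) - 1 := by
  have hlo : 0 ≤ - Real.log o := by
    have := Real.log_nonpos ho.le ho1; linarith
  -- pointwise inequality
  have key : ∀ ω, F ω * Real.log (cavg s F ω) + F ω * Real.log (cavg t F ω) + F ω ≤
      phi (F ω) + lo K (cavg s F ω) * lo K (cavg t F ω)
      + o * (hi K (cavg s F ω) * cavg t F ω + cavg s F ω * hi K (cavg t F ω))
      + (- Real.log o) * (F ω * (if cavg s F ω ≤ K then 0 else 1) +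
          F ω * (if cavg t F ω ≤ K then 0 else 1)) := by
    intro ω
    have hf : 0 ≤ cavg s F ω := cavg_nonneg hF ω
    have hh : 0 ≤ cavg t F ω := cavg_nonneg hF ω
    have n1 : 0 ≤ lo K (cavg s F ω) * lo K (cavg t F ω) :=
      mul_nonneg (lo_nonneg hf) (lo_nonneg hh)
    have n2 : 0 ≤ o * (hi K (cavg s F ω) * cavg t F ω + cavg s F ω * hi K (cavg t F ω)) := by
      have a1 : 0 ≤ hi K (cavg s F ω) := hi_nonneg hf
      have a2 : 0 ≤ hi K (cavg t F ω) := hi_nonneg hh
      positivity
    rcases (hF ω).eq_or_lt with h0 | h0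
    · rw [← h0]
      simp only [zero_mul, add_zero, mul_zero]
      have : phi 0 = 0 := by simp [phi]
      rw [this]; linarith
    · have hf' : 0 < cavg s F ω := by
        rcases hf.eq_or_lt with h | h
        · exact absurd (eq_zero_of_cavg hF h.symm) h0.ne'
        · exact h
      have hh' : 0 < cavg t F ω := by
        rcases hh.eq_or_lt with h | h
        · exact absurd (eq_zero_of_cavg hF h.symm) h0.ne'
        · exact h
      generalize cavg s F ω = f at *
      generalize cavg t F ω = h at *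
      generalize F ω = a at *
      by_cases c1 : f ≤ K
      · by_cases c2 : h ≤ K
        · have m := mul_log_sub h0.le (mul_pos hf' hh')
          rw [Real.log_mul hf'.ne' hh'.ne'] at m
          simp only [lo, hi, phi, if_pos c1, if_pos c2] at *
          linarith
        · have m := mul_log_sub h0.le (mul_pos ho (mul_pos hf' hh'))
          rw [Real.log_mul ho.ne' (mul_pos hf' hh').ne', Real.log_mul hf'.ne' hh'.ne'] at m
          simp only [lo, hi, phi, if_pos c1, if_neg c2] at *
          linarith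
      · by_cases c2 : h ≤ K
        · have m := mul_log_sub h0.le (mul_pos ho (mul_pos hf' hh'))
          rw [Real.log_mul ho.ne' (mul_pos hf' hh').ne', Real.log_mul hf'.ne' hh'.ne'] at m
          simp only [lo, hi, phi, if_neg c1, if_pos c2] at *
          linarith
        · have m := mul_log_sub h0.le (mul_pos ho (mul_pos hf' hh'))
          rw [Real.log_mul ho.ne' (mul_pos hf' hh').ne', Real.log_mul hf'.ne' hh'.ne'] at m
          simp only [lo, hi, phi, if_neg c1, if_neg c2] at *
          have q1 : 0 ≤ (-Real.log o) * a := mul_nonneg hlo h0.le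
          have q2 : 0 < o * (f * h) := mul_pos ho (mul_pos hf' hh')
          nlinarith
  have h2 := avg_mono key
  rw [avg_add, avg_add, avg_add, avg_add, avg_add, avg_const_mul, avg_const_mul,
    avg_mul_log_cavg, avg_mul_log_cavg, h1, avg_add (fun ω => F ω * (if cavg s F ω ≤ K then 0 else 1))] at h2
  have e1 : avg (fun ω => F ω * (if cavg s F ω ≤ K then 0 else 1)) =
      avg (fun ω => hi K (cavg s F ω)) := by
    rw [← avg_mul_of_const (s := s) F (fun ω => if cavg s F ω ≤ K then 0 else 1)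
      (fun ω ω' h => by simp only [cavg_congr F h])]
    congr 1; funext ω; unfold hi; split <;> simp
  have e2 : avg (fun ω => F ω * (if cavg t F ω ≤ K then 0 else 1)) =
      avg (fun ω => hi K (cavg t F ω)) := by
    rw [← avg_mul_of_const (s := t) F (fun ω => if cavg t F ω ≤ K then 0 else 1)
      (fun ω ω' h => by simp only [cavg_congr F h])]
    congr 1; funext ω; unfold hi; split <;> simp
  rw [e1, e2] at h2
  have e3 : Phi F = avg (fun ω => phi (F ω)) := rfl
  rw [e3]
  linarith

end DV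

end Vale.Agent.P162.Tb
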