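import Vale.Agent.P162.Defs

/-! Elementary entropy lemmas used for the table inequality. -/

namespace Vale.Agent.P162.Tb

open Finset

set_option linter.unusedSectionVars false

section Avg

variable {Ω : Type} [Fintype Ω]

lemma avg_add (F G : Ω → ℝ) : avg (fun ω => F ω + G ω) = avg F + avg G := by
  unfold avg; rw [Finset.sum_add_distrib, add_div]

lemma avg_sub (F G : Ω → ℝ) : avg (fun ω => F ω - G ω) = avg F - avg G := by
  unfold avg; rw [Finset.sum_sub_distrib, sub_div]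

lemma avg_const_mul (c : ℝ) (F : Ω → ℝ) : avg (fun ω => c * F ω) = c * avg F := by
  unfold avg; rw [← Finset.mul_sum, mul_div_assoc]

lemma avg_const [Nonempty Ω] (c : ℝ) : avg (fun _ : Ω => c) = c := by
  unfold avg
  rw [Finset.sum_const, nsmul_eq_mul, Finset.card_univ]
  have : (Fintype.card Ω : ℝ) ≠ 0 := by exact_mod_cast Fintype.card_ne_zero
  field_simp

lemma avg_mono {F G : Ω → ℝ} (h : ∀ ω, F ω ≤ G ω) : avg F ≤ avg G := by
  unfold avg
  exact div_le_div_of_nonneg_right (Finset.sum_le_sum (fun ω _ => h ω)) (Nat.cast_nonneg _)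

lemma avg_nonneg {F : Ω → ℝ} (h : ∀ ω, 0 ≤ F ω) : 0 ≤ avg F := by
  unfold avg
  exact div_nonneg (Finset.sum_nonneg (fun ω _ => h ω)) (Nat.cast_nonneg _)

lemma eq_zero_of_avg {F : Ω → ℝ} (h : ∀ ω, 0 ≤ F ω) (h0 : avg F = 0) (ω : Ω) : F ω = 0 := by
  unfold avg at h0
  have : Nonempty Ω := ⟨ω⟩
  have hc : (Fintype.card Ω : ℝ) ≠ 0 := by exact_mod_cast Fintype.card_ne_zero
  rw [div_eq_zero_iff, or_iff_left hc, Finset.sum_eq_zero_iff_of_nonneg (fun ω _ => h ω)] at h0
  exact h0 ω (Finset.mem_univ _)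

end Avg

section Cavg

variable {Ω S : Type} [Fintype Ω]

lemma mem_fib (s : Ω → S) (ω ω' : Ω) : ω' ∈ fib s ω ↔ s ω' = s ω := by
  unfold fib; simp

lemma fib_congr {s : Ω → S} {ω ω' : Ω} (h : s ω = s ω') : fib s ω = fib s ω' := by
  ext x; rw [mem_fib, mem_fib, h]

lemma fib_card_pos (s : Ω → S) (ω : Ω) : (0 : ℝ) < ((fib s ω).card : ℝ) := by
  have : ω ∈ fib s ω := by rw [mem_fib]
  exact_mod_cast Finset.card_pos.mpr ⟨ω, this⟩

lemma cavg_congr {s : Ω → S} (F : Ω → ℝ) {ω ω' : Ω} (h : s ω = s ω') :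
    cavg s F ω = cavg s F ω' := by
  unfold cavg; rw [fib_congr h]

lemma cavg_nonneg {s : Ω → S} {F : Ω → ℝ} (hF : ∀ ω, 0 ≤ F ω) (ω : Ω) : 0 ≤ cavg s F ω := by
  unfold cavg
  exact div_nonneg (Finset.sum_nonneg (fun ω _ => hF ω)) (Nat.cast_nonneg _)

lemma eq_zero_of_cavg {s : Ω → S} {F : Ω → ℝ} (hF : ∀ ω, 0 ≤ F ω) {ω : Ω}
    (h : cavg s F ω = 0) : F ω = 0 := by
  unfold cavg at h
  rw [div_eq_zero_iff, or_iff_left (fib_card_pos s ω).ne',
    Finset.sum_eq_zero_iff_of_nonneg (fun ω _ => hF ω)] at h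
  exact h ω (by rw [mem_fib])

/-- pull-out property -/
lemma avg_mul_of_const {s : Ω → S} (F G : Ω → ℝ) (hG : ∀ ω ω', s ω = s ω' → G ω = G ω') :
    avg (fun ω => cavg s F ω * G ω) = avg (fun ω => F ω * G ω) := by
  classical
  unfold avg
  congr 1
  have h1 : ∀ ω ∈ (univ : Finset Ω), cavg s F ω * G ω =
      ∑ ω', if s ω' = s ω then F ω' * G ω' / ((fib s ω').card : ℝ) else 0 := by
    intro ω _
    rw [← Finset.sum_filter]
    have e : univ.filter (fun ω' => s ω' = s ω) = fib s ω := by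
      ext x; rw [mem_fib]; simp
    rw [e]
    unfold cavg
    rw [div_mul_eq_mul_div, Finset.sum_mul, Finset.sum_div]
    apply Finset.sum_congr rfl
    intro ω' hω'
    rw [mem_fib] at hω'
    rw [hG ω' ω hω', fib_congr hω']
  rw [Finset.sum_congr rfl h1, Finset.sum_comm]
  apply Finset.sum_congr rfl
  intro ω' _
  rw [← Finset.sum_filter, Finset.sum_const, nsmul_eq_mul]
  have e : univ.filter (fun ω => s ω' = s ω) = fib s ω' := by
    ext x; rw [mem_fib]; simp [eq_comm]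
  rw [e]
  have := (fib_card_pos s ω').ne'
  field_simp

lemma avg_cavg (s : Ω → S) (F : Ω → ℝ) : avg (cavg s F) = avg F := by
  have := avg_mul_of_const (s := s) F (fun _ => 1) (fun _ _ _ => rfl)
  simpa using this

lemma avg_mul_log_cavg (s : Ω → S) (F : Ω → ℝ) :
    avg (fun ω => F ω * Real.log (cavg s F ω)) = Phi (cavg s F) := by
  rw [← avg_mul_of_const (s := s) F (fun ω => Real.log (cavg s F ω))
    (fun ω ω' h => by rw [cavg_congr F h])]
  rfl

end Cavg

/-- `a log a - a log c ≥ a - c`. -/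
lemma mul_log_sub {a c : ℝ} (ha : 0 ≤ a) (hc : 0 < c) :
    a - c ≤ a * Real.log a - a * Real.log c := by
  rcases ha.eq_or_lt with rfl | ha
  · simp; exact hc.le
  · have h := Real.log_le_sub_one_of_pos (div_pos hc ha)
    rw [Real.log_div hc.ne' ha.ne'] at h
    have h2 := mul_le_mul_of_nonneg_left h ha.le
    have h3 : a * (c / a - 1) = c - a := by field_simp
    rw [h3] at h2
    linarith

section Jensen

variable {Ω S : Type} [Fintype Ω]

lemma Phi_cavg_le (s : Ω → S) {F : Ω → ℝ} (hF : ∀ ω, 0 ≤ F ω) : Phi (cavg s F) ≤ Phi F := by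
  have h1 : ∀ ω, F ω * Real.log (cavg s F ω) + (F ω - cavg s F ω) ≤ phi (F ω) := by
    intro ω
    unfold phi
    rcases (cavg_nonneg hF ω : 0 ≤ cavg s F ω).eq_or_lt with h | h
    · rw [eq_zero_of_cavg hF h.symm, ← h]; simp
    · have := mul_log_sub (hF ω) h
      linarith
  have h2 := avg_mono h1
  rw [avg_add, avg_sub, avg_cavg, avg_mul_log_cavg] at h2
  have : Phi F = avg (fun ω => phi (F ω)) := rfl
  rw [this]; linarith

lemma phi_avg_le [Nonempty Ω] {F : Ω → ℝ} (hF : ∀ ω, 0 ≤ F ω) : phi (avg F) ≤ Phi F := by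
  have h1 : ∀ ω, F ω * Real.log (avg F) + (F ω - avg F) ≤ phi (F ω) := by
    intro ω
    unfold phi
    rcases (avg_nonneg hF : 0 ≤ avg F).eq_or_lt with h | h
    · rw [eq_zero_of_avg hF h.symm ω, ← h]; simp
    · have := mul_log_sub (hF ω) h
      linarith
  have h2 := avg_mono h1
  rw [avg_add, avg_sub, avg_const] at h2
  have h3 : avg (fun ω => F ω * Real.log (avg F)) = phi (avg F) := by
    have : (fun ω => F ω * Real.log (avg F)) = fun ω => Real.log (avg F) * F ω := by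
      funext ω; ring
    rw [this, avg_const_mul]; unfold phi; ring
  rw [h3] at h2
  have : Phi F = avg (fun ω => phi (F ω)) := rfl
  rw [this]; linarith

end Jensen

section Norm

variable {Ω S T : Type} [Fintype Ω] [Nonempty Ω]

lemma cavg_const_mul (s : Ω → S) (c : ℝ) (F : Ω → ℝ) :
    cavg s (fun ω => c * F ω) = fun ω => c * cavg s F ω := by
  funext ω
  unfold cavg
  rw [← Finset.mul_sum, mul_div_assoc]

lemma Phi_const_mul {c : ℝ} (hc : 0 < c) {F : Ω → ℝ} (hF : ∀ ω, 0 ≤ F ω) :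
    Phi (fun ω => c * F ω) = c * Phi F + c * Real.log c * avg F := by
  unfold Phi
  rw [← avg_const_mul, ← avg_const_mul, ← avg_add]
  congr 1; funext ω
  unfold phi
  rcases (hF ω).eq_or_lt with h | h
  · have h' : F ω = 0 := h.symm
    simp [h']
  · rw [Real.log_mul hc.ne' h.ne']; ring

/-- It is enough to check `LP` on densities. -/
lemma LP_of_density {s : Ω → S} {t : Ω → T} {ε : ℝ}
    (h : ∀ F : Ω → ℝ, (∀ ω, 0 ≤ F ω) → avg F = 1 →
      Phi (cavg s F) + Phi (cavg t F) ≤ (1 + ε) * Phi F) : LP s t ε := by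
  intro F hF
  rcases (avg_nonneg hF : 0 ≤ avg F).eq_or_lt with h0 | h0
  · have hz : F = fun _ => 0 := funext (fun ω => eq_zero_of_avg hF h0.symm ω)
    subst hz
    have e1 : ∀ {S' : Type} (s' : Ω → S'), cavg s' (fun _ : Ω => (0 : ℝ)) = fun _ => 0 := by
      intro S' s'; funext ω; unfold cavg; simp
    rw [e1, e1, ← h0]
    unfold Phi phi
    simp [avg_const]
  · set c := avg F with hc
    have hF' : ∀ ω, 0 ≤ c⁻¹ * F ω := fun ω => mul_nonneg (inv_pos.mpr h0).le (hF ω)
    have h1 : avg (fun ω => c⁻¹ * F ω) = 1 := by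
      rw [avg_const_mul, ← hc]; exact inv_mul_cancel₀ h0.ne'
    have h2 := h _ hF' h1
    rw [cavg_const_mul, cavg_const_mul, Phi_const_mul (inv_pos.mpr h0) (cavg_nonneg hF),
      Phi_const_mul (inv_pos.mpr h0) (cavg_nonneg hF), Phi_const_mul (inv_pos.mpr h0) hF,
      avg_cavg, avg_cavg, ← hc, Real.log_inv] at h2
    have h3 : phi c = c * Real.log c := rfl
    rw [h3]
    have h4 := mul_le_mul_of_nonneg_left h2 h0.le
    have e : ∀ X : ℝ, c * (c⁻¹ * X + c⁻¹ * -Real.log c * c) = X - c * Real.log c := by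
      intro X; field_simp; ring
    rw [mul_add, e, e] at h4
    have e2 : ∀ X : ℝ, c * ((1 + ε) * (c⁻¹ * X + c⁻¹ * -Real.log c * c)) =
        (1 + ε) * (X - c * Real.log c) := by
      intro X; field_simp; ring
    rw [e2] at h4
    linarith

end Norm

end Vale.Agent.P162.Tb
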