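import Mathlib
import Vale.Agent.P162.Defs
import Vale.Agent.P162.Bonami

/-! T3: hypercontractivity in dual form; Bessel, Walsh inversion, Parseval. -/

namespace Vale.Agent.P162

open Finset

variable {W : Type} [Fintype W] [DecidableEq W]

lemma card_cube : (Fintype.card (W → Bool) : ℝ) = 2 ^ Fintype.card W := by
  simp

lemma sum_mul_chi_eq (G : (W → Bool) → ℝ) (A : Finset W) :
    ∑ x, G x * chi A x = (2 : ℝ) ^ Fintype.card W * coef G A := by
  unfold coef avg
  rw [card_cube]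
  field_simp

theorem hyper : S_HYPER := by
  intro W _ _ m hm G
  have hm1 : (1 : ℝ) ≤ m := by exact_mod_cast hm
  have h2m : (0 : ℝ) < 2 * m - 1 := by linarith
  have hmpos : (0 : ℝ) < m := by linarith
  set N : ℝ := (2 : ℝ) ^ Fintype.card W with hN
  have hNpos : 0 < N := by positivity
  set r : ℝ := 1 / (2 * (m : ℝ) - 1) with hr
  have hr0 : 0 < r := by positivity
  obtain ⟨ρ, hρ0, hρ⟩ : ∃ ρ : ℝ, 0 ≤ ρ ∧ ρ ^ 2 = r := ⟨Real.sqrt r, Real.sqrt_nonneg _,
    Real.sq_sqrt hr0.le⟩
  set q : ℝ := 2 * (m : ℝ) / (2 * m - 1) with hq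
  have hq0 : 0 < q := by positivity
  have hconj : q.HolderConjugate (2 * m) := by
    rw [Real.holderConjugate_iff]
    constructor
    · rw [hq, lt_div_iff₀ h2m]; linarith
    · rw [hq]; field_simp; ring
  set V : ℝ := ∑ A : Finset W, r ^ A.card * coef G A ^ 2 with hV
  have hV0 : 0 ≤ V := sum_nonneg fun A _ => by positivity
  -- the test polynomial
  set c : Finset W → ℝ := fun A => ρ ^ A.card * coef G A with hc
  set p : (W → Bool) → ℝ := fun x => ∑ A : Finset W, ρ ^ A.card * c A * chi A x with hp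
  have hVc : V = ∑ A : Finset W, c A ^ 2 := by
    refine sum_congr rfl fun A _ => ?_
    rw [hc]
    simp only
    rw [mul_pow, ← pow_mul, mul_comm A.card 2, pow_mul, hρ]
  have hbon : ∑ x : W → Bool, (p x) ^ (2 * m) ≤ N * V ^ m := by
    rw [hVc]
    exact bonami m (by rw [hρ, hr]; exact le_of_eq (one_div_mul_cancel h2m.ne')) c
  have hpair : ∑ x : W → Bool, G x * p x = N * V := by
    have h1 : ∀ x, G x * p x = ∑ A : Finset W, (ρ ^ A.card * c A) * (G x * chi A x) := by
      intro x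
      rw [hp, mul_sum]
      exact sum_congr rfl fun A _ => by ring
    rw [sum_congr rfl fun x _ => h1 x, sum_comm, hV, mul_sum]
    refine sum_congr rfl fun A _ => ?_
    rw [← mul_sum, sum_mul_chi_eq, ← hN, hc]
    simp only
    rw [← hρ, ← pow_mul, mul_comm 2 A.card, pow_mul]
    ring
  have hhol := Real.inner_le_Lp_mul_Lq (univ : Finset (W → Bool)) G p hconj
  rw [hpair] at hhol
  set a : ℝ := avg (fun x => |G x| ^ q) with ha
  have ha0 : 0 ≤ a := by
    rw [ha]; unfold avg
    exact div_nonneg (sum_nonneg fun x _ => by positivity) (Nat.cast_nonneg _)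
  have hsumG : ∑ x : W → Bool, |G x| ^ q = N * a := by
    rw [ha]; unfold avg
    rw [card_cube, ← hN]; field_simp
  have hsump : ∑ x : W → Bool, |p x| ^ (2 * (m : ℝ)) ≤ N * V ^ m := by
    refine le_trans (le_of_eq ?_) hbon
    refine sum_congr rfl fun x _ => ?_
    have : (2 * (m : ℝ)) = ((2 * m : ℕ) : ℝ) := by push_cast; ring
    rw [this, Real.rpow_natCast, pow_mul, sq_abs, ← pow_mul]
  rw [hsumG] at hhol
  have hsum0 : 0 ≤ ∑ x : W → Bool, |p x| ^ (2 * (m : ℝ)) :=
    sum_nonneg fun x _ => by positivity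
  have hb : (∑ x : W → Bool, |p x| ^ (2 * (m : ℝ))) ^ (1 / (2 * (m : ℝ)))
      ≤ (N * V ^ m) ^ (1 / (2 * (m : ℝ))) :=
    Real.rpow_le_rpow hsum0 hsump (by positivity)
  have hNV : N * V ≤ (N * a) ^ (1 / q) * (N * V ^ m) ^ (1 / (2 * (m : ℝ))) :=
    hhol.trans (mul_le_mul_of_nonneg_left hb (by positivity))
  have hVm : (V ^ m) ^ (1 / (2 * (m : ℝ))) = V ^ (1 / 2 : ℝ) := by
    rw [← Real.rpow_natCast, ← Real.rpow_mul hV0]
    congr 1
    field_simp
  rw [Real.mul_rpow hNpos.le ha0, Real.mul_rpow hNpos.le (pow_nonneg hV0 _), hVm] at hNV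
  have hNN : N ^ (1 / q) * N ^ (1 / (2 * (m : ℝ))) = N := by
    rw [← Real.rpow_add hNpos]
    have : 1 / q + 1 / (2 * (m : ℝ)) = 1 := by
      rw [hq]; field_simp; ring
    rw [this, Real.rpow_one]
  have h3 : N * V ≤ N * (a ^ (1 / q) * V ^ (1 / 2 : ℝ)) := by
    calc N * V ≤ N ^ (1 / q) * a ^ (1 / q) * (N ^ (1 / (2 * (m : ℝ))) * V ^ (1 / 2 : ℝ)) := hNV
      _ = (N ^ (1 / q) * N ^ (1 / (2 * (m : ℝ)))) * (a ^ (1 / q) * V ^ (1 / 2 : ℝ)) := by ring
      _ = _ := by rw [hNN]
  have h4 : V ≤ a ^ (1 / q) * V ^ (1 / 2 : ℝ) := le_of_mul_le_mul_left h3 hNpos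
  have hexp : (a ^ (1 / q)) ^ (2 : ℕ) = a ^ ((2 * (m : ℝ) - 1) / m) := by
    rw [← Real.rpow_natCast, ← Real.rpow_mul ha0]
    congr 1
    rw [hq]; push_cast; field_simp
  rw [← hexp]
  rcases eq_or_lt_of_le hV0 with h0 | h0
  · rw [← h0]; positivity
  · have hs : 0 < V ^ (1 / 2 : ℝ) := by positivity
    have hss : V ^ (1 / 2 : ℝ) * V ^ (1 / 2 : ℝ) = V := by
      rw [← Real.rpow_add h0]; norm_num
    have h5 : V ^ (1 / 2 : ℝ) ≤ a ^ (1 / q) := by
      have : V ^ (1 / 2 : ℝ) * V ^ (1 / 2 : ℝ) ≤ a ^ (1 / q) * V ^ (1 / 2 : ℝ) := by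
        rw [hss]; exact h4
      exact le_of_mul_le_mul_right this hs
    calc V = V ^ (1 / 2 : ℝ) * V ^ (1 / 2 : ℝ) := hss.symm
      _ ≤ a ^ (1 / q) * a ^ (1 / q) := mul_le_mul h5 h5 hs.le (by positivity)
      _ = _ := by ring

/-- Bessel's inequality. -/
theorem bessel (G : (W → Bool) → ℝ) :
    ∑ A : Finset W, coef G A ^ 2 ≤ avg (fun x => G x ^ 2) := by
  have h := hyper W 1 le_rfl G
  have e1 : (2 * ((1 : ℕ) : ℝ) / (2 * ((1 : ℕ) : ℝ) - 1)) = ((2 : ℕ) : ℝ) := by norm_num
  have e2 : ((2 * ((1 : ℕ) : ℝ) - 1) / ((1 : ℕ) : ℝ)) = 1 := by norm_num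
  have e3 : (1 / (2 * ((1 : ℕ) : ℝ) - 1)) = 1 := by norm_num
  rw [e1, e2, e3] at h
  simp only [Real.rpow_natCast, sq_abs, Real.rpow_one, one_pow, one_mul] at h
  exact h

omit [DecidableEq W] in
/-- Orthogonality of characters, summed over characters. -/
lemma sum_chi_mul_chi (x y : W → Bool) :
    ∑ A : Finset W, chi A x * chi A y = if x = y then (2 : ℝ) ^ Fintype.card W else 0 := by
  have h1 : ∑ A : Finset W, chi A x * chi A y = ∏ a : W, (1 + sgn (x a) * sgn (y a)) := by
    rw [Finset.prod_one_add]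
    simp only [powerset_univ]
    refine sum_congr rfl fun A _ => ?_
    unfold chi
    rw [prod_mul_distrib]
  rw [h1]
  split_ifs with h
  · subst h
    have : ∀ a ∈ (univ : Finset W), (1 + sgn (x a) * sgn (x a)) = 2 := fun a _ => by
      rw [sgn_sq]; norm_num
    rw [prod_congr rfl this, prod_const, card_univ]
  · obtain ⟨a, ha⟩ := Function.ne_iff.1 h
    refine prod_eq_zero (mem_univ a) ?_
    have : y a = !(x a) := by
      cases hx : x a <;> cases hy : y a <;> simp_all
    rw [this, sgn_not, mul_neg, sgn_sq]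
    norm_num

/-- Walsh inversion. -/
theorem walsh_inversion (G : (W → Bool) → ℝ) (x : W → Bool) :
    G x = ∑ A : Finset W, coef G A * chi A x := by
  have hN : (0 : ℝ) < 2 ^ Fintype.card W := by positivity
  have h1 : (2 : ℝ) ^ Fintype.card W * ∑ A : Finset W, coef G A * chi A x
      = (2 : ℝ) ^ Fintype.card W * G x := by
    rw [mul_sum]
    calc ∑ A : Finset W, (2 : ℝ) ^ Fintype.card W * (coef G A * chi A x)
        = ∑ A : Finset W, ∑ y : W → Bool, G y * (chi A y * chi A x) := by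
          refine sum_congr rfl fun A _ => ?_
          rw [← mul_assoc, ← sum_mul_chi_eq, sum_mul]
          exact sum_congr rfl fun y _ => by ring
      _ = ∑ y : W → Bool, G y * ∑ A : Finset W, chi A y * chi A x := by
          rw [sum_comm]
          exact sum_congr rfl fun y _ => by rw [mul_sum]
      _ = ∑ y : W → Bool, G y * (if y = x then (2 : ℝ) ^ Fintype.card W else 0) := by
          exact sum_congr rfl fun y _ => by rw [sum_chi_mul_chi]
      _ = _ := by
          simp [mul_comm]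
  exact (mul_left_cancel₀ hN.ne' h1).symm

/-- Parseval's identity. -/
theorem parseval (G : (W → Bool) → ℝ) :
    ∑ A : Finset W, coef G A ^ 2 = avg (fun x => G x ^ 2) := by
  have hN : (0 : ℝ) < 2 ^ Fintype.card W := by positivity
  unfold avg
  rw [card_cube, eq_div_iff hN.ne']
  calc (∑ A : Finset W, coef G A ^ 2) * 2 ^ Fintype.card W
      = ∑ A : Finset W, coef G A * (2 ^ Fintype.card W * coef G A) := by
        rw [sum_mul]; exact sum_congr rfl fun A _ => by ring
    _ = ∑ A : Finset W, ∑ x : W → Bool, G x * (coef G A * chi A x) := by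
        refine sum_congr rfl fun A _ => ?_
        rw [← sum_mul_chi_eq, mul_sum]
        exact sum_congr rfl fun x _ => by ring
    _ = ∑ x : W → Bool, G x * ∑ A : Finset W, coef G A * chi A x := by
        rw [sum_comm]
        exact sum_congr rfl fun x _ => by rw [mul_sum]
    _ = ∑ x : W → Bool, G x ^ 2 := by
        refine sum_congr rfl fun x _ => ?_
        rw [← walsh_inversion]; ring

end Vale.Agent.P162
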