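import Vale.Agent.P162.CC

namespace Vale.Agent.P162

open Finset

set_option linter.unusedSectionVars false

section Kernel

variable {W : Type} [Fintype W] [DecidableEq W]

lemma card_cubeN : (Fintype.card (W → Bool) : ℝ) = 2 ^ (Fintype.card W) := by
  rw [Fintype.card_fun, Fintype.card_bool]; push_cast; rfl

lemma walsh_orth (x y : W → Bool) :
    ∑ A : Finset W, chi A x * chi A y = if x = y then (2 : ℝ) ^ (Fintype.card W) else 0 := by
  have h1 : ∑ A : Finset W, chi A x * chi A y = ∏ a : W, (1 + sgn (x a) * sgn (y a)) := by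
    rw [Finset.prod_one_add, Finset.powerset_univ]
    apply Finset.sum_congr rfl
    intro A _
    unfold chi
    rw [Finset.prod_mul_distrib]
  rw [h1]
  split
  · rename_i h
    subst h
    have : ∀ a ∈ (univ : Finset W), (1 + sgn (x a) * sgn (x a)) = 2 := by
      intro a _; rw [sgn_mul_self]; norm_num
    rw [Finset.prod_congr rfl this, Finset.prod_const, Finset.card_univ]
  · rename_i h
    have : ∃ a, x a ≠ y a := by
      by_contra hc; push Not at hc; exact h (funext hc)
    obtain ⟨a, ha⟩ := this
    apply Finset.prod_eq_zero (Finset.mem_univ a)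
    cases hx : x a <;> cases hy : y a <;> simp_all [sgn]

lemma inversion (G : (W → Bool) → ℝ) (x : W → Bool) :
    G x = ∑ A : Finset W, coef G A * chi A x := by
  unfold coef avg
  have h1 : ∀ A ∈ (univ : Finset (Finset W)),
      (∑ ω, G ω * chi A ω) / (Fintype.card (W → Bool) : ℝ) * chi A x =
      ∑ ω, G ω * (chi A ω * chi A x) / (2 : ℝ) ^ (Fintype.card W) := by
    intro A _
    rw [card_cubeN, Finset.sum_div, Finset.sum_mul]
    apply Finset.sum_congr rfl
    intro ω _
    ring
  rw [Finset.sum_congr rfl h1, Finset.sum_comm]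
  have h2 : ∀ ω ∈ (univ : Finset (W → Bool)),
      ∑ A : Finset W, G ω * (chi A ω * chi A x) / (2 : ℝ) ^ (Fintype.card W) =
      if ω = x then G x else 0 := by
    intro ω _
    rw [← Finset.sum_div, ← Finset.mul_sum, walsh_orth]
    split
    · rename_i h; subst h; field_simp
    · simp
  rw [Finset.sum_congr rfl h2]
  simp

lemma coef_sum (G : (W → Bool) → ℝ) (A : Finset W) :
    ∑ x, G x * chi A x = 2 ^ (Fintype.card W) * coef G A := by
  unfold coef avg
  rw [card_cubeN]
  field_simp

lemma walsh_mul (G K : (W → Bool) → ℝ) :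
    ∑ A : Finset W, coef G A * coef K A = avg (fun x => G x * K x) := by
  have h : ∀ x, G x * K x = ∑ A : Finset W, coef K A * (G x * chi A x) := by
    intro x
    conv_lhs => rw [inversion K x]
    rw [Finset.mul_sum]
    apply Finset.sum_congr rfl
    intro A _; ring
  unfold avg
  rw [Finset.sum_congr rfl (fun x _ => h x), Finset.sum_comm, Finset.sum_div]
  apply Finset.sum_congr rfl
  intro A _
  rw [← Finset.mul_sum, coef_sum, card_cubeN]
  field_simp

/-- orthogonality kernel -/
lemma kernel_sum (G K : (W → Bool) → ℝ) :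
    ∑ x, ∑ y, ibal (xmul x y) * (G x * K y) =
      (2 ^ (Fintype.card W)) ^ 2 * ∑ A : Finset W, beta A * (coef G A * coef K A) := by
  have h : ∀ x y : W → Bool, ibal (xmul x y) * (G x * K y) =
      ∑ A : Finset W, beta A * ((G x * chi A x) * (K y * chi A y)) := by
    intro x y
    rw [inversion ibal (xmul x y), Finset.sum_mul]
    apply Finset.sum_congr rfl
    intro A _
    rw [chi_xmul]
    unfold beta
    ring
  simp_rw [h]
  have h2 : ∀ x ∈ (univ : Finset (W → Bool)), ∑ y, ∑ A : Finset W,
      beta A * ((G x * chi A x) * (K y * chi A y)) =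
      ∑ A : Finset W, beta A * ((G x * chi A x) * (2 ^ (Fintype.card W) * coef K A)) := by
    intro x _
    rw [Finset.sum_comm]
    apply Finset.sum_congr rfl
    intro A _
    rw [← coef_sum, Finset.mul_sum, Finset.mul_sum]
  rw [Finset.sum_congr rfl h2, Finset.sum_comm, Finset.mul_sum]
  apply Finset.sum_congr rfl
  intro A _
  have h3 : ∀ x ∈ (univ : Finset (W → Bool)),
      beta A * ((G x * chi A x) * (2 ^ (Fintype.card W) * coef K A)) =
      (beta A * (2 ^ (Fintype.card W) * coef K A)) * (G x * chi A x) := by
    intro x _; ring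
  rw [Finset.sum_congr rfl h3, ← Finset.mul_sum, coef_sum]
  ring

/-- number of `true` entries in a balanced vector -/
lemma ssum_eq (x : W → Bool) :
    ssum x = 2 * ((univ.filter (fun w => x w = true)).card : ℝ) - Fintype.card W := by
  unfold ssum
  have : ∀ w ∈ (univ : Finset W), sgn (x w) = 2 * (if x w = true then (1 : ℝ) else 0) - 1 := by
    intro w _; cases x w <;> simp [sgn]; norm_num
  rw [Finset.sum_congr rfl this, Finset.sum_sub_distrib, ← Finset.mul_sum, Finset.sum_boole]
  simp [Finset.card_univ]

lemma mem_bal_iff (x : W → Bool) :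
    x ∈ bal W ↔ 2 * (univ.filter (fun w => x w = true)).card = Fintype.card W := by
  rw [mem_bal, ssum_eq, sub_eq_zero]
  constructor
  · intro h; exact_mod_cast h
  · intro h; exact_mod_cast h

lemma mem_bal_iff' (x : W → Bool) :
    x ∈ bal W ↔ 2 * (univ.filter (fun w => x w = false)).card = Fintype.card W := by
  rw [mem_bal_iff]
  have h : (univ.filter (fun w => x w = true)).card + (univ.filter (fun w => x w = false)).card
      = Fintype.card W := by
    rw [← Finset.card_univ, ← Finset.card_filter_add_card_filter_not (s := univ)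
      (fun w => x w = true)]
    simp
  omega

lemma chi_univ_bal {b : ℕ} (hW : Fintype.card W = 4 * b) {x : W → Bool} (hx : x ∈ bal W) :
    chi (univ : Finset W) x = 1 := by
  unfold chi
  rw [mem_bal_iff'] at hx
  have h1 : ∏ a : W, sgn (x a) = ∏ a ∈ univ.filter (fun w => x w = false), (-1 : ℝ) := by
    rw [Finset.prod_filter]
    apply Finset.prod_congr rfl
    intro a _
    cases x a <;> simp [sgn]
  rw [h1, Finset.prod_const]
  have : (univ.filter (fun w => x w = false)).card = 2 * b := by omega
  rw [this, pow_mul]; norm_num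

lemma chi_compl_bal {b : ℕ} (hW : Fintype.card W = 4 * b) {x : W → Bool} (hx : x ∈ bal W)
    (A : Finset W) : chi Aᶜ x = chi A x := by
  have h := chi_univ_bal hW hx
  have h2 : chi A x * chi Aᶜ x = 1 := by
    rw [← h]; unfold chi; exact Finset.prod_mul_prod_compl A _
  have h3 := chi_mul_self A x
  have h4 : chi A x * chi Aᶜ x = chi A x * chi A x := by rw [h2, h3]
  have h5 : chi A x ≠ 0 := by
    intro h0; rw [h0, mul_zero] at h3; exact one_ne_zero h3.symm
  exact mul_left_cancel₀ h5 h4

lemma coef_compl {b : ℕ} (hW : Fintype.card W = 4 * b) (g : (W → Bool) → ℝ) (A : Finset W) :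
    coef (fun x => g x * ibal x) Aᶜ = coef (fun x => g x * ibal x) A := by
  unfold coef
  congr 1; funext x
  by_cases hx : x ∈ bal W
  · rw [chi_compl_bal hW hx]
  · simp [ibal, hx]

lemma beta_compl {b : ℕ} (hW : Fintype.card W = 4 * b) (A : Finset W) : beta Aᶜ = beta A := by
  have := coef_compl hW (fun _ => 1) A
  simpa [beta] using this

end Kernel

end Vale.Agent.P162
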