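import Vale.Agent.P162.Defs

namespace Vale.Agent.P162

open Finset

set_option linter.unusedSectionVars false

section Label

variable {W L : Type} [Fintype W] [DecidableEq W] [Fintype L] [DecidableEq L]

/-- Two labellings with the same fibre sizes are related by a permutation. -/
lemma exists_perm_of_card_fib (l k : W → L)
    (h : ∀ x, (univ.filter (fun w => k w = x)).card = (univ.filter (fun w => l w = x)).card) :
    ∃ π : Equiv.Perm W, k = l ∘ π := by
  have e : ∀ x, {w // k w = x} ≃ {w // l w = x} := fun x => by
    apply Fintype.equivOfCardEq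
    rw [Fintype.card_subtype, Fintype.card_subtype]; exact h x
  refine ⟨(Equiv.sigmaFiberEquiv k).symm.trans
    ((Equiv.sigmaCongrRight e).trans (Equiv.sigmaFiberEquiv l)), ?_⟩
  funext w
  simp only [Function.comp, Equiv.trans_apply]
  have := ((e (k w)) ⟨w, rfl⟩).2
  exact this.symm

/-- Labellings with the same fibre sizes as `l`. -/
def orb (l : W → L) : Finset (W → L) :=
  univ.filter (fun k => ∀ x, (univ.filter (fun w => k w = x)).card =
    (univ.filter (fun w => l w = x)).card)

lemma mem_orb (l k : W → L) : k ∈ orb l ↔ ∃ π : Equiv.Perm W, k = l ∘ π := by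
  constructor
  · intro h
    exact exists_perm_of_card_fib l k (by simpa [orb] using h)
  · rintro ⟨π, rfl⟩
    simp only [orb, mem_filter, mem_univ, true_and, Function.comp]
    intro x
    apply Finset.card_bij (fun w _ => π w)
    · intro w hw; simpa using hw
    · intro a _ b _ hab; exact π.injective hab
    · intro w hw; exact ⟨π.symm w, by simpa using hw, by simp⟩

lemma card_comp_eq (l : W → L) (π₀ : Equiv.Perm W) :
    (univ.filter (fun π : Equiv.Perm W => l ∘ π = l ∘ π₀)).card =
      (univ.filter (fun π : Equiv.Perm W => l ∘ π = l)).card := by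
  apply Finset.card_bij (fun π _ => π * π₀⁻¹)
  · intro π hπ
    simp only [mem_filter, mem_univ, true_and] at hπ ⊢
    funext w
    have := congrFun hπ (π₀⁻¹ w)
    simpa [Function.comp] using this
  · intro a _ b _ hab; exact mul_right_cancel hab
  · intro π hπ
    simp only [mem_filter, mem_univ, true_and] at hπ
    refine ⟨π * π₀, ?_, by simp⟩
    simp only [mem_filter, mem_univ, true_and]
    funext w
    have := congrFun hπ (π₀ w)
    simpa [Function.comp] using this

/-- number of permutations preserving `l` -/
def stabCard (l : W → L) : ℕ := (univ.filter (fun π : Equiv.Perm W => l ∘ π = l)).card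

lemma stabCard_pos (l : W → L) : 0 < stabCard l := by
  unfold stabCard
  rw [Finset.card_pos]
  exact ⟨1, by simp⟩

lemma sum_comp_label (l : W → L) (u : (W → L) → ℝ) :
    ∑ π : Equiv.Perm W, u (l ∘ π) = (stabCard l : ℝ) * ∑ k ∈ orb l, u k := by
  have hmaps : ∀ π ∈ (univ : Finset (Equiv.Perm W)), (l ∘ π : W → L) ∈ orb l := by
    intro π _; rw [mem_orb]; exact ⟨π, rfl⟩
  rw [← Finset.sum_fiberwise_of_maps_to hmaps, Finset.mul_sum]
  apply Finset.sum_congr rfl
  intro k hk
  obtain ⟨π₀, rfl⟩ := (mem_orb l k).1 hk
  have : ∀ π ∈ univ.filter (fun π : Equiv.Perm W => l ∘ π = l ∘ π₀), u (l ∘ π) = u (l ∘ π₀) := by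
    intro π hπ
    simp only [mem_filter, mem_univ, true_and] at hπ
    rw [hπ]
  rw [Finset.sum_congr rfl this, Finset.sum_const, card_comp_eq, nsmul_eq_mul]
  rfl

lemma card_perm_eq (l : W → L) :
    Fintype.card (Equiv.Perm W) = stabCard l * (orb l).card := by
  have := sum_comp_label l (fun _ => (1 : ℝ))
  simp only [Finset.sum_const, nsmul_eq_mul, mul_one, Finset.card_univ] at this
  exact_mod_cast this

lemma orb_card_pos (l : W → L) : 0 < (orb l).card := by
  rw [Finset.card_pos]; exact ⟨l, by simp [orb]⟩

lemma avg_comp_label (l : W → L) (u : (W → L) → ℝ) :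
    avg (fun π : Equiv.Perm W => u (l ∘ π)) = (∑ k ∈ orb l, u k) / ((orb l).card : ℝ) := by
  unfold avg
  rw [sum_comp_label, card_perm_eq l, Nat.cast_mul]
  have h1 : (stabCard l : ℝ) ≠ 0 := by exact_mod_cast (stabCard_pos l).ne'
  rw [mul_div_mul_left _ _ h1]

lemma stabCard_eq (l : W → L) :
    stabCard l = ∏ x, ((univ.filter (fun w => l w = x)).card).factorial := by
  have := DomMulAct.stabilizer_card l
  rw [Fintype.card_subtype] at this
  unfold stabCard
  rw [this]
  apply Finset.prod_congr rfl
  intro x _
  rw [Fintype.card_subtype]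

end Label

end Vale.Agent.P162
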