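import Vale.Agent.P162.Pair
import Vale.Agent.P162.DV

/-! The table inequality for large tables. -/

namespace Vale.Agent.P162.Tb

open Finset

set_option linter.unusedSectionVars false

section

variable {W : Type} [Fintype W] [DecidableEq W]

/-- conditional average as a function of the label -/
noncomputable def cf {Ω S : Type} [Fintype Ω] (s : Ω → S) (F : Ω → ℝ) (x : S) : ℝ := by
  classical
  exact (∑ ω' ∈ univ.filter (fun ω' => s ω' = x), F ω') /
    ((univ.filter (fun ω' => s ω' = x)).card : ℝ)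

lemma cavg_eq_cf {Ω S : Type} [Fintype Ω] (s : Ω → S) (F : Ω → ℝ) (ω : Ω) :
    cavg s F ω = cf s F (s ω) := rfl

lemma cf_nonneg {Ω S : Type} [Fintype Ω] (s : Ω → S) {F : Ω → ℝ} (hF : ∀ ω, 0 ≤ F ω) (x : S) :
    0 ≤ cf s F x := by
  unfold cf
  exact div_nonneg (Finset.sum_nonneg (fun ω _ => hF ω)) (Nat.cast_nonneg _)

lemma ibal_nonneg (x : W → Bool) : 0 ≤ ibal x := by unfold ibal; split <;> norm_num

lemma ibal_le_one (x : W → Bool) : ibal x ≤ 1 := by unfold ibal; split <;> norm_num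

/-- averages over the slice -/
lemma avg_row {row : W → Bool} (hx : row ∈ bal W) (u : (W → Bool) → ℝ) :
    avg (fun π : Equiv.Perm W => u (row ∘ π)) = (∑ x, ibal x * u x) / ((bal W).card : ℝ) := by
  rw [avg_comp_label row u, orb_bal hx]
  congr 1
  have : ∀ x ∈ (univ : Finset (W → Bool)), ibal x * u x = if x ∈ bal W then u x else 0 := by
    intro x _; unfold ibal; split <;> simp
  rw [Finset.sum_congr rfl this, ← Finset.sum_filter]; simp

/-- the orthogonal pair average is at most the independent one, up to `1 / oo` -/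
lemma avg_pair_le {row col : W → Bool} {b : ℕ} (h : Tab row col b) {u v : (W → Bool) → ℝ}
    (hu : ∀ x, 0 ≤ u x) (hv : ∀ x, 0 ≤ v x) :
    oo b * avg (fun π : Equiv.Perm W => u (row ∘ π) * v (col ∘ π)) ≤
      avg (fun π : Equiv.Perm W => u (row ∘ π)) * avg (fun π : Equiv.Perm W => v (col ∘ π)) := by
  have h1 := avg_comp_label (jl row col) (fun z => u (fun w => (z w).1) * v (fun w => (z w).2))
  have h2 : (fun π : Equiv.Perm W => u (row ∘ π) * v (col ∘ π)) =
      fun π : Equiv.Perm W => u (fun w => ((jl row col ∘ π) w).1) *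
        v (fun w => ((jl row col ∘ π) w).2) := by
    funext π; rfl
  rw [h2, h1, pair_sum h (fun x y => u x * v y), avg_row (tab_bal h).1, avg_row (tab_bal h).2,
    card_orb h, card_bal h]
  have c1 : (0 : ℝ) < Nat.centralBinom (2 * b) := by exact_mod_cast Nat.centralBinom_pos _
  have c2 : (0 : ℝ) < Nat.centralBinom b := by exact_mod_cast Nat.centralBinom_pos _
  have h3 : ∑ x : W → Bool, ∑ y : W → Bool, ibal (xmul x y) * (ibal x * ibal y * (u x * v y)) ≤
      (∑ x, ibal x * u x) * (∑ y, ibal y * v y) := by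
    rw [Finset.sum_mul_sum]
    apply Finset.sum_le_sum
    intro x _
    apply Finset.sum_le_sum
    intro y _
    have : ibal x * u x * (ibal y * v y) = 1 * (ibal x * ibal y * (u x * v y)) := by ring
    rw [this]
    apply mul_le_mul_of_nonneg_right (ibal_le_one _)
    have := ibal_nonneg x
    have := ibal_nonneg y
    have := hu x
    have := hv y
    positivity
  unfold oo
  push_cast
  rw [div_mul_div_comm, div_mul_div_comm, div_le_div_iff₀ (by positivity) (by positivity)]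
  have h4 := mul_le_mul_of_nonneg_left h3
    (by positivity : (0 : ℝ) ≤ (Nat.centralBinom b : ℝ) ^ 2 * (Nat.centralBinom (2 * b) : ℝ) ^ 2)
  linarith

lemma oo_le_one {row col : W → Bool} {b : ℕ} (h : Tab row col b) : oo b ≤ 1 := by
  have := avg_pair_le h (u := fun _ => 1) (v := fun _ => 1) (fun _ => zero_le_one)
    (fun _ => zero_le_one)
  simpa [avg_const] using this

lemma avg_le_rpow_avg {Ω : Type} [Fintype Ω] [Nonempty Ω] {X : Ω → ℝ} (hX : ∀ ω, 0 ≤ X ω)
    {e : ℝ} (he : 1 ≤ e) : (avg X) ^ e ≤ avg (fun ω => X ω ^ e) := by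
  have hc : (Fintype.card Ω : ℝ) ≠ 0 := by exact_mod_cast Fintype.card_ne_zero
  have := Real.rpow_arith_mean_le_arith_mean_rpow univ (fun _ : Ω => (1 : ℝ) / Fintype.card Ω) X
    (fun _ _ => by positivity) (by
      rw [Finset.sum_const, nsmul_eq_mul, Finset.card_univ]; field_simp) (fun ω _ => hX ω) he
  unfold avg
  rw [← Finset.mul_sum, ← Finset.mul_sum] at this
  rw [div_eq_mul_one_div, mul_comm, div_eq_mul_one_div (∑ ω, X ω ^ e), mul_comm (∑ ω, X ω ^ e)]
  exact this

/-- slice version of the power average -/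
lemma avg_rpow_slice {row : W → Bool} (hx : row ∈ bal W) (u : (W → Bool) → ℝ) {p : ℝ}
    (hp : 0 < p) : avg (fun x => |u x * ibal x| ^ p) =
      beta (∅ : Finset W) * avg (fun π : Equiv.Perm W => |u (row ∘ π)| ^ p) := by
  rw [avg_single hx (fun x => |u x| ^ p)]
  have h0 : beta (∅ : Finset W) ≠ 0 := by
    rw [beta_empty]
    have : (0 : ℝ) < (bal W).card := by
      have := orb_card_pos row
      rw [orb_bal hx] at this; exact_mod_cast this
    positivity
  rw [mul_div_cancel₀ _ h0]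
  congr 1; funext x
  unfold ibal
  split
  · simp
  · simp [Real.zero_rpow hp.ne']

lemma QQ_le (hyper : S_HYPER) (m : ℕ) (hm : 1 ≤ m) {row : W → Bool} (hx : row ∈ bal W)
    (u : (W → Bool) → ℝ) :
    QQ (2 * (m : ℝ) - 1) (fun x => u x * ibal x) ≤
      beta (∅ : Finset W) ^ ((2 * (m : ℝ) - 1) / m) *
        (avg (fun π : Equiv.Perm W => |u (row ∘ π)| ^ (2 * (m : ℝ) / (2 * m - 1)))) ^
          ((2 * (m : ℝ) - 1) / m) := by
  have hm' : (1 : ℝ) ≤ m := by exact_mod_cast hm
  have hp : 0 < 2 * (m : ℝ) / (2 * m - 1) := by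
    apply div_pos <;> linarith
  have h := hyper W m hm (fun x => u x * ibal x)
  rw [avg_rpow_slice hx u hp, Real.mul_rpow] at h
  · exact h
  · rw [beta_empty]; positivity
  · exact avg_nonneg (fun _ => Real.rpow_nonneg (abs_nonneg _) _)

lemma QQ_sq (hyper : S_HYPER) (m : ℕ) (hm : 1 ≤ m) {row : W → Bool} (hx : row ∈ bal W)
    (u : (W → Bool) → ℝ) :
    QQ (2 * (m : ℝ) - 1) (fun x => u x * ibal x) ≤
      beta (∅ : Finset W) ^ ((2 * (m : ℝ) - 1) / m) *
        avg (fun π : Equiv.Perm W => u (row ∘ π) ^ 2) := by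
  refine (QQ_le hyper m hm hx u).trans ?_
  have hm' : (1 : ℝ) ≤ m := by exact_mod_cast hm
  have hm0 : (0 : ℝ) < m := by linarith
  have hm1 : (0 : ℝ) < 2 * m - 1 := by linarith
  apply mul_le_mul_of_nonneg_left _ (Real.rpow_nonneg (by rw [beta_empty]; positivity) _)
  refine (avg_le_rpow_avg (fun _ => Real.rpow_nonneg (abs_nonneg _) _) ?_).trans (le_of_eq ?_)
  · rw [le_div_iff₀ hm0]; linarith
  · congr 1; funext π
    rw [← Real.rpow_mul (abs_nonneg _)]
    have : 2 * (m : ℝ) / (2 * m - 1) * ((2 * m - 1) / m) = 2 := by field_simp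
    rw [this, Real.rpow_two, sq_abs]

lemma QQ_bdd (hyper : S_HYPER) (m : ℕ) (hm : 1 ≤ m) {row : W → Bool} (hx : row ∈ bal W)
    (u : (W → Bool) → ℝ) (hu : ∀ x, 0 ≤ u x) {K E : ℝ} (huK : ∀ x, u x ≤ K)
    (hE : 1 ≤ E) (hKE : K ^ (1 / (2 * (m : ℝ) - 1)) ≤ E)
    (hu1 : avg (fun π : Equiv.Perm W => u (row ∘ π)) ≤ 1) :
    QQ (2 * (m : ℝ) - 1) (fun x => u x * ibal x) ≤
      beta (∅ : Finset W) ^ ((2 * (m : ℝ) - 1) / m) *
        (E ^ 2 * avg (fun π : Equiv.Perm W => u (row ∘ π))) := by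
  refine (QQ_le hyper m hm hx u).trans ?_
  have hm' : (1 : ℝ) ≤ m := by exact_mod_cast hm
  have hm0 : (0 : ℝ) < m := by linarith
  have hm1 : (0 : ℝ) < 2 * m - 1 := by linarith
  apply mul_le_mul_of_nonneg_left _ (Real.rpow_nonneg (by rw [beta_empty]; positivity) _)
  set a := avg (fun π : Equiv.Perm W => u (row ∘ π)) with ha
  have ha0 : 0 ≤ a := avg_nonneg (fun _ => hu _)
  have h1 : avg (fun π : Equiv.Perm W => |u (row ∘ π)| ^ (2 * (m : ℝ) / (2 * m - 1))) ≤ E * a := by
    rw [ha, ← avg_const_mul]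
    apply avg_mono
    intro π
    rw [abs_of_nonneg (hu _)]
    rcases (hu (row ∘ π)).eq_or_lt with h0 | h0
    · rw [← h0, Real.zero_rpow (by positivity)]; simp
    · have : 2 * (m : ℝ) / (2 * m - 1) = 1 / (2 * m - 1) + 1 := by field_simp; ring
      rw [this, Real.rpow_add_one h0.ne']
      apply mul_le_mul_of_nonneg_right _ (hu _)
      exact (Real.rpow_le_rpow (hu _) (huK _) (by positivity)).trans hKE
  have he1 : 1 ≤ (2 * (m : ℝ) - 1) / m := by rw [le_div_iff₀ hm0]; linarith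
  have he2 : (2 * (m : ℝ) - 1) / m ≤ 2 := by rw [div_le_iff₀ hm0]; linarith
  have h0 : 0 ≤ avg (fun π : Equiv.Perm W => |u (row ∘ π)| ^ (2 * (m : ℝ) / (2 * m - 1))) :=
    avg_nonneg (fun _ => Real.rpow_nonneg (abs_nonneg _) _)
  refine (Real.rpow_le_rpow h0 h1 (by positivity)).trans ?_
  rw [Real.mul_rpow (by linarith) ha0]
  have h3 : E ^ ((2 * (m : ℝ) - 1) / m) ≤ E ^ 2 := by
    rw [← Real.rpow_two]
    exact Real.rpow_le_rpow_of_exponent_le hE he2
  have h4 : a ^ ((2 * (m : ℝ) - 1) / m) ≤ a := by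
    rcases ha0.eq_or_lt with h | h
    · rw [← h, Real.zero_rpow (by positivity)]
    · calc a ^ ((2 * (m : ℝ) - 1) / m) ≤ a ^ (1 : ℝ) :=
          Real.rpow_le_rpow_of_exponent_ge h hu1 he1
        _ = a := Real.rpow_one a
  exact mul_le_mul h3 h4 (Real.rpow_nonneg ha0 _) (by positivity)

lemma coef_add (G₁ G₂ : (W → Bool) → ℝ) (A : Finset W) :
    coef (fun x => G₁ x + G₂ x) A = coef G₁ A + coef G₂ A := by
  unfold coef
  rw [← avg_add]
  congr 1; funext x; ring

lemma QQ_add (q : ℝ) (hq : 0 < q) (G₁ G₂ : (W → Bool) → ℝ) :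
    QQ q (fun x => G₁ x + G₂ x) ≤ 2 * QQ q G₁ + 2 * QQ q G₂ := by
  unfold QQ
  rw [Finset.mul_sum, Finset.mul_sum, ← Finset.sum_add_distrib]
  apply Finset.sum_le_sum
  intro A _
  rw [coef_add]
  have h : 0 ≤ (1 / q) ^ A.card := by positivity
  nlinarith [mul_nonneg h (sq_nonneg (coef G₁ A - coef G₂ A))]

end

end Vale.Agent.P162.Tb
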