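import Vale.Agent.P162.Large

/-! The table inequality for large tables: assembly. -/

namespace Vale.Agent.P162.Tb

open Finset

set_option linter.unusedSectionVars false

section

variable {W : Type} [Fintype W] [DecidableEq W]

lemma ibal_mul_self (x : W → Bool) : ibal x * ibal x = ibal x := by
  unfold ibal; split <;> simp

lemma beta_pos {row : W → Bool} (hx : row ∈ bal W) : 0 < beta (∅ : Finset W) := by
  rw [beta_empty]
  have : (0 : ℝ) < (bal W).card := by
    have := orb_card_pos row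
    rw [orb_bal hx] at this; exact_mod_cast this
  positivity

lemma exp_ge_nine (m : ℕ) (hm : 2 ≤ m) : 9 ≤ Real.exp (2 * (m : ℝ) - 1) := by
  have hm' : (2 : ℝ) ≤ m := by exact_mod_cast hm
  have h1 : (3 : ℝ) ≤ 2 * (m : ℝ) - 1 := by linarith
  have h2 : Real.exp 3 ≤ Real.exp (2 * (m : ℝ) - 1) := Real.exp_le_exp.mpr h1
  have h3 : (2.7 : ℝ) < Real.exp 1 := by
    have := Real.exp_one_gt_d9; linarith
  have h4 : Real.exp 3 = Real.exp 1 ^ 3 := by
    rw [← Real.exp_nat_mul]; norm_num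
  have h5 : (2.7 : ℝ) ^ 3 ≤ Real.exp 1 ^ 3 := pow_le_pow_left₀ (by norm_num) h3.le 3
  have h6 : (9 : ℝ) ≤ 2.7 ^ 3 := by norm_num
  linarith

/-- all three estimates on `g = lo K u - 1`. -/
lemma g_est (hyper : S_HYPER) (m : ℕ) (hm : 2 ≤ m) {row : W → Bool} (hx : row ∈ bal W)
    (u : (W → Bool) → ℝ) (hu : ∀ x, 0 ≤ u x)
    (hu1 : avg (fun π : Equiv.Perm W => u (row ∘ π)) = 1) :
    QQ (2 * (m : ℝ) - 1) (fun x => (lo (Real.exp (2 * m - 1)) (u x) - 1) * ibal x) ≤
      beta (∅ : Finset W) ^ ((2 * (m : ℝ) - 1) / m) *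
        (66 * avg (fun π : Equiv.Perm W => phs (u (row ∘ π)))) := by
  have hm' : (2 : ℝ) ≤ m := by exact_mod_cast hm
  have hq : (0 : ℝ) < 2 * m - 1 := by linarith
  set K := Real.exp (2 * (m : ℝ) - 1) with hK
  have hK9 : 9 ≤ K := exp_ge_nine m hm
  set A := avg (fun π : Equiv.Perm W => phs (u (row ∘ π))) with hA
  have e0 : (fun x : W → Bool => (lo K (u x) - 1) * ibal x) =
      fun x => (lo 9 (u x) - 1) * ibal x + (lo K (u x) - lo 9 (u x)) * ibal x := by
    funext x; ring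
  rw [e0]
  refine (QQ_add _ hq _ _).trans ?_
  have b0 := QQ_sq hyper m (by omega) hx (fun x => lo 9 (u x) - 1)
  have c0 : avg (fun π : Equiv.Perm W => (lo 9 (u (row ∘ π)) - 1) ^ 2) ≤ 16 * A := by
    rw [hA, ← avg_const_mul]
    exact avg_mono (fun π => g0_sq (hu _))
  have c1 : avg (fun π : Equiv.Perm W => lo K (u (row ∘ π)) - lo 9 (u (row ∘ π))) ≤ 9 / 4 * A := by
    rw [hA, ← avg_const_mul]
    exact avg_mono (fun π => g1_le (hu _) hK9)
  have c2 : avg (fun π : Equiv.Perm W => lo K (u (row ∘ π)) - lo 9 (u (row ∘ π))) ≤ 1 := by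
    rw [← hu1]
    exact avg_mono (fun π => g1_le_x (hu _))
  have hKE : K ^ (1 / (2 * (m : ℝ) - 1)) ≤ Real.exp 1 := by
    rw [hK, ← Real.exp_mul]
    apply le_of_eq
    congr 1
    field_simp
  have b1 := QQ_bdd hyper m (by omega) hx (fun x => lo K (u x) - lo 9 (u x))
    (fun x => g1_nonneg (hu x) hK9) (fun x => g1_le_K (hu x) hK9)
    (Real.one_le_exp (by norm_num)) hKE c2
  have hB : 0 ≤ beta (∅ : Finset W) ^ ((2 * (m : ℝ) - 1) / m) :=
    Real.rpow_nonneg (beta_pos hx).le _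
  have b0' := b0.trans (mul_le_mul_of_nonneg_left c0 hB)
  have he : Real.exp 1 ^ 2 ≤ 7.4 := by
    have := Real.exp_one_lt_d9
    have h0 : (0 : ℝ) < Real.exp 1 := Real.exp_pos 1
    nlinarith
  have hA0 : 0 ≤ A := avg_nonneg (fun _ => phs_nonneg (hu _))
  have b1' := b1.trans (mul_le_mul_of_nonneg_left (mul_le_mul he c1
    (avg_nonneg (fun π => g1_nonneg (hu _) hK9)) (by norm_num)) hB)
  have : 2 * (beta (∅ : Finset W) ^ ((2 * (m : ℝ) - 1) / m) * (16 * A)) +
      2 * (beta (∅ : Finset W) ^ ((2 * (m : ℝ) - 1) / m) * (7.4 * (9 / 4 * A))) ≤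
      beta (∅ : Finset W) ^ ((2 * (m : ℝ) - 1) / m) * (66 * A) := by
    have : 0 ≤ beta (∅ : Finset W) ^ ((2 * (m : ℝ) - 1) / m) * A := mul_nonneg hB hA0
    nlinarith
  linarith

lemma g_sq {K : ℝ} (hK9 : 9 ≤ K) {row : W → Bool} (hx : row ∈ bal W)
    (u : (W → Bool) → ℝ) (hu : ∀ x, 0 ≤ u x) :
    avg (fun x => ((lo K (u x) - 1) * ibal x) * ((lo K (u x) - 1) * ibal x)) ≤
      beta (∅ : Finset W) * ((32 + 4.5 * K) *
        avg (fun π : Equiv.Perm W => phs (u (row ∘ π)))) := by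
  have h1 := avg_single hx (fun x => (lo K (u x) - 1) ^ 2)
  have hb := beta_pos hx
  have h2 : avg (fun x : W → Bool => ((lo K (u x) - 1) * ibal x) * ((lo K (u x) - 1) * ibal x)) =
      beta (∅ : Finset W) * avg (fun π : Equiv.Perm W => (lo K (u (row ∘ π)) - 1) ^ 2) := by
    rw [h1, mul_div_cancel₀ _ hb.ne']
    congr 1; funext x
    have := ibal_mul_self x
    calc _ = (lo K (u x) - 1) ^ 2 * (ibal x * ibal x) := by ring
      _ = _ := by rw [this]
  rw [h2]
  apply mul_le_mul_of_nonneg_left _ hb.le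
  rw [← avg_const_mul]
  apply avg_mono
  intro π
  have a0 := g0_sq (hu (row ∘ π))
  have a1 := g1_le (K := K) (hu (row ∘ π)) hK9
  have a2 := g1_nonneg (K := K) (hu (row ∘ π)) hK9
  have a3 := g1_le_K (K := K) (hu (row ∘ π)) hK9
  have a4 := phs_nonneg (hu (row ∘ π))
  generalize u (row ∘ π) = z at *
  have e : (lo K z - 1) ^ 2 ≤ 2 * (lo 9 z - 1) ^ 2 + 2 * (lo K z - lo 9 z) ^ 2 := by
    nlinarith [sq_nonneg ((lo 9 z - 1) - (lo K z - lo 9 z))]
  have e2 : (lo K z - lo 9 z) ^ 2 ≤ K * (9 / 4 * phs z) := by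
    rw [sq]
    exact mul_le_mul a3 a1 a2 (by linarith)
  nlinarith

lemma g_mean {K : ℝ} {row : W → Bool} (hx : row ∈ bal W)
    (u : (W → Bool) → ℝ) (hu1 : avg (fun π : Equiv.Perm W => u (row ∘ π)) = 1) :
    coef (fun x => (lo K (u x) - 1) * ibal x) ∅ =
      - (beta (∅ : Finset W) * avg (fun π : Equiv.Perm W => hi K (u (row ∘ π)))) := by
  have h1 := avg_single hx (fun x => lo K (u x) - 1)
  have hb := beta_pos hx
  have h2 : coef (fun x : W → Bool => (lo K (u x) - 1) * ibal x) ∅ =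
      beta (∅ : Finset W) * avg (fun π : Equiv.Perm W => lo K (u (row ∘ π)) - 1) := by
    rw [h1, mul_div_cancel₀ _ hb.ne']
    unfold coef
    congr 1; funext x
    rw [chi_empty, mul_one]
  rw [h2]
  have h3 : avg (fun π : Equiv.Perm W => lo K (u (row ∘ π)) - 1) =
      - avg (fun π : Equiv.Perm W => hi K (u (row ∘ π))) := by
    have h4 : avg (fun π : Equiv.Perm W => lo K (u (row ∘ π)) + hi K (u (row ∘ π))) = 1 := by
      rw [← hu1]; congr 1; funext π; exact lo_add_hi _ _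
    rw [avg_add] at h4
    rw [avg_sub, avg_const]; linarith
  rw [h3]; ring

/-- real-number bookkeeping for `large` -/
lemma large_real {A B D wf wg o μ η ϑ K R P bb M G Q1 Q2 S1 S2 lg L X : ℝ}
    (hA0 : 0 ≤ A) (hB0 : 0 ≤ B) (hAD : A ≤ D) (hBD : B ≤ D)
    (hwf0 : 0 ≤ wf) (hwg0 : 0 ≤ wg) (hwf1 : wf ≤ 1) (hwg1 : wg ≤ 1) (hM : 0 < M)
    (hwfA : wf ≤ A / M) (hwgB : wg ≤ B / M) (ho : 0 < o) (hμ : 0 < μ) (hmuo : μ ≤ o)
    (hη0 : 0 ≤ η) (hϑ0 : 0 ≤ ϑ) (hK0 : 0 < K) (hR0 : 0 ≤ R) (hRP : R ≤ P) (hbb : 0 < bb)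
    (hmub : 1 / bb ≤ μ) (hlg0 : 0 ≤ lg) (hlgL : lg ≤ L)
    (q1 : Q1 ≤ μ * μ * R * (66 * A)) (q2 : Q2 ≤ μ * μ * R * (66 * B))
    (s1 : S1 ≤ μ * ((32 + 4.5 * K) * A)) (s2 : S2 ≤ μ * ((32 + 4.5 * K) * B))
    (hG : G ≤ 1 / (o * μ) * (2 * (μ ^ 2 * (wf * wg)) + η * (Q1 + Q2) + ϑ / 2 * (S1 + S2)))
    (hX : X ≤ wf + wg)
    (hdv : A + B ≤ D + lg * (wf + wg) + (1 - wf - wg + G) + X - 1) :
    A + B ≤ (1 + (2 * (L + 1) / M + 132 * η * P + ϑ * (32 + 4.5 * K) * bb)) * D := by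
  have hww : 2 * (wf * wg) ≤ wf + wg := by nlinarith
  have hUμ : 1 / (o * μ) * (μ * μ) ≤ 1 := by
    rw [one_div, inv_mul_le_iff₀ (by positivity), mul_one]
    exact mul_le_mul_of_nonneg_right hmuo hμ.le
  have hU0 : 0 ≤ 1 / (o * μ) := by positivity
  have hUμ2 : 1 / (o * μ) * μ ≤ bb := by
    have h1 : 1 / (o * μ) * μ = 1 / o := by field_simp
    rw [h1, div_le_iff₀ ho]
    have h2 : 1 / bb ≤ o := hmub.trans hmuo
    rw [div_le_iff₀ hbb] at h2
    linarith
  have hP0 : 0 ≤ P := hR0.trans hRP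
  have T1 : 1 / (o * μ) * (2 * (μ ^ 2 * (wf * wg))) ≤ wf + wg := by
    have e : 1 / (o * μ) * (2 * (μ ^ 2 * (wf * wg))) = (1 / (o * μ) * (μ * μ)) * (2 * (wf * wg)) := by
      ring
    rw [e]
    calc _ ≤ 1 * (2 * (wf * wg)) := mul_le_mul_of_nonneg_right hUμ (by positivity)
      _ ≤ _ := by linarith
  have T2 : 1 / (o * μ) * (η * (Q1 + Q2)) ≤ η * (66 * (A + B)) * P := by
    have h1 : Q1 + Q2 ≤ (μ * μ) * (R * (66 * (A + B))) := by
      calc _ ≤ μ * μ * R * (66 * A) + μ * μ * R * (66 * B) := add_le_add q1 q2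
        _ = _ := by ring
    calc _ ≤ 1 / (o * μ) * (η * ((μ * μ) * (R * (66 * (A + B))))) :=
          mul_le_mul_of_nonneg_left (mul_le_mul_of_nonneg_left h1 hη0) hU0
      _ = (1 / (o * μ) * (μ * μ)) * (η * (66 * (A + B)) * R) := by ring
      _ ≤ 1 * (η * (66 * (A + B)) * R) := mul_le_mul_of_nonneg_right hUμ (by positivity)
      _ = η * (66 * (A + B)) * R := one_mul _
      _ ≤ η * (66 * (A + B)) * P := mul_le_mul_of_nonneg_left hRP (by positivity)
  have T3 : 1 / (o * μ) * (ϑ / 2 * (S1 + S2)) ≤ ϑ / 2 * ((32 + 4.5 * K) * (A + B)) * bb := by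
    have h1 : S1 + S2 ≤ μ * ((32 + 4.5 * K) * (A + B)) := by
      calc _ ≤ μ * ((32 + 4.5 * K) * A) + μ * ((32 + 4.5 * K) * B) := add_le_add s1 s2
        _ = _ := by ring
    calc _ ≤ 1 / (o * μ) * (ϑ / 2 * (μ * ((32 + 4.5 * K) * (A + B)))) :=
          mul_le_mul_of_nonneg_left (mul_le_mul_of_nonneg_left h1 (by positivity)) hU0
      _ = (1 / (o * μ) * μ) * (ϑ / 2 * ((32 + 4.5 * K) * (A + B))) := by ring
      _ ≤ bb * (ϑ / 2 * ((32 + 4.5 * K) * (A + B))) :=
          mul_le_mul_of_nonneg_right hUμ2 (by positivity)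
      _ = _ := by ring
  have hG' : G ≤ (wf + wg) + η * (66 * (A + B)) * P + ϑ / 2 * ((32 + 4.5 * K) * (A + B)) * bb := by
    refine hG.trans ?_
    rw [mul_add, mul_add]
    exact add_le_add (add_le_add T1 T2) T3
  have hw : wf + wg ≤ 2 * D / M := by
    have : A / M + B / M ≤ 2 * D / M := by
      rw [← add_div]
      exact div_le_div_of_nonneg_right (by linarith) hM.le
    linarith
  have hD0 : 0 ≤ D := hA0.trans hAD
  have hAB : A + B ≤ 2 * D := by linarith
  have L1 : (lg + 1) * (wf + wg) ≤ (L + 1) * (2 * D / M) :=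
    mul_le_mul (by linarith) hw (by linarith) (by linarith)
  have L2 : η * (66 * (A + B)) * P ≤ η * (66 * (2 * D)) * P := by
    apply mul_le_mul_of_nonneg_right _ hP0
    apply mul_le_mul_of_nonneg_left _ hη0
    linarith
  have L3 : ϑ / 2 * ((32 + 4.5 * K) * (A + B)) * bb ≤
      ϑ / 2 * ((32 + 4.5 * K) * (2 * D)) * bb := by
    apply mul_le_mul_of_nonneg_right _ hbb.le
    apply mul_le_mul_of_nonneg_left _ (by positivity)
    apply mul_le_mul_of_nonneg_left hAB (by positivity)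
  have hfin : A + B ≤ D + (L + 1) * (2 * D / M) +
      η * (66 * (2 * D)) * P + ϑ / 2 * ((32 + 4.5 * K) * (2 * D)) * bb := by
    have e : (lg + 1) * (wf + wg) = lg * (wf + wg) + (wf + wg) := by ring
    rw [e] at L1
    linarith
  refine hfin.trans (le_of_eq ?_)
  ring

/-- the defect for large tables -/
noncomputable def epsL (b m I : ℕ) : ℝ :=
  2 * (Real.log (4 * b) + 1) / (2 * m - 2) +
    132 * ((2 * (m : ℝ) - 1) ^ 2 / (((4 * b : ℕ) : ℝ) - 1)) * (4 * b : ℝ) ^ (1 / (m : ℝ)) +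
    (1 / (2 * (m : ℝ) - 1)) ^ (2 * I) * (32 + 4.5 * Real.exp (2 * m - 1)) * (4 * b)

lemma large (hyper : S_HYPER) (m : ℕ) (hm : 2 ≤ m) (I : ℕ) {row col : W → Bool} {b : ℕ}
    (h : Tab row col b) (hb : 0 < b)
    (hI : ∀ t < I, (2 * (t : ℝ) + 1) * (2 * (m : ℝ) - 1) ^ 2 ≤ ((4 * b : ℕ) : ℝ) - 2 * t - 1) :
    LP (Ω := Equiv.Perm W) (fun π => row ∘ π) (fun π => col ∘ π) (epsL b m I) := by
  apply LP_of_density
  intro F hF hF1
  have hm' : (2 : ℝ) ≤ m := by exact_mod_cast hm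
  have hq : (0 : ℝ) < 2 * m - 1 := by linarith
  have hq1 : (1 : ℝ) < 2 * m - 1 := by linarith
  have hbR : (0 : ℝ) < b := by exact_mod_cast hb
  have hrow := (tab_bal h).1
  have hcol := (tab_bal h).2
  set s : Equiv.Perm W → (W → Bool) := fun π => row ∘ π with hs
  set t : Equiv.Perm W → (W → Bool) := fun π => col ∘ π with ht
  set K := Real.exp (2 * (m : ℝ) - 1) with hK
  have hK9 : 9 ≤ K := exp_ge_nine m hm
  have ho := oo_pos b
  have ho1 := oo_le_one h
  have hdv := dv s t hF hF1 ho ho1 K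
  set f := cf s F with hf
  set g := cf t F with hg
  have hf0 : ∀ x, 0 ≤ f x := cf_nonneg s hF
  have hg0 : ∀ x, 0 ≤ g x := cf_nonneg t hF
  have ef : ∀ π, cavg s F π = f (row ∘ π) := fun π => rfl
  have eg : ∀ π, cavg t F π = g (col ∘ π) := fun π => rfl
  have hf1 : avg (fun π : Equiv.Perm W => f (row ∘ π)) = 1 := by
    rw [← hF1, ← avg_cavg s F]; rfl
  have hg1 : avg (fun π : Equiv.Perm W => g (col ∘ π)) = 1 := by
    rw [← hF1, ← avg_cavg t F]; rfl
  -- entropies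
  have hA : avg (fun π : Equiv.Perm W => phs (f (row ∘ π))) = Phi (cavg s F) := by
    unfold phs
    rw [avg_add, avg_sub, hf1, avg_const]
    simp only [sub_add_cancel]; rfl
  have hB : avg (fun π : Equiv.Perm W => phs (g (col ∘ π))) = Phi (cavg t F) := by
    unfold phs
    rw [avg_add, avg_sub, hg1, avg_const]
    simp only [sub_add_cancel]; rfl
  have hAD := Phi_cavg_le s hF
  have hBD := Phi_cavg_le t hF
  set A := Phi (cavg s F) with hAdef
  set B := Phi (cavg t F) with hBdef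
  set D := Phi F with hDdef
  have hA0 : 0 ≤ A := by rw [← hA]; exact avg_nonneg (fun _ => phs_nonneg (hf0 _))
  have hB0 : 0 ≤ B := by rw [← hB]; exact avg_nonneg (fun _ => phs_nonneg (hg0 _))
  -- tails
  set wf := avg (fun π => hi K (cavg s F π)) with hwf
  set wg := avg (fun π => hi K (cavg t F π)) with hwg
  have hwf0 : 0 ≤ wf := avg_nonneg (fun π => hi_nonneg (hf0 _))
  have hwg0 : 0 ≤ wg := avg_nonneg (fun π => hi_nonneg (hg0 _))
  have hwf1 : wf ≤ 1 := by
    rw [← hf1]; exact avg_mono (fun π => hi_le (hf0 _))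
  have hwg1 : wg ≤ 1 := by
    rw [← hg1]; exact avg_mono (fun π => hi_le (hg0 _))
  have hwfA : wf ≤ A / (2 * m - 2) := by
    have h1 : wf ≤ avg (fun π : Equiv.Perm W => (2 * (m : ℝ) - 2)⁻¹ * phs (f (row ∘ π))) := by
      apply avg_mono
      intro π
      have := hi_bound hq1 (hf0 (row ∘ π))
      rw [ef]
      refine this.trans (le_of_eq ?_)
      rw [div_eq_inv_mul]; congr 2; ring
    rw [avg_const_mul, hA] at h1
    rw [div_eq_inv_mul]; exact h1
  have hwgB : wg ≤ B / (2 * m - 2) := by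
    have h1 : wg ≤ avg (fun π : Equiv.Perm W => (2 * (m : ℝ) - 2)⁻¹ * phs (g (col ∘ π))) := by
      apply avg_mono
      intro π
      have := hi_bound hq1 (hg0 (col ∘ π))
      rw [eg]
      refine this.trans (le_of_eq ?_)
      rw [div_eq_inv_mul]; congr 2; ring
    rw [avg_const_mul, hB] at h1
    rw [div_eq_inv_mul]; exact h1
  -- the bad term
  have hbad : oo b * avg (fun π => hi K (cavg s F π) * cavg t F π + cavg s F π * hi K (cavg t F π))
      ≤ wf + wg := by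
    rw [avg_add, mul_add]
    have h1 := avg_pair_le h (u := fun x => hi K (f x)) (v := g) (fun x => hi_nonneg (hf0 x)) hg0
    have h2 := avg_pair_le h (u := f) (v := fun x => hi K (g x)) hf0 (fun x => hi_nonneg (hg0 x))
    rw [hg1, mul_one] at h1
    rw [hf1, one_mul] at h2
    exact add_le_add h1 h2
  -- the good term
  have hgood : avg (fun π => lo K (cavg s F π) * lo K (cavg t F π)) = 1 - wf - wg +
      avg (fun π : Equiv.Perm W => (lo K (f (row ∘ π)) - 1) * (lo K (g (col ∘ π)) - 1)) := by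
    have e1 : avg (fun π : Equiv.Perm W => lo K (f (row ∘ π))) = 1 - wf := by
      have h4 : avg (fun π : Equiv.Perm W => lo K (f (row ∘ π)) + hi K (f (row ∘ π))) = 1 := by
        rw [← hf1]; congr 1; funext π; exact lo_add_hi _ _
      rw [avg_add] at h4
      have : avg (fun π : Equiv.Perm W => hi K (f (row ∘ π))) = wf := rfl
      rw [this] at h4; linarith
    have e2 : avg (fun π : Equiv.Perm W => lo K (g (col ∘ π))) = 1 - wg := by
      have h4 : avg (fun π : Equiv.Perm W => lo K (g (col ∘ π)) + hi K (g (col ∘ π))) = 1 := by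
        rw [← hg1]; congr 1; funext π; exact lo_add_hi _ _
      rw [avg_add] at h4
      have : avg (fun π : Equiv.Perm W => hi K (g (col ∘ π))) = wg := rfl
      rw [this] at h4; linarith
    have e3 : (fun π => lo K (cavg s F π) * lo K (cavg t F π)) = fun π : Equiv.Perm W =>
        ((lo K (f (row ∘ π)) - 1) * (lo K (g (col ∘ π)) - 1) + lo K (f (row ∘ π)) +
          lo K (g (col ∘ π))) - 1 := by
      funext π
      rw [ef, eg]; ring
    rw [e3, avg_sub, avg_add, avg_add, e1, e2, avg_const]; ring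
  -- kernel bound
  have hpair := pair_bound h hb I (2 * (m : ℝ) - 1) hq hI (fun x => lo K (f x) - 1)
    (fun x => lo K (g x) - 1)
  have q1 := g_est hyper m hm hrow f hf0 hf1
  have q2 := g_est hyper m hm hcol g hg0 hg1
  have s1 := g_sq hK9 hrow f hf0
  have s2 := g_sq hK9 hcol g hg0
  have m1 := g_mean (K := K) hrow f hf1
  have m2 := g_mean (K := K) hcol g hg1
  rw [hA] at q1 s1
  rw [hB] at q2 s2
  have w1 : avg (fun π : Equiv.Perm W => hi K (f (row ∘ π))) = wf := rfl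
  have w2 : avg (fun π : Equiv.Perm W => hi K (g (col ∘ π))) = wg := rfl
  rw [beta_empty_eq h] at q1 q2 s1 s2 m1 m2
  rw [w1] at m1
  rw [w2] at m2
  rw [m1, m2] at hpair
  have hmu := mu0_pos b
  have hmuo := mu0_le_oo b
  have hmuge := mu0_ge b hb
  set μ := mu0 b with hμ
  set o := oo b with hodef
  set q := 2 * (m : ℝ) - 1 with hqdef
  set η := q ^ 2 / (((4 * b : ℕ) : ℝ) - 1) with hη
  set ϑ := (1 / q) ^ (2 * I) with hϑ
  have hN1 : (0 : ℝ) < ((4 * b : ℕ) : ℝ) - 1 := by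
    have : ((1 : ℕ) : ℝ) < ((4 * b : ℕ) : ℝ) := by
      exact_mod_cast (by omega : 1 < 4 * b)
    push_cast at this ⊢; linarith
  have hη0 : 0 ≤ η := by positivity
  have hϑ0 : 0 ≤ ϑ := by positivity
  have hK0 : 0 < K := Real.exp_pos _
  have habs : |-(μ * wf) * -(μ * wg)| = μ ^ 2 * (wf * wg) := by
    have : -(μ * wf) * -(μ * wg) = μ ^ 2 * (wf * wg) := by ring
    rw [this, abs_of_nonneg (by positivity)]
  rw [habs] at hpair
  have hpow : μ ^ (q / m) = μ * μ * μ ^ (-(1 / (m : ℝ))) := by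
    have : q / m = 2 + (-(1 / (m : ℝ))) := by
      rw [hqdef]; field_simp; ring
    rw [this, Real.rpow_add hmu, Real.rpow_two]; ring
  have hpow2 : μ ^ (-(1 / (m : ℝ))) ≤ (4 * (b : ℝ)) ^ (1 / (m : ℝ)) := by
    rw [Real.rpow_neg hmu.le, ← Real.inv_rpow hmu.le]
    apply Real.rpow_le_rpow (by positivity) _ (by positivity)
    rw [inv_le_comm₀ hmu (by positivity), ← one_div]
    exact hmuge
  rw [hpow] at q1 q2
  have hlog : - Real.log o ≤ Real.log (4 * b) := by
    rw [← Real.log_inv]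
    apply Real.log_le_log (by positivity)
    rw [inv_le_comm₀ ho (by positivity), ← one_div]
    exact hmuge.trans hmuo
  have hlog0 : 0 ≤ - Real.log o := by
    have := Real.log_nonpos ho.le ho1
    linarith
  have hm2 : (0 : ℝ) < 2 * m - 2 := by linarith
  rw [hgood] at hdv
  have hdv' : A + B ≤ D + (- Real.log o) * (wf + wg) + (1 - wf - wg +
      avg (fun π : Equiv.Perm W => (lo K (f (row ∘ π)) - 1) * (lo K (g (col ∘ π)) - 1))) +
      o * avg (fun π => hi K (cavg s F π) * cavg t F π + cavg s F π * hi K (cavg t F π)) - 1 := by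
    linarith
  have := large_real hA0 hB0 hAD hBD hwf0 hwg0 hwf1 hwg1 hm2 hwfA hwgB ho hmu hmuo hη0 hϑ0 hK0
    (by positivity) hpow2 (by positivity : (0 : ℝ) < 4 * b) hmuge hlog0 hlog q1 q2 s1 s2 hpair
    hbad hdv'
  unfold epsL
  rw [← hK, ← hqdef, ← hη, ← hϑ]
  exact this

end

end Vale.Agent.P162.Tb
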