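import Vale.Agent.P162.Count2

namespace Vale.Agent.P162

open Finset

set_option linter.unusedSectionVars false

section

variable {W : Type} [Fintype W] [DecidableEq W]

/-- noise-weighted energy -/
noncomputable def QQ (q : ℝ) (G : (W → Bool) → ℝ) : ℝ :=
  ∑ A : Finset W, (1 / q) ^ A.card * coef G A ^ 2

lemma sum_compl (f : Finset W → ℝ) : ∑ A : Finset W, f Aᶜ = ∑ A : Finset W, f A := by
  exact Equiv.sum_comp (compl_involutive (α := Finset W)).toPerm f

lemma cc_all {row col : W → Bool} {b : ℕ} (h : Tab row col b) (hb : 0 < b) (I : ℕ) (q : ℝ)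
    (hq : 0 < q) (hI : ∀ t < I, (2 * (t : ℝ) + 1) * q ^ 2 ≤ ((4 * b : ℕ) : ℝ) - 2 * t - 1)
    (A : Finset W) (h0 : A ≠ ∅) (h1 : A ≠ univ) :
    |cc (4 * b) A.card| ≤ q ^ 2 / (((4 * b : ℕ) : ℝ) - 1) * ((1 / q) ^ A.card + (1 / q) ^ Aᶜ.card)
      + (1 / q) ^ (2 * I) := by
  have hW := tab_card h
  have hpos : (0 : ℝ) < ((4 * b : ℕ) : ℝ) - 1 := by
    have : ((1 : ℕ) : ℝ) < ((4 * b : ℕ) : ℝ) := by
      exact_mod_cast (by omega : 1 < 4 * b)
    push_cast at this ⊢; linarith
  have hA : 1 ≤ A.card := Finset.card_pos.mpr (Finset.nonempty_iff_ne_empty.mpr h0)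
  have hAc : 1 ≤ Aᶜ.card := by
    apply Finset.card_pos.mpr
    rw [Finset.nonempty_iff_ne_empty]
    intro hc
    apply h1
    rw [← compl_compl A, hc, Finset.compl_empty]
  have hsum : A.card + Aᶜ.card = 4 * b := by
    rw [Finset.card_add_card_compl, hW]
  have p1 : 0 ≤ q ^ 2 / (((4 * b : ℕ) : ℝ) - 1) * (1 / q) ^ A.card := by positivity
  have p2 : 0 ≤ q ^ 2 / (((4 * b : ℕ) : ℝ) - 1) * (1 / q) ^ Aᶜ.card := by positivity
  rcases le_total A.card Aᶜ.card with hle | hle
  · have := cc_bound (4 * b) I q hq hI (by omega) A.card hA (by omega)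
    rw [mul_add]; linarith
  · have := cc_bound (4 * b) I q hq hI (by omega) Aᶜ.card hAc (by omega)
    rw [cc_compl h] at this
    rw [mul_add]; linarith

lemma pair_bound {row col : W → Bool} {b : ℕ} (h : Tab row col b) (hb : 0 < b) (I : ℕ) (q : ℝ)
    (hq : 0 < q) (hI : ∀ t < I, (2 * (t : ℝ) + 1) * q ^ 2 ≤ ((4 * b : ℕ) : ℝ) - 2 * t - 1)
    (g k : (W → Bool) → ℝ) :
    avg (fun π : Equiv.Perm W => g (row ∘ π) * k (col ∘ π)) ≤
      1 / (oo b * mu0 b) * (2 * |coef (fun x => g x * ibal x) ∅ * coef (fun x => k x * ibal x) ∅|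
        + q ^ 2 / (((4 * b : ℕ) : ℝ) - 1) *
            (QQ q (fun x => g x * ibal x) + QQ q (fun x => k x * ibal x))
        + (1 / q) ^ (2 * I) / 2 * (avg (fun x => (g x * ibal x) * (g x * ibal x)) +
            avg (fun x => (k x * ibal x) * (k x * ibal x)))) := by
  have hW := tab_card h
  rw [avg_pair' h]
  have hU : 0 ≤ 1 / (oo b * mu0 b) := by
    have := oo_pos b; have := mu0_pos b; positivity
  apply mul_le_mul_of_nonneg_left _ hU
  rw [← walsh_mul, ← walsh_mul]
  unfold QQ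
  generalize hcg : coef (fun x => g x * ibal x) = cg
  generalize hck : coef (fun x => k x * ibal x) = ck
  set η := q ^ 2 / (((4 * b : ℕ) : ℝ) - 1) with hη
  set ϑ := (1 / q) ^ (2 * I) with hϑ
  have hpos : (0 : ℝ) < ((4 * b : ℕ) : ℝ) - 1 := by
    have : ((1 : ℕ) : ℝ) < ((4 * b : ℕ) : ℝ) := by
      exact_mod_cast (by omega : 1 < 4 * b)
    push_cast at this ⊢; linarith
  have hη0 : 0 ≤ η := by positivity
  have hϑ0 : 0 ≤ ϑ := by positivity
  have sg : ∀ A, cg Aᶜ = cg A := fun A => by rw [← hcg]; exact coef_compl hW g A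
  have sk : ∀ A, ck Aᶜ = ck A := fun A => by rw [← hck]; exact coef_compl hW k A
  -- pointwise bound
  have hpt : ∀ A : Finset W, cc (4 * b) A.card * (cg A * ck A) ≤
      (if A = ∅ then |cg ∅ * ck ∅| else 0) + (if A = univ then |cg ∅ * ck ∅| else 0) +
      (η * ((1 / q) ^ A.card * ((cg A ^ 2 + ck A ^ 2) / 2)) +
       η * ((1 / q) ^ Aᶜ.card * ((cg Aᶜ ^ 2 + ck Aᶜ ^ 2) / 2))) +
      ϑ * ((cg A ^ 2 + ck A ^ 2) / 2) := by
    intro A
    have hs : |cg A * ck A| ≤ (cg A ^ 2 + ck A ^ 2) / 2 := by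
      rw [abs_le]
      constructor <;> nlinarith [sq_nonneg (cg A + ck A), sq_nonneg (cg A - ck A)]
    have hs0 : 0 ≤ (cg A ^ 2 + ck A ^ 2) / 2 := by positivity
    have q1 : 0 ≤ η * ((1 / q) ^ A.card * ((cg A ^ 2 + ck A ^ 2) / 2)) := by positivity
    have q2 : 0 ≤ η * ((1 / q) ^ Aᶜ.card * ((cg Aᶜ ^ 2 + ck Aᶜ ^ 2) / 2)) := by positivity
    have q3 : 0 ≤ ϑ * ((cg A ^ 2 + ck A ^ 2) / 2) := by positivity
    have hcc : |cc (4 * b) 0| = 1 := by simp [cc]
    by_cases h0 : A = ∅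
    · subst h0
      have i1 : cc (4 * b) (∅ : Finset W).card * (cg ∅ * ck ∅) ≤ |cg ∅ * ck ∅| := by
        rw [Finset.card_empty]
        have : cc (4 * b) 0 = 1 := by simp [cc]
        rw [this, one_mul]; exact le_abs_self _
      have i2 : (0 : ℝ) ≤ (if (∅ : Finset W) = univ then |cg ∅ * ck ∅| else 0) := by
        split <;> positivity
      rw [if_pos rfl]
      linarith
    · by_cases h1 : A = univ
      · subst h1
        have i1 : cc (4 * b) (univ : Finset W).card * (cg univ * ck univ) ≤ |cg ∅ * ck ∅| := by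
          have e := cc_compl h (∅ : Finset W)
          rw [Finset.compl_empty] at e
          rw [e, Finset.card_empty]
          have : cc (4 * b) 0 = 1 := by simp [cc]
          have e1 := sg ∅
          have e2 := sk ∅
          rw [Finset.compl_empty] at e1 e2
          rw [this, one_mul, e1, e2]; exact le_abs_self _
        rw [if_neg h0, if_pos rfl]
        linarith
      · have hc := cc_all h hb I q hq hI A h0 h1
        rw [if_neg h0, if_neg h1, sg, sk]
        calc cc (4 * b) A.card * (cg A * ck A) ≤ |cc (4 * b) A.card * (cg A * ck A)| :=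
              le_abs_self _
          _ = |cc (4 * b) A.card| * |cg A * ck A| := abs_mul _ _
          _ ≤ (η * ((1 / q) ^ A.card + (1 / q) ^ Aᶜ.card) + ϑ) * ((cg A ^ 2 + ck A ^ 2) / 2) :=
              mul_le_mul hc hs (abs_nonneg _) (by positivity)
          _ = _ := by ring
  refine (Finset.sum_le_sum (fun A _ => hpt A)).trans ?_
  rw [Finset.sum_add_distrib, Finset.sum_add_distrib, Finset.sum_add_distrib,
    Finset.sum_add_distrib, sum_compl (fun A => η * ((1 / q) ^ A.card * ((cg A ^ 2 + ck A ^ 2) / 2)))]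
  rw [Finset.sum_ite_eq' univ ∅, Finset.sum_ite_eq' univ univ]
  simp only [Finset.mem_univ, if_true]
  rw [← Finset.sum_add_distrib (s := univ) (f := fun A => (1 / q) ^ A.card * cg A ^ 2),
    ← Finset.sum_add_distrib (s := univ) (f := fun A => cg A * cg A)]
  rw [Finset.mul_sum, Finset.mul_sum]
  have r1 : ∀ A ∈ (univ : Finset (Finset W)), η * ((1 / q) ^ A.card * cg A ^ 2 +
      (1 / q) ^ A.card * ck A ^ 2) = η * ((1 / q) ^ A.card * ((cg A ^ 2 + ck A ^ 2) / 2)) +
      η * ((1 / q) ^ A.card * ((cg A ^ 2 + ck A ^ 2) / 2)) := by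
    intro A _; ring
  have r2 : ∀ A ∈ (univ : Finset (Finset W)), ϑ / 2 * (cg A * cg A + ck A * ck A) =
      ϑ * ((cg A ^ 2 + ck A ^ 2) / 2) := by
    intro A _; ring
  rw [Finset.sum_congr rfl r1, Finset.sum_congr rfl r2, Finset.sum_add_distrib]
  linarith

end

end Vale.Agent.P162
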