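import Vale.Agent.P162.Label

namespace Vale.Agent.P162

open Finset

set_option linter.unusedSectionVars false

section Cube

variable {W : Type} [Fintype W] [DecidableEq W]

lemma sgn_mul_self (b : Bool) : sgn b * sgn b = 1 := by cases b <;> simp [sgn]

lemma sgn_not (b : Bool) : sgn (!b) = - sgn b := by cases b <;> simp [sgn]

lemma sgn_xor (a b : Bool) : sgn (a == b) = sgn a * sgn b := by
  cases a <;> cases b <;> simp [sgn]

lemma abs_sgn (b : Bool) : |sgn b| = 1 := by cases b <;> simp [sgn]

/-- pointwise product of sign vectors -/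
def xmul (x y : W → Bool) : W → Bool := fun w => x w == y w

lemma chi_xmul (A : Finset W) (x y : W → Bool) : chi A (xmul x y) = chi A x * chi A y := by
  unfold chi xmul
  rw [← Finset.prod_mul_distrib]
  exact Finset.prod_congr rfl (fun a _ => sgn_xor _ _)

lemma chi_mul_self (A : Finset W) (x : W → Bool) : chi A x * chi A x = 1 := by
  unfold chi
  rw [← Finset.prod_mul_distrib]
  exact Finset.prod_eq_one (fun a _ => sgn_mul_self _)

lemma abs_chi (A : Finset W) (x : W → Bool) : |chi A x| = 1 := by
  unfold chi
  rw [Finset.abs_prod]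
  exact Finset.prod_eq_one (fun a _ => abs_sgn _)

lemma chi_empty (x : W → Bool) : chi (∅ : Finset W) x = 1 := by simp [chi]

lemma chi_insert {A : Finset W} {a : W} (h : a ∉ A) (x : W → Bool) :
    chi (insert a A) x = sgn (x a) * chi A x := by
  unfold chi; rw [Finset.prod_insert h]

lemma chi_erase {A : Finset W} {a : W} (h : a ∈ A) (x : W → Bool) :
    chi (A.erase a) x = sgn (x a) * chi A x := by
  unfold chi
  rw [← Finset.mul_prod_erase A _ h, ← mul_assoc, sgn_mul_self, one_mul]

/-- sum of signs -/
def ssum (x : W → Bool) : ℝ := ∑ w, sgn (x w)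

open Classical in
/-- balanced sign vectors -/
noncomputable def bal (W : Type) [Fintype W] [DecidableEq W] : Finset (W → Bool) :=
  univ.filter (fun x => ssum x = 0)

lemma mem_bal (x : W → Bool) : x ∈ bal W ↔ ssum x = 0 := by simp [bal]

/-- indicator of the slice -/
noncomputable def ibal (x : W → Bool) : ℝ := if x ∈ bal W then 1 else 0

/-- its Walsh coefficients -/
noncomputable def beta (A : Finset W) : ℝ := coef (ibal (W := W)) A

lemma ssum_comp (x : W → Bool) (π : Equiv.Perm W) : ssum (x ∘ π) = ssum x := by
  unfold ssum
  exact Equiv.sum_comp π (fun w => sgn (x w))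

lemma ibal_comp (x : W → Bool) (π : Equiv.Perm W) : ibal (x ∘ π) = ibal x := by
  unfold ibal; simp [mem_bal, ssum_comp]

lemma chi_comp (A : Finset W) (x : W → Bool) (π : Equiv.Perm W) :
    chi A (x ∘ π) = chi (A.map π.toEmbedding) x := by
  unfold chi; rw [Finset.prod_map]; rfl

lemma avg_comp_perm (G : (W → Bool) → ℝ) (π : Equiv.Perm W) :
    avg (fun x : W → Bool => G (x ∘ π)) = avg G := by
  unfold avg
  congr 1
  exact Equiv.sum_comp (Equiv.arrowCongr π.symm (Equiv.refl Bool)) G

lemma beta_map (A : Finset W) (π : Equiv.Perm W) : beta (A.map π.toEmbedding) = beta A := by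
  unfold beta coef
  rw [← avg_comp_perm (fun x => ibal x * chi A x) π]
  congr 1; funext x
  rw [ibal_comp, chi_comp]

lemma beta_card {A B : Finset W} (h : A.card = B.card) : beta A = beta B := by
  classical
  let e : A ≃ B := Finset.equivOfCardEq h
  let π : Equiv.Perm W := e.extendSubtype
  have : A.map π.toEmbedding = B := by
    apply Finset.eq_of_subset_of_card_le
    · intro b hb
      rw [Finset.mem_map] at hb
      obtain ⟨a, ha, rfl⟩ := hb
      have := e.extendSubtype_mem a ha
      exact this
    · rw [Finset.card_map, h]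
  rw [← this, beta_map]

lemma avg_add' {Ω : Type} [Fintype Ω] (F G : Ω → ℝ) :
    avg (fun ω => F ω + G ω) = avg F + avg G := by
  unfold avg; rw [Finset.sum_add_distrib, add_div]

lemma avg_sum' {Ω ι : Type} [Fintype Ω] (s : Finset ι) (F : ι → Ω → ℝ) :
    avg (fun ω => ∑ i ∈ s, F i ω) = ∑ i ∈ s, avg (F i) := by
  unfold avg; rw [Finset.sum_comm, Finset.sum_div]

lemma beta_rec (B : Finset W) :
    ∑ c ∈ B, beta (B.erase c) + ∑ c ∈ Bᶜ, beta (insert c B) = 0 := by
  have h0 : avg (fun x : W → Bool => ibal x * chi B x * ssum x) = 0 := by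
    unfold avg
    rw [Finset.sum_eq_zero, zero_div]
    intro x _
    unfold ibal
    split
    · rename_i h; rw [mem_bal] at h; rw [h, mul_zero]
    · ring
  rw [← h0]
  have h1 : (fun x : W → Bool => ibal x * chi B x * ssum x) =
      fun x => ∑ c ∈ B, ibal x * chi (B.erase c) x + ∑ c ∈ Bᶜ, ibal x * chi (insert c B) x := by
    funext x
    unfold ssum
    rw [← Finset.sum_add_sum_compl B (fun w => sgn (x w)), mul_add, Finset.mul_sum, Finset.mul_sum]
    congr 1
    · apply Finset.sum_congr rfl
      intro c hc
      rw [chi_erase hc]; ring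
    · apply Finset.sum_congr rfl
      intro c hc
      rw [chi_insert (by simpa using hc)]; ring
  rw [h1, avg_add', avg_sum', avg_sum']
  rfl

/-- normalised coefficients -/
noncomputable def cc (N : ℕ) : ℕ → ℝ
  | 0 => 1
  | 1 => 0
  | (j + 2) => - (((j : ℝ) + 1) / ((N : ℝ) - j - 1)) * cc N j

lemma beta_eq (A : Finset W) : beta A = beta (∅ : Finset W) * cc (Fintype.card W) A.card := by
  classical
  -- strong induction on the cardinality
  suffices H : ∀ n : ℕ, ∀ A : Finset W, A.card = n → beta A = beta (∅ : Finset W) *
      cc (Fintype.card W) n from H _ A rfl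
  intro n
  induction n using Nat.strong_induction_on with
  | _ n ih =>
    intro A hA
    match n, ih, hA with
    | 0, _, hA =>
      rw [Finset.card_eq_zero] at hA
      subst hA; simp [cc]
    | 1, _, hA =>
      have h := beta_rec (∅ : Finset W)
      simp only [Finset.sum_empty, zero_add, Finset.compl_empty] at h
      have h2 : ∀ c ∈ (univ : Finset W), beta (insert c (∅ : Finset W)) = beta A := by
        intro c _
        apply beta_card
        rw [hA]; simp
      rw [Finset.sum_congr rfl h2, Finset.sum_const, nsmul_eq_mul] at h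
      have hpos : (0 : ℝ) < ((univ : Finset W).card : ℝ) := by
        have : 0 < (univ : Finset W).card := by
          have := Finset.card_le_univ A
          rw [hA] at this
          rw [Finset.card_univ]; omega
        exact_mod_cast this
      have : beta A = 0 := by
        rcases mul_eq_zero.mp h with h | h
        · linarith
        · exact h
      rw [this]; simp [cc]
    | (j + 2), ih, hA =>
      have hne : A.Nonempty := by rw [← Finset.card_pos, hA]; omega
      obtain ⟨a, ha⟩ := hne
      have hB : (A.erase a).card = j + 1 := by rw [Finset.card_erase_of_mem ha, hA]; rfl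
      have h := beta_rec (A.erase a)
      have h1 : ∀ c ∈ A.erase a, beta ((A.erase a).erase c) = beta (∅ : Finset W) *
          cc (Fintype.card W) j := by
        intro c hc
        apply ih j (by omega)
        rw [Finset.card_erase_of_mem hc, hB]; rfl
      have h2 : ∀ c ∈ (A.erase a)ᶜ, beta (insert c (A.erase a)) = beta A := by
        intro c hc
        apply beta_card
        rw [Finset.card_insert_of_notMem (Finset.mem_compl.mp hc), hB, hA]
      rw [Finset.sum_congr rfl h1, Finset.sum_congr rfl h2, Finset.sum_const, Finset.sum_const,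
        nsmul_eq_mul, nsmul_eq_mul, hB, Finset.card_compl, hB] at h
      have hle : j + 2 ≤ Fintype.card W := by rw [← hA]; exact Finset.card_le_univ A
      have hcast : ((Fintype.card W - (j + 1) : ℕ) : ℝ) = (Fintype.card W : ℝ) - j - 1 := by
        rw [Nat.cast_sub (by omega)]; push_cast; ring
      rw [hcast] at h
      have hpos : (0 : ℝ) < (Fintype.card W : ℝ) - j - 1 := by
        have : ((j + 2 : ℕ) : ℝ) ≤ (Fintype.card W : ℝ) := by exact_mod_cast hle
        push_cast at this; linarith
      simp only [cc]
      push_cast at h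
      field_simp
      linarith

end Cube

end Vale.Agent.P162
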