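import Mathlib
import Vale.Agent.P162.Defs
import Vale.Agent.P162.Basic

/-!
P162, task T2: the soft lemma.  A defect `ε < 1` depending only on the size of the space.
-/

namespace Vale.Agent.P162

section Scalar

lemma exp_sub_one_sub_le {x : ℝ} : Real.exp x - 1 - x ≤ x ^ 2 * max 1 (Real.exp x) := by
  rcases le_total 0 x with hx | hx
  · have h1 : Real.exp x - 1 ≤ x * Real.exp x := by
      have h := Real.add_one_le_exp (-x)
      have h2 : Real.exp (-x) * Real.exp x = 1 := by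
        rw [← Real.exp_add]; simp
      have h3 := mul_le_mul_of_nonneg_right h (Real.exp_pos x).le
      nlinarith [Real.exp_pos x]
    have h2 : x * (Real.exp x - 1) ≤ x * (x * Real.exp x) := mul_le_mul_of_nonneg_left h1 hx
    have h3 : x ^ 2 * Real.exp x ≤ x ^ 2 * max 1 (Real.exp x) :=
      mul_le_mul_of_nonneg_left (le_max_right _ _) (sq_nonneg x)
    nlinarith
  · have h1 : Real.exp x ≤ 1 + x + x ^ 2 / 2 := by
      have h := Real.quadratic_le_exp_of_nonneg (x := -x) (by linarith)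
      have h2 : Real.exp (-x) * Real.exp x = 1 := by
        rw [← Real.exp_add]; simp
      have h3 : 0 < 1 + x + x ^ 2 / 2 := by nlinarith [sq_nonneg (x + 1)]
      have h4 := mul_le_mul_of_nonneg_right h (Real.exp_pos x).le
      rw [h2] at h4
      have h5 : (1 + x + x ^ 2 / 2) * ((1 + -x + (-x) ^ 2 / 2)) = 1 + x ^ 4 / 4 := by ring
      have h6 : (1 + x + x ^ 2 / 2) * ((1 + -x + (-x) ^ 2 / 2) * Real.exp x) ≤
          (1 + x + x ^ 2 / 2) * 1 := mul_le_mul_of_nonneg_left h4 h3.le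
      have h7 : 0 ≤ x ^ 4 / 4 * Real.exp x := by positivity
      nlinarith [Real.exp_pos x]
    have h3 : x ^ 2 * 1 ≤ x ^ 2 * max 1 (Real.exp x) :=
      mul_le_mul_of_nonneg_left (le_max_left _ _) (sq_nonneg x)
    nlinarith [sq_nonneg x]

/-- `g (log g)^2 ≤ 4 n (g log g - g + 1)` for `0 < g ≤ n`, `1 ≤ n`. -/
lemma mul_log_sq_le {g n : ℝ} (hg : 0 < g) (hgn : g ≤ n) (hn : 1 ≤ n) :
    g * Real.log g ^ 2 ≤ 4 * n * (phi g - g + 1) := by
  obtain ⟨r, hr, rfl⟩ : ∃ r : ℝ, 0 < r ∧ r ^ 2 = g :=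
    ⟨Real.sqrt g, Real.sqrt_pos.2 hg, Real.sq_sqrt hg.le⟩
  have hlog : Real.log (r ^ 2) = 2 * Real.log r := by
    rw [Real.log_pow]; push_cast; ring
  have h1 : 1 - r⁻¹ ≤ Real.log r := Real.one_sub_inv_le_log_of_pos hr
  have h2 : Real.log r ≤ r - 1 := Real.log_le_sub_one_of_pos hr
  have h1' : r - 1 ≤ r * Real.log r := by
    have := mul_le_mul_of_nonneg_left h1 hr.le
    have h3 : r * (1 - r⁻¹) = r - 1 := by field_simp
    linarith
  have hv : (r - 1) ^ 2 ≤ phi (r ^ 2) - r ^ 2 + 1 := by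
    unfold phi
    rw [hlog]
    nlinarith [mul_le_mul_of_nonneg_left h1' hr.le]
  have hv0 : 0 ≤ phi (r ^ 2) - r ^ 2 + 1 := le_trans (sq_nonneg _) hv
  rw [hlog]
  rcases le_total r 1 with h | h
  · -- `r |log r| ≤ 1 - r`
    have hl : Real.log r ≤ 0 := Real.log_nonpos hr.le h
    have h3 : (r * Real.log r) ^ 2 ≤ (r - 1) ^ 2 := by
      have h4 : r * Real.log r ≤ 0 := mul_nonpos_of_nonneg_of_nonpos hr.le hl
      nlinarith
    have h5 : 1 * (phi (r ^ 2) - r ^ 2 + 1) ≤ n * (phi (r ^ 2) - r ^ 2 + 1) :=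
      mul_le_mul_of_nonneg_right hn hv0
    nlinarith
  · have hl : 0 ≤ Real.log r := Real.log_nonneg h
    have h3 : Real.log r ^ 2 ≤ (r - 1) ^ 2 := by nlinarith
    have h4 : r ^ 2 * Real.log r ^ 2 ≤ n * (phi (r ^ 2) - r ^ 2 + 1) := by
      apply mul_le_mul hgn (le_trans h3 hv) (sq_nonneg _) (by linarith)
    nlinarith

/-- The scalar inequality behind the quasi-triangle inequality. -/
lemma scalar_quasi {g n θ : ℝ} (hg : 0 ≤ g) (hgn : g ≤ n) (hn : 1 ≤ n) (hθ : 0 < θ)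
    (hθ1 : θ ≤ 1) :
    g * Real.exp (θ * Real.log g) - g ≤
      θ * (g - 1 + (1 + 4 * n ^ 2 * θ) * (phi g - g + 1)) := by
  rcases hg.lt_or_eq with hg | hg
  · have h1 := exp_sub_one_sub_le (x := θ * Real.log g)
    have hmax : max 1 (Real.exp (θ * Real.log g)) ≤ n := by
      apply max_le hn
      rcases le_total g 1 with h | h
      · have : θ * Real.log g ≤ 0 :=
          mul_nonpos_of_nonneg_of_nonpos hθ.le (Real.log_nonpos hg.le h)
        calc Real.exp (θ * Real.log g) ≤ Real.exp 0 := Real.exp_le_exp.2 this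
          _ = 1 := Real.exp_zero
          _ ≤ n := hn
      · have hl : 0 ≤ Real.log g := Real.log_nonneg h
        calc Real.exp (θ * Real.log g) ≤ Real.exp (Real.log g) := by
              apply Real.exp_le_exp.2
              nlinarith
          _ = g := Real.exp_log hg
          _ ≤ n := hgn
    have h2 : (θ * Real.log g) ^ 2 * max 1 (Real.exp (θ * Real.log g)) ≤
        (θ * Real.log g) ^ 2 * n := mul_le_mul_of_nonneg_left hmax (sq_nonneg _)
    have h3 : Real.exp (θ * Real.log g) - 1 - θ * Real.log g ≤ (θ * Real.log g) ^ 2 * n :=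
      le_trans h1 h2
    have h4 := mul_le_mul_of_nonneg_left h3 hg.le
    have h5 := mul_log_sq_le hg hgn hn
    have h6 : θ ^ 2 * n * (g * Real.log g ^ 2) ≤ θ ^ 2 * n * (4 * n * (phi g - g + 1)) := by
      apply mul_le_mul_of_nonneg_left h5
      positivity
    have h7 : phi g = g * Real.log g := rfl
    rw [h7] at h6 ⊢
    nlinarith
  · subst hg
    simp [phi]
    positivity

end Scalar

section Quasi

variable {Ω S T : Type} [Fintype Ω]

/-- Quasi-triangle inequality for relative entropies of densities. -/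
lemma quasi_triangle [Nonempty Ω] {p g : Ω → ℝ} (hp : ∀ ω, 0 ≤ p ω) (hg : ∀ ω, 0 ≤ g ω)
    (hp1 : avg p = 1) (hg1 : avg g = 1) (hpg : ∀ ω, g ω = 0 → p ω = 0) {θ : ℝ} (hθ : 0 < θ)
    (hθ1 : θ ≤ 1) :
    Phi p ≤ (1 + 1 / θ) * KL p g + (1 + 4 * (Fintype.card Ω : ℝ) ^ 2 * θ) * Phi g := by
  set n : ℝ := (Fintype.card Ω : ℝ) with hn
  have hn1 : 1 ≤ n := by
    have : 1 ≤ Fintype.card Ω := Fintype.card_pos
    rw [hn]
    exact_mod_cast this
  have hgn : ∀ ω, g ω ≤ n := by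
    intro ω
    have := le_card_mul_avg hg ω
    rw [hg1, mul_one] at this
    exact this
  -- `Phi p = KL + avg (p log g)`
  have hsplit : Phi p = KL p g + avg (fun ω => p ω * Real.log (g ω)) := by
    unfold Phi KL
    rw [← avg_add]
    apply avg_congr
    intro ω
    rcases (hp ω).lt_or_eq with h | h
    · have hgpos : g ω ≠ 0 := fun h0 => by
        have := hpg ω h0
        linarith
      rw [Real.log_div h.ne' hgpos]
      unfold phi
      ring
    · rw [← h]; simp [phi]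
  -- pointwise bound
  have pt : ∀ ω, θ * (p ω * Real.log (g ω)) ≤
      p ω * Real.log (p ω / g ω) - p ω +
        (g ω + θ * (g ω - 1 + (1 + 4 * n ^ 2 * θ) * (phi (g ω) - g ω + 1))) := by
    intro ω
    have hs := scalar_quasi (hg ω) (hgn ω) hn1 hθ hθ1
    rcases (hp ω).lt_or_eq with h | h
    · have hgpos : 0 < g ω := by
        rcases (hg ω).lt_or_eq with h' | h'
        · exact h'
        · have := hpg ω h'.symm
          linarith
      have hc : 0 < g ω * Real.exp (θ * Real.log (g ω)) := mul_pos hgpos (Real.exp_pos _)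
      have h1 := sub_le_mul_log_div (hp ω) hc
      have h2 : Real.log (p ω / (g ω * Real.exp (θ * Real.log (g ω)))) =
          Real.log (p ω / g ω) - θ * Real.log (g ω) := by
        rw [Real.log_div h.ne' hc.ne', Real.log_mul hgpos.ne' (Real.exp_pos _).ne',
          Real.log_exp, Real.log_div h.ne' hgpos.ne']
        ring
      rw [h2] at h1
      nlinarith
    · rw [← h]
      have h3 : 0 ≤ g ω * Real.exp (θ * Real.log (g ω)) :=
        mul_nonneg (hg ω) (Real.exp_pos _).le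
      simp only [zero_mul, mul_zero, sub_zero, zero_add, zero_div]
      linarith
  have h1 := avg_mono pt
  have h2 : avg (fun ω => p ω * Real.log (p ω / g ω) - p ω +
        (g ω + θ * (g ω - 1 + (1 + 4 * n ^ 2 * θ) * (phi (g ω) - g ω + 1)))) =
      KL p g + θ * (1 + 4 * n ^ 2 * θ) * Phi g := by
    have e : ∀ ω, p ω * Real.log (p ω / g ω) - p ω +
        (g ω + θ * (g ω - 1 + (1 + 4 * n ^ 2 * θ) * (phi (g ω) - g ω + 1))) =
        (p ω * Real.log (p ω / g ω)) + (((-1) * p ω) + ((1 + θ - θ * (1 + 4 * n ^ 2 * θ)) * g ω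
          + ((θ * (1 + 4 * n ^ 2 * θ)) * phi (g ω) + (θ * (1 + 4 * n ^ 2 * θ) - θ)))) := by
      intro ω
      ring
    rw [avg_congr e, avg_add, avg_add, avg_add, avg_add, avg_const_mul, avg_const_mul,
      avg_const_mul, avg_const, hp1, hg1]
    unfold KL Phi
    ring
  rw [h2, avg_const_mul] at h1
  have h3 : avg (fun ω => p ω * Real.log (g ω)) ≤
      (1 / θ) * KL p g + (1 + 4 * n ^ 2 * θ) * Phi g := by
    have h4 : (1 / θ) * (θ * avg (fun ω => p ω * Real.log (g ω))) ≤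
        (1 / θ) * (KL p g + θ * (1 + 4 * n ^ 2 * θ) * Phi g) :=
      mul_le_mul_of_nonneg_left h1 (by positivity)
    have h5 : (1 / θ) * (θ * avg (fun ω => p ω * Real.log (g ω))) =
        avg (fun ω => p ω * Real.log (g ω)) := by
      field_simp
    have h6 : (1 / θ) * (KL p g + θ * (1 + 4 * n ^ 2 * θ) * Phi g) =
        (1 / θ) * KL p g + (1 + 4 * n ^ 2 * θ) * Phi g := by
      field_simp
    linarith
  rw [hsplit]
  linarith

lemma cavg_sum {ι : Type} (I : Finset ι) (s : Ω → S) (c : ι → ℝ) (G : ι → Ω → ℝ) (ω : Ω) :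
    cavg s (fun ω => ∑ i ∈ I, c i * G i ω) ω = ∑ i ∈ I, c i * cavg s (G i) ω := by
  unfold cavg
  rw [Finset.sum_comm, Finset.sum_div]
  refine Finset.sum_congr rfl (fun i _ => ?_)
  rw [← Finset.mul_sum]
  ring

lemma cavg_ge [Nonempty Ω] (s : Ω → S) {G : Ω → ℝ} (hG : ∀ ω, 0 ≤ G ω) {ω ω₀ : Ω} {c : ℝ}
    (h : s ω₀ = s ω) (hc : c ≤ G ω₀) : c / (Fintype.card Ω : ℝ) ≤ cavg s G ω := by
  have hn : (0 : ℝ) < (Fintype.card Ω : ℝ) := by exact_mod_cast Fintype.card_pos
  have hf : (0 : ℝ) < ((fib s ω).card : ℝ) := by exact_mod_cast card_fib_pos s ω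
  have hle : ((fib s ω).card : ℝ) ≤ (Fintype.card Ω : ℝ) := by
    exact_mod_cast Finset.card_le_univ (fib s ω)
  have h1 : G ω₀ ≤ ∑ ω' ∈ fib s ω, G ω' :=
    Finset.single_le_sum (fun i _ => hG i) (mem_fib.2 h)
  unfold cavg
  rw [div_le_div_iff₀ hn hf]
  have h2 : 0 ≤ ∑ ω' ∈ fib s ω, G ω' := Finset.sum_nonneg (fun i _ => hG i)
  calc c * ((fib s ω).card : ℝ) ≤ (∑ ω' ∈ fib s ω, G ω') * ((fib s ω).card : ℝ) :=
        mul_le_mul_of_nonneg_right (le_trans hc h1) hf.le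
    _ ≤ (∑ ω' ∈ fib s ω, G ω') * (Fintype.card Ω : ℝ) := mul_le_mul_of_nonneg_left hle h2

open Classical in
/-- Minorisation: contraction of the entropy by `cavg s ∘ cavg t` on `s`-measurable densities. -/
lemma minor [Nonempty Ω] (s : Ω → S) (t : Ω → T)
    (hconn : ∀ ω ω' : Ω, ∃ ω₁ ω₂ : Ω, s ω₁ = s ω ∧ t ω₁ = t ω₂ ∧ s ω₂ = s ω')
    {f : Ω → ℝ} (hf : ∀ ω, 0 ≤ f ω) (hf1 : avg f = 1) (hfs : cavg s f = f) :
    Phi (cavg s (cavg t f)) ≤ (1 - 1 / (Fintype.card Ω : ℝ) ^ 2) * Phi f := by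
  set n : ℝ := (Fintype.card Ω : ℝ) with hn
  have hn0 : 0 < n := by
    rw [hn]; exact_mod_cast Fintype.card_pos
  -- the kernel
  let e : Ω → Ω → ℝ := fun ω' ω => if ω = ω' then 1 else 0
  let K : Ω → Ω → ℝ := fun ω ω' => cavg s (cavg t (cavg s (e ω'))) ω
  have he0 : ∀ ω' ω, 0 ≤ e ω' ω := by
    intro ω' ω
    simp only [e]
    split <;> norm_num
  have hKge : ∀ ω ω', 1 / n ^ 3 ≤ K ω ω' := by
    intro ω ω'
    obtain ⟨ω₁, ω₂, h1, h2, h3⟩ := hconn ω ω'
    have k1 : 1 / n ≤ cavg s (e ω') ω₂ :=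
      cavg_ge s (he0 ω') (ω₀ := ω') h3.symm (by simp [e])
    have k2 : 1 / n / n ≤ cavg t (cavg s (e ω')) ω₁ :=
      cavg_ge t (cavg_nonneg s (he0 ω')) (ω₀ := ω₂) h2.symm k1
    have k3 : 1 / n / n / n ≤ K ω ω' :=
      cavg_ge s (cavg_nonneg t (cavg_nonneg s (he0 ω'))) (ω₀ := ω₁) h1 k2
    have : 1 / n / n / n = 1 / n ^ 3 := by
      field_simp
    rwa [this] at k3
  -- action of the kernel
  have hexp : ∀ G : Ω → ℝ, G = fun ω => ∑ ω' ∈ Finset.univ, G ω' * e ω' ω := by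
    intro G
    funext ω
    simp [e]
  have hact : ∀ (G : Ω → ℝ) (ω : Ω), cavg s (cavg t (cavg s G)) ω = ∑ ω', G ω' * K ω ω' := by
    intro G ω
    have h1 : cavg s G = fun ω => ∑ ω' ∈ Finset.univ, G ω' * cavg s (e ω') ω := by
      funext x
      conv_lhs => rw [hexp G]
      rw [cavg_sum]
    have h2 : cavg t (cavg s G) = fun ω => ∑ ω' ∈ Finset.univ, G ω' * cavg t (cavg s (e ω')) ω := by
      funext x
      rw [h1, cavg_sum]
    rw [h2, cavg_sum]
  have hrow : ∀ ω, ∑ ω', K ω ω' = 1 := by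
    intro ω
    have h1 := hact (fun _ => 1) ω
    have h2 : cavg s (fun _ : Ω => (1 : ℝ)) = fun _ => 1 := funext (fun x => cavg_const s 1 x)
    have h3 : cavg t (fun _ : Ω => (1 : ℝ)) = fun _ => 1 := funext (fun x => cavg_const t 1 x)
    rw [h2, h3, h2] at h1
    simp only [one_mul] at h1
    exact h1.symm
  have hcol : ∀ ω', ∑ ω, K ω ω' = 1 := by
    intro ω'
    have h1 : avg (fun ω => K ω ω') = avg (e ω') := by
      change avg (cavg s (cavg t (cavg s (e ω')))) = _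
      rw [avg_cavg, avg_cavg, avg_cavg]
    have h2 := card_mul_avg (fun ω => K ω ω')
    rw [h1, card_mul_avg] at h2
    rw [← h2]
    simp [e]
  -- the action on `f`
  set w : Ω → ℝ := cavg s (cavg t f) with hw
  have hwK : ∀ ω, w ω = ∑ ω', f ω' * K ω ω' := by
    intro ω
    rw [hw, ← hact f ω, hfs]
  have hsumf : ∑ ω', f ω' = n := by
    have := card_mul_avg f
    rw [hf1, mul_one] at this
    exact this.symm
  have hwge : ∀ ω, 0 < w ω := by
    intro ω
    have h1 : ∑ ω', f ω' * (1 / n ^ 3) ≤ w ω := by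
      rw [hwK]
      exact Finset.sum_le_sum (fun ω' _ => mul_le_mul_of_nonneg_left (hKge ω ω') (hf ω'))
    rw [← Finset.sum_mul, hsumf] at h1
    have : 0 < n * (1 / n ^ 3) := by positivity
    linarith
  have pt : ∀ ω, phi (w ω) ≤ ∑ ω', (K ω ω' - 1 / n ^ 3) * phi (f ω') := by
    intro ω
    have hw0 := hwge ω
    have tan : ∀ y : ℝ, 0 ≤ y → phi (w ω) + (Real.log (w ω) + 1) * (y - w ω) ≤ phi y := by
      intro y hy
      rcases hy.lt_or_eq with hy | hy
      · have h1 := sub_le_mul_log_div hy.le hw0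
        rw [Real.log_div hy.ne' hw0.ne'] at h1
        unfold phi
        nlinarith
      · subst hy
        unfold phi
        simp
        nlinarith
    have h1 : ∑ ω', (K ω ω' - 1 / n ^ 3) *
        (phi (w ω) + (Real.log (w ω) + 1) * (f ω' - w ω)) ≤
        ∑ ω', (K ω ω' - 1 / n ^ 3) * phi (f ω') :=
      Finset.sum_le_sum (fun ω' _ => mul_le_mul_of_nonneg_left (tan _ (hf ω'))
        (by have := hKge ω ω'; linarith))
    have h2 : ∑ ω', (K ω ω' - 1 / n ^ 3) *
        (phi (w ω) + (Real.log (w ω) + 1) * (f ω' - w ω)) =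
        (1 - 1 / n ^ 2) * (phi (w ω) - (Real.log (w ω) + 1) * w ω) +
          (Real.log (w ω) + 1) * (w ω - 1 / n ^ 2) := by
      have e1 : ∀ ω', (K ω ω' - 1 / n ^ 3) *
          (phi (w ω) + (Real.log (w ω) + 1) * (f ω' - w ω)) =
          K ω ω' * (phi (w ω) - (Real.log (w ω) + 1) * w ω)
            - (1 / n ^ 3) * (phi (w ω) - (Real.log (w ω) + 1) * w ω)
            + ((Real.log (w ω) + 1) * (f ω' * K ω ω')
              - (Real.log (w ω) + 1) * (1 / n ^ 3) * f ω') := by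
        intro ω'
        ring
      simp only [e1]
      rw [Finset.sum_add_distrib, Finset.sum_sub_distrib, Finset.sum_sub_distrib,
        ← Finset.sum_mul, ← Finset.mul_sum, ← Finset.mul_sum, ← Finset.mul_sum, hrow, hsumf,
        ← hwK, Finset.sum_const, Finset.card_univ, nsmul_eq_mul]
      rw [← hn]
      field_simp
    have h3 := tan 1 zero_le_one
    rw [phi_one] at h3
    have h4 : 0 ≤ 1 / n ^ 2 := by positivity
    have h5 := mul_le_mul_of_nonneg_left h3 h4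
    rw [h2] at h1
    nlinarith
  have hfin : ∑ ω, phi (w ω) ≤ (1 - 1 / n ^ 2) * ∑ ω', phi (f ω') := by
    calc ∑ ω, phi (w ω) ≤ ∑ ω, ∑ ω', (K ω ω' - 1 / n ^ 3) * phi (f ω') :=
          Finset.sum_le_sum (fun ω _ => pt ω)
      _ = ∑ ω', ∑ ω, (K ω ω' - 1 / n ^ 3) * phi (f ω') := Finset.sum_comm
      _ = ∑ ω', (1 - 1 / n ^ 2) * phi (f ω') := by
          refine Finset.sum_congr rfl (fun ω' _ => ?_)
          rw [← Finset.sum_mul, Finset.sum_sub_distrib, hcol, Finset.sum_const,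
            Finset.card_univ, nsmul_eq_mul, ← hn]
          congr 1
          field_simp
      _ = (1 - 1 / n ^ 2) * ∑ ω', phi (f ω') := by rw [← Finset.mul_sum]
  unfold Phi avg
  rw [← mul_div_assoc, ← hn]
  exact div_le_div_of_nonneg_right hfin hn0.le

end Quasi

lemma final_arith {δ P R M D A B G : ℝ} (hδ0 : 0 < δ) (hy0 : 0 ≤ D - B)
    (r1 : A ≤ P * (D - B) + R * G) (r3 : R * G ≤ R * (P * (D - A) + R * ((1 - δ) * A)))
    (r5 : R * (R * (1 - δ)) * A ≤ (1 - δ / 2) * A) (r6 : P * (D - B) ≤ M * (D - B))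
    (r7 : R * (P * (D - A)) = M * (D - A)) :
    (δ / 2) * D ≤ (M + δ / 2) * ((D - A) + (D - B)) := by
  have e1 : R * (P * (D - A) + R * ((1 - δ) * A)) =
      R * (P * (D - A)) + R * (R * (1 - δ)) * A := by ring
  have s1 : A ≤ M * (D - B) + (M * (D - A) + (1 - δ / 2) * A) := by
    linarith
  have s2 : 0 ≤ (δ / 2) * (D - B) := mul_nonneg (by linarith) hy0
  have e2 : (M + δ / 2) * ((D - A) + (D - B)) - (δ / 2) * D =
      (M * (D - B) + (M * (D - A) + (1 - δ / 2) * A) - A) + (δ / 2) * (D - B) := by ring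
  linarith

lemma soft_core {Ω S T : Type} [Fintype Ω] [Nonempty Ω] (s : Ω → S) (t : Ω → T)
    (hconn : ∀ ω ω' : Ω, ∃ ω₁ ω₂ : Ω, s ω₁ = s ω ∧ t ω₁ = t ω₂ ∧ s ω₂ = s ω')
    {δ θ R M : ℝ} (hδ : δ = 1 / (Fintype.card Ω : ℝ) ^ 2)
    (hθ : θ = 1 / (32 * (Fintype.card Ω : ℝ) ^ 4))
    (hR : R = 1 + 4 * (Fintype.card Ω : ℝ) ^ 2 * θ) (hM : M = (1 + 1 / θ) * R)
    {F : Ω → ℝ} (hF : ∀ ω, 0 ≤ F ω) (hF1 : avg F = 1) :
    (δ / 2) * Phi F ≤ (M + δ / 2) * ((Phi F - Phi (cavg s F)) + (Phi F - Phi (cavg t F))) := by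
  set n : ℝ := (Fintype.card Ω : ℝ) with hn
  have hn1 : 1 ≤ n := by
    have : 1 ≤ Fintype.card Ω := Fintype.card_pos
    rw [hn]
    exact_mod_cast this
  have hn0 : 0 < n := by linarith
  have hδ0 : 0 < δ := by rw [hδ]; positivity
  have hδ1 : δ ≤ 1 := by
    rw [hδ, div_le_one (by positivity)]
    nlinarith
  have hθ0 : 0 < θ := by rw [hθ]; positivity
  have hθ1 : θ ≤ 1 := by
    rw [hθ, div_le_one (by positivity)]
    have : 1 ≤ n ^ 4 := one_le_pow₀ hn1
    linarith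
  have hRδ : R = 1 + δ / 8 := by
    rw [hR, hθ, hδ]
    field_simp
    ring
  have hR1 : 1 ≤ R := by rw [hRδ]; linarith
  set f := cavg s F with hf
  set h := cavg t F with hh
  have hf0 : ∀ ω, 0 ≤ f ω := cavg_nonneg s hF
  have hh0 : ∀ ω, 0 ≤ h ω := cavg_nonneg t hF
  have hf1 : avg f = 1 := by rw [hf, avg_cavg, hF1]
  have hh1 : avg h = 1 := by rw [hh, avg_cavg, hF1]
  have supp : ∀ {U : Type} (u : Ω → U) {A B : Ω → ℝ}, (∀ ω, 0 ≤ B ω) →
      (∀ ω, B ω = 0 → A ω = 0) → ∀ ω, cavg u B ω = 0 → cavg u A ω = 0 := by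
    intro U u A B hB hBA ω h0
    have h1 : ∀ ω' ∈ fib u ω, A ω' = 0 := by
      intro ω' hω'
      apply hBA
      apply cavg_eq_zero (s := u) hB
      rw [cavg_eq_of_eq B (mem_fib.1 hω')]
      exact h0
    unfold cavg
    rw [Finset.sum_eq_zero h1, zero_div]
  have hfF : ∀ ω, f ω = 0 → F ω = 0 := fun ω h0 => cavg_eq_zero hF h0
  have hhF : ∀ ω, h ω = 0 → F ω = 0 := fun ω h0 => cavg_eq_zero hF h0
  set g := cavg s h with hg
  set w := cavg s (cavg t f) with hw
  have hg0 : ∀ ω, 0 ≤ g ω := cavg_nonneg s hh0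
  have hg1 : avg g = 1 := by rw [hg, avg_cavg, hh1]
  have hw0 : ∀ ω, 0 ≤ w ω := cavg_nonneg s (cavg_nonneg t hf0)
  have hw1 : avg w = 1 := by rw [hw, avg_cavg, avg_cavg, hf1]
  have hKLy : KL f g ≤ Phi F - Phi h := by
    have h1 := kl_cavg_le' s hF hh0 hhF
    have h2 := kl_self_cavg t hF
    rw [← hh] at h2
    rw [h2] at h1
    exact h1
  have hthf : ∀ ω, cavg t f ω = 0 → h ω = 0 := supp t hf0 hfF
  have hKLx : KL g w ≤ Phi F - Phi f := by
    have h1 := kl_cavg_le' s hh0 (cavg_nonneg t hf0) hthf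
    have h2 := kl_cavg_le' t hF hf0 hfF
    have h3 := kl_self_cavg s hF
    rw [← hf] at h3
    rw [h3] at h2
    exact le_trans h1 h2
  have q1 := quasi_triangle hf0 hg0 hf1 hg1 (supp s hh0 hhF) hθ0 hθ1
  have q2 := quasi_triangle hg0 hw0 hg1 hw1 (supp s (cavg_nonneg t hf0) hthf) hθ0 hθ1
  have q3 := minor s t hconn hf0 hf1 (cavg_cavg_self s F)
  rw [← hn, ← hR] at q1 q2
  rw [← hn, ← hδ] at q3
  have hA0 : 0 ≤ Phi f := by
    have := phi_avg_le hf0
    rw [hf1, phi_one] at this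
    exact this
  have hx0 : 0 ≤ Phi F - Phi f := by
    have := Phi_cavg_le s hF
    linarith
  have hy0 : 0 ≤ Phi F - Phi h := by
    have := Phi_cavg_le t hF
    linarith
  have hθ' : 0 ≤ 1 + 1 / θ := by positivity
  have r1 : Phi f ≤ (1 + 1 / θ) * (Phi F - Phi h) + R * Phi g :=
    le_trans q1 (by
      have := mul_le_mul_of_nonneg_left hKLy hθ'
      linarith)
  have r2 : Phi g ≤ (1 + 1 / θ) * (Phi F - Phi f) + R * ((1 - δ) * Phi f) := by
    have h1 := mul_le_mul_of_nonneg_left hKLx hθ'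
    have h2 := mul_le_mul_of_nonneg_left q3 (by linarith : (0 : ℝ) ≤ R)
    linarith
  have r3 : R * Phi g ≤ R * ((1 + 1 / θ) * (Phi F - Phi f) + R * ((1 - δ) * Phi f)) :=
    mul_le_mul_of_nonneg_left r2 (by linarith)
  have r4 : R * (R * (1 - δ)) ≤ 1 - δ / 2 := by
    rw [hRδ]
    have h1 : δ ^ 2 ≤ δ := by nlinarith
    have h2 : 0 ≤ δ ^ 2 := sq_nonneg δ
    have h3 : 0 ≤ δ ^ 3 := by positivity
    nlinarith
  have r5 : R * (R * (1 - δ)) * Phi f ≤ (1 - δ / 2) * Phi f :=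
    mul_le_mul_of_nonneg_right r4 hA0
  have hMdef : M = (1 + 1 / θ) * R := hM
  have r6 : (1 + 1 / θ) * (Phi F - Phi h) ≤ M * (Phi F - Phi h) := by
    apply mul_le_mul_of_nonneg_right _ hy0
    rw [hMdef]
    nlinarith
  have r7 : R * ((1 + 1 / θ) * (Phi F - Phi f)) = M * (Phi F - Phi f) := by
    rw [hMdef]; ring
  exact final_arith hδ0 hy0 r1 r3 r5 r6 r7

theorem soft : S_SOFT := by
  intro n
  by_cases hn : n = 0
  · refine ⟨0, le_refl 0, zero_lt_one, ?_⟩
    intro Ω S T _ _ s t hcard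
    exfalso
    have : Fintype.card Ω ≠ 0 := Fintype.card_ne_zero
    omega
  have hn1 : (1 : ℝ) ≤ n := by
    exact_mod_cast Nat.one_le_iff_ne_zero.2 hn
  have hn0 : (0 : ℝ) < n := by linarith
  set δ : ℝ := 1 / (n : ℝ) ^ 2 with hδ
  set θ : ℝ := 1 / (32 * (n : ℝ) ^ 4) with hθ
  set R : ℝ := 1 + 4 * (n : ℝ) ^ 2 * θ with hR
  set M : ℝ := (1 + 1 / θ) * R with hM
  have hδ0 : 0 < δ := by rw [hδ]; positivity
  have hθ0 : 0 < θ := by rw [hθ]; positivity
  have hR0 : 0 < R := by rw [hR]; positivity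
  have hM0 : 0 < M := by rw [hM]; positivity
  refine ⟨1 - (δ / 2) / (M + δ / 2), ?_, ?_, ?_⟩
  · have : (δ / 2) / (M + δ / 2) ≤ 1 := by
      rw [div_le_one (by positivity)]
      linarith
    linarith
  · have : 0 < (δ / 2) / (M + δ / 2) := by positivity
    linarith
  · intro Ω S T _ _ s t hcard hconn F hF
    have hc : ((Fintype.card Ω : ℕ) : ℝ) = n := by exact_mod_cast hcard
    rcases (avg_nonneg hF).lt_or_eq with ha | ha
    · -- normalise
      set a := avg F with hadef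
      set F₁ : Ω → ℝ := fun ω => a⁻¹ * F ω with hF₁
      have hF₁0 : ∀ ω, 0 ≤ F₁ ω := fun ω => mul_nonneg (inv_nonneg.2 ha.le) (hF ω)
      have hF₁1 : avg F₁ = 1 := by
        rw [hF₁, avg_const_mul, ← hadef]
        field_simp
      have hFF : F = fun ω => a * F₁ ω := by
        funext ω
        simp only [hF₁]
        field_simp
      have key := soft_core s t hconn (δ := δ) (θ := θ) (R := R) (M := M)
        (by rw [hc]) (by rw [hc]) (by rw [hc]) rfl hF₁0 hF₁1
      have e0 : Phi F = a * Phi F₁ + phi a := by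
        conv_lhs => rw [hFF]
        rw [Phi_const_mul ha hF₁0, hF₁1, one_mul]
      have es : ∀ {U : Type} (u : Ω → U), Phi (cavg u F) = a * Phi (cavg u F₁) + phi a := by
        intro U u
        have h1 : cavg u F = fun ω => a * cavg u F₁ ω := by
          funext ω
          conv_lhs => rw [hFF]
          rw [cavg_const_mul]
        rw [h1, Phi_const_mul ha (cavg_nonneg u hF₁0), avg_cavg, hF₁1, one_mul]
      rw [e0, es s, es t]
      have hMδ : 0 < M + δ / 2 := by positivity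
      have k1 : (δ / 2) / (M + δ / 2) * Phi F₁ ≤
          (Phi F₁ - Phi (cavg s F₁)) + (Phi F₁ - Phi (cavg t F₁)) := by
        rw [div_mul_eq_mul_div, div_le_iff₀ hMδ]
        linarith
      have k2 := mul_le_mul_of_nonneg_left k1 ha.le
      nlinarith
    · have h0 : ∀ ω, F ω = 0 := (avg_eq_zero_iff hF).1 ha.symm
      have hF0 : F = fun _ => 0 := funext h0
      have h1 : Phi F = 0 := by
        rw [hF0]; unfold Phi
        simp [phi, avg]
      have h2 : Phi (cavg s F) ≤ 0 := by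
        rw [← h1]; exact Phi_cavg_le s hF
      have h3 : Phi (cavg t F) ≤ 0 := by
        rw [← h1]; exact Phi_cavg_le t hF
      rw [← ha, h1, phi_zero]
      linarith

end Vale.Agent.P162
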