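import Vale.Agent.P162.Large2

/-! The table inequality: choice of parameters, small tables, `S_TABLE`. -/

namespace Vale.Agent.P162.Tb

open Finset

set_option linter.unusedSectionVars false

lemma LP_mono {Ω S T : Type} [Fintype Ω] [Nonempty Ω] {s : Ω → S} {t : Ω → T} {ε ε' : ℝ}
    (h : LP s t ε) (hε : ε ≤ ε') : LP s t ε' := by
  intro F hF
  have h1 := h F hF
  have h2 := phi_avg_le hF
  nlinarith

/-- explicit defect -/
noncomputable def eX (r : ℕ) : ℝ := (4 * r + 281) * (1 / 2) ^ (r / 4)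

lemma eX_nonneg (r : ℕ) : 0 ≤ eX r := by unfold eX; positivity

lemma two_mul_le_two_pow (u : ℕ) : 2 * u ≤ 2 ^ u := by
  induction u with
  | zero => simp
  | succ u ih =>
    rcases Nat.eq_zero_or_pos u with rfl | hu
    · norm_num
    · rw [pow_succ]
      omega

lemma epsL_le (r : ℕ) (hr : 12 ≤ r) :
    epsL (2 ^ r) (2 ^ (r / 4 - 1)) (2 ^ (r / 4) - 1) ≤ eX r := by
  obtain ⟨u, hu⟩ : ∃ u, u = r / 4 := ⟨_, rfl⟩
  rw [← hu]
  have hu3 : 3 ≤ u := by omega
  have hru : 4 * u ≤ r := by omega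
  have hru' : r ≤ 4 * u + 3 := by omega
  obtain ⟨v, rfl⟩ : ∃ v, u = v + 1 := ⟨u - 1, by omega⟩
  simp only [Nat.add_sub_cancel]
  have hm : (2 : ℝ) * ((2 ^ v : ℕ) : ℝ) = 2 ^ (v + 1) := by push_cast; ring
  have h8 : (8 : ℝ) ≤ 2 ^ (v + 1) := by
    have : (2 : ℝ) ^ 3 ≤ 2 ^ (v + 1) := pow_le_pow_right₀ (by norm_num) hu3
    norm_num at this; exact this
  have hN : (4 : ℝ) * ((2 ^ r : ℕ) : ℝ) = 2 ^ (r + 2) := by push_cast; ring
  have hNn : ((4 * 2 ^ r : ℕ) : ℝ) = 2 ^ (r + 2) := by push_cast; ring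
  unfold epsL
  rw [hm, hN, hNn]
  set Z : ℝ := 2 ^ (v + 1) with hZ
  have hZ0 : 0 < Z := by linarith
  -- term 1
  have t1 : 2 * (Real.log (2 ^ (r + 2)) + 1) / (Z - 2) ≤ 4 * (r + 3) * (1 / Z) := by
    have hlog : Real.log (2 ^ (r + 2)) ≤ r + 2 := by
      rw [Real.log_pow]
      have : Real.log 2 ≤ 1 := by have := Real.log_two_lt_d9; linarith
      push_cast
      have h0 : (0 : ℝ) ≤ r := Nat.cast_nonneg r
      nlinarith
    rw [div_le_iff₀ (by linarith)]
    have h0 : (0 : ℝ) ≤ r := Nat.cast_nonneg r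
    have h2 : 1 / 2 ≤ 1 / Z * (Z - 2) := by
      rw [one_div_mul_eq_div, div_le_div_iff₀ (by norm_num) hZ0]; linarith
    calc 2 * (Real.log (2 ^ (r + 2)) + 1) ≤ 4 * (r + 3) * (1 / 2) := by linarith
      _ ≤ 4 * (r + 3) * (1 / Z * (Z - 2)) := mul_le_mul_of_nonneg_left h2 (by positivity)
      _ = _ := by ring
  -- term 2
  have t2 : 132 * ((Z - 1) ^ 2 / (2 ^ (r + 2) - 1)) * (2 ^ (r + 2) : ℝ) ^ (1 / ((2 ^ v : ℕ) : ℝ)) ≤
      264 * (1 / Z) := by
    have hX1 : (1 : ℝ) ≤ 2 ^ (r + 2) := one_le_pow₀ (by norm_num)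
    have hp : (2 ^ (r + 2) : ℝ) ^ (1 / ((2 ^ v : ℕ) : ℝ)) ≤ 2 * (2 * Z) := by
      have h4 : (4 : ℝ) ≤ ((2 ^ v : ℕ) : ℝ) := by linarith
      have e1 : (2 ^ (r + 2) : ℝ) ^ (1 / ((2 ^ v : ℕ) : ℝ)) ≤ (2 ^ (r + 2) : ℝ) ^ ((1 : ℝ) / 4) := by
        apply Real.rpow_le_rpow_of_exponent_le hX1
        rw [div_le_div_iff₀ (by positivity) (by norm_num)]; linarith
      have e2 : (2 ^ (r + 2) : ℝ) ≤ (2 * (2 * Z)) ^ (4 : ℕ) := by
        have : (2 * (2 * Z)) ^ (4 : ℕ) = 2 ^ (4 * (v + 3)) := by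
          rw [hZ]; ring
        rw [this]
        exact pow_le_pow_right₀ (by norm_num) (by omega)
      have e3 : (2 ^ (r + 2) : ℝ) ^ ((1 : ℝ) / 4) ≤ ((2 * (2 * Z)) ^ (4 : ℕ)) ^ ((1 : ℝ) / 4) :=
        Real.rpow_le_rpow (by positivity) e2 (by norm_num)
      have e4 : ((2 * (2 * Z)) ^ (4 : ℕ)) ^ ((1 : ℝ) / 4) = 2 * (2 * Z) := by
        rw [← Real.rpow_natCast, ← Real.rpow_mul (by positivity)]
        norm_num
      rw [e4] at e3
      linarith
    have hd : (2 : ℝ) ^ (r + 1) ≤ 2 ^ (r + 2) - 1 := by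
      have h1 : (1 : ℝ) ≤ 2 ^ (r + 1) := one_le_pow₀ (by norm_num)
      have : (2 : ℝ) ^ (r + 2) = 2 * 2 ^ (r + 1) := by ring
      linarith
    have hq : (Z - 1) ^ 2 / (2 ^ (r + 2) - 1) ≤ Z ^ 2 / 2 ^ (r + 1) := by
      apply div_le_div₀ (by positivity) _ (by positivity) hd
      nlinarith
    calc _ ≤ 132 * (Z ^ 2 / 2 ^ (r + 1)) * (2 * (2 * Z)) := by
          apply mul_le_mul (mul_le_mul_of_nonneg_left hq (by norm_num)) hp (by positivity)
            (by positivity)
      _ ≤ 264 * (1 / Z) := by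
          have e : 132 * (Z ^ 2 / 2 ^ (r + 1)) * (2 * (2 * Z)) = 264 * (2 * Z ^ 3 / 2 ^ (r + 1)) := by
            ring
          rw [e]
          apply mul_le_mul_of_nonneg_left _ (by norm_num)
          rw [div_le_div_iff₀ (by positivity) hZ0, one_mul]
          have : 2 * Z ^ 3 * Z = 2 ^ (4 * (v + 1) + 1) := by rw [hZ]; ring
          rw [this]
          exact pow_le_pow_right₀ (by norm_num) (by omega)
  -- term 3
  have t3 : (1 / (Z - 1)) ^ (2 * (2 ^ (v + 1) - 1)) * (32 + 4.5 * Real.exp (Z - 1)) *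
      2 ^ (r + 2) ≤ 5 * (1 / Z) := by
    obtain ⟨Q, hQ⟩ : ∃ Q : ℕ, 2 ^ (v + 1) = Q + 1 := ⟨2 ^ (v + 1) - 1, by
      have : 1 ≤ 2 ^ (v + 1) := Nat.one_le_two_pow
      omega⟩
    have hQ' : Z - 1 = (Q : ℝ) := by
      have : (Z : ℝ) = ((2 ^ (v + 1) : ℕ) : ℝ) := by rw [hZ]; push_cast; rfl
      rw [this, hQ]; push_cast; ring
    have hQ7 : (7 : ℝ) ≤ Q := by linarith
    rw [hQ, Nat.add_sub_cancel, hQ']
    have he : Real.exp (Q : ℝ) = Real.exp 1 ^ Q := by
      rw [← Real.exp_nat_mul]; simp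
    have he3 : Real.exp 1 ≤ 3 := by have := Real.exp_one_lt_d9; linarith
    have he2 : 2 ≤ Real.exp 1 := by have := Real.exp_one_gt_d9; linarith
    have h32 : 32 + 4.5 * Real.exp (Q : ℝ) ≤ 5 * Real.exp (Q : ℝ) := by
      have : (64 : ℝ) ≤ Real.exp (Q : ℝ) := by
        rw [he]
        have h7 : 7 ≤ Q := by exact_mod_cast hQ7
        calc (64 : ℝ) ≤ 2 ^ 7 := by norm_num
          _ ≤ 2 ^ Q := pow_le_pow_right₀ (by norm_num) h7
          _ ≤ Real.exp 1 ^ Q := pow_le_pow_left₀ (by norm_num) he2 Q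
      linarith
    have hs : (1 / (Q : ℝ)) ^ (2 * Q) * Real.exp (Q : ℝ) ≤ (1 / 2) ^ (4 * Q) := by
      rw [he, pow_mul, ← mul_pow, pow_mul]
      apply pow_le_pow_left₀ (by positivity)
      have hQ0 : (0 : ℝ) < Q := by linarith
      rw [div_pow, one_pow, one_div_mul_eq_div, div_le_iff₀ (by positivity)]
      nlinarith
    have hexp : 5 * (v + 1) + 5 ≤ 4 * Q := by
      have h1 := two_mul_le_two_pow (v + 1)
      have h2 : 2 ^ (v + 1) = 2 * 2 ^ v := by ring
      have h3 := two_mul_le_two_pow v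
      have h7 : 7 ≤ Q := by exact_mod_cast hQ7
      omega
    calc _ ≤ (1 / (Q : ℝ)) ^ (2 * Q) * (5 * Real.exp (Q : ℝ)) * 2 ^ (r + 2) := by
          apply mul_le_mul_of_nonneg_right _ (by positivity)
          exact mul_le_mul_of_nonneg_left h32 (by positivity)
      _ = 5 * ((1 / (Q : ℝ)) ^ (2 * Q) * Real.exp (Q : ℝ)) * 2 ^ (r + 2) := by ring
      _ ≤ 5 * ((1 / 2) ^ (4 * Q)) * 2 ^ (r + 2) := by
          apply mul_le_mul_of_nonneg_right _ (by positivity)
          exact mul_le_mul_of_nonneg_left hs (by norm_num)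
      _ ≤ 5 * (1 / Z) := by
          rw [mul_assoc]
          apply mul_le_mul_of_nonneg_left _ (by norm_num)
          rw [one_div_pow, one_div_mul_eq_div, div_le_div_iff₀ (by positivity) hZ0, one_mul]
          rw [hZ, ← pow_add]
          exact pow_le_pow_right₀ (by norm_num) (by omega)
  have hfin : eX r = 4 * (r + 3) * (1 / Z) + 264 * (1 / Z) + 5 * (1 / Z) := by
    unfold eX
    rw [← hu, one_div_pow, ← hZ]; ring
  rw [hfin]
  exact add_le_add (add_le_add t1 t2) t3

lemma hI_ok (r : ℕ) (hr : 12 ≤ r) (t : ℕ) (ht : t < 2 ^ (r / 4) - 1) :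
    (2 * (t : ℝ) + 1) * (2 * ((2 ^ (r / 4 - 1) : ℕ) : ℝ) - 1) ^ 2 ≤
      ((4 * 2 ^ r : ℕ) : ℝ) - 2 * t - 1 := by
  obtain ⟨v, hv⟩ : ∃ v, r / 4 = v + 1 := ⟨r / 4 - 1, by omega⟩
  rw [hv] at ht ⊢
  simp only [Nat.add_sub_cancel]
  have hm : (2 : ℝ) * ((2 ^ v : ℕ) : ℝ) = 2 ^ (v + 1) := by push_cast; ring
  rw [hm]
  have h1 : 2 * t + 1 ≤ 2 * 2 ^ (v + 1) := by omega
  have h1' : 2 * (t : ℝ) + 1 ≤ 2 * 2 ^ (v + 1) := by exact_mod_cast h1
  have hZ : (2 : ℝ) ≤ 2 ^ (v + 1) := by
    calc (2 : ℝ) = 2 ^ 1 := by norm_num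
      _ ≤ _ := pow_le_pow_right₀ (by norm_num) (by omega)
  have h2 : (2 : ℝ) * (2 ^ (v + 1)) ^ 3 ≤ ((4 * 2 ^ r : ℕ) : ℝ) := by
    have : (2 : ℝ) * (2 ^ (v + 1)) ^ 3 = 2 ^ (3 * (v + 1) + 1) := by ring
    rw [this]
    have e : ((4 * 2 ^ r : ℕ) : ℝ) = 2 ^ (r + 2) := by push_cast; ring
    rw [e]
    exact pow_le_pow_right₀ (by norm_num) (by omega)
  set Z : ℝ := 2 ^ (v + 1) with hZd
  have h3 : (2 * (t : ℝ) + 1) * ((Z - 1) ^ 2 + 1) ≤ 2 * Z * Z ^ 2 := by
    apply mul_le_mul h1' _ (by positivity) (by positivity)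
    nlinarith
  nlinarith

theorem large_eX (hyper : S_HYPER) (r : ℕ) (hr : 12 ≤ r) {W : Type} [Fintype W] [DecidableEq W]
    {row col : W → Bool} (h : Tab row col (2 ^ r)) :
    LP (Ω := Equiv.Perm W) (fun π => row ∘ π) (fun π => col ∘ π) (eX r) := by
  have h2 : 2 ≤ 2 ^ (r / 4 - 1) := by
    calc 2 = 2 ^ 1 := by norm_num
      _ ≤ _ := Nat.pow_le_pow_right (by norm_num) (by omega)
  exact LP_mono (large hyper (2 ^ (r / 4 - 1)) h2 (2 ^ (r / 4) - 1) h (by positivity)
    (fun t ht => hI_ok r hr t ht)) (epsL_le r hr)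

lemma summable_eX : Summable eX := by
  have h1 : Summable (fun r : ℕ => (r : ℝ) ^ 1 * (0.85 : ℝ) ^ r) :=
    summable_pow_mul_geometric_of_norm_lt_one 1 (by rw [Real.norm_eq_abs]; norm_num [abs_lt])
  have h2 : Summable (fun r : ℕ => (0.85 : ℝ) ^ r) :=
    summable_geometric_of_lt_one (by norm_num) (by norm_num)
  have h3 : Summable (fun r : ℕ => 8 * ((r : ℝ) ^ 1 * (0.85 : ℝ) ^ r) + 562 * (0.85 : ℝ) ^ r) :=
    (h1.mul_left 8).add (h2.mul_left 562)
  refine Summable.of_nonneg_of_le eX_nonneg (fun r => ?_) h3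
  have h4 : ((1 : ℝ) / 2) ^ (r / 4) ≤ 2 * (0.85 : ℝ) ^ r := by
    have e : r = 4 * (r / 4) + r % 4 := (Nat.div_add_mod r 4).symm
    have e2 : (0.85 : ℝ) ^ r = ((0.85 : ℝ) ^ 4) ^ (r / 4) * 0.85 ^ (r % 4) := by
      rw [← pow_mul, ← pow_add, ← e]
    have e3 : (1 / 2 : ℝ) ≤ 0.85 ^ (r % 4) := by
      calc (1 / 2 : ℝ) ≤ 0.85 ^ 3 := by norm_num
        _ ≤ 0.85 ^ (r % 4) := pow_le_pow_of_le_one (by norm_num) (by norm_num) (by omega)
    have e4 : ((1 : ℝ) / 2) ^ (r / 4) ≤ ((0.85 : ℝ) ^ 4) ^ (r / 4) :=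
      pow_le_pow_left₀ (by norm_num) (by norm_num) _
    rw [e2]
    have p1 : (0 : ℝ) < (1 / 2) ^ (r / 4) := by positivity
    calc ((1 : ℝ) / 2) ^ (r / 4) = 2 * (((1 : ℝ) / 2) ^ (r / 4) * (1 / 2)) := by ring
      _ ≤ 2 * (((0.85 : ℝ) ^ 4) ^ (r / 4) * 0.85 ^ (r % 4)) := by
        apply mul_le_mul_of_nonneg_left _ (by norm_num)
        exact mul_le_mul e4 e3 (by norm_num) (by positivity)
  unfold eX
  calc (4 * (r : ℝ) + 281) * (1 / 2) ^ (r / 4) ≤ (4 * (r : ℝ) + 281) * (2 * (0.85 : ℝ) ^ r) :=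
        mul_le_mul_of_nonneg_left h4 (by positivity)
    _ = _ := by ring

section Small

variable {W : Type} [Fintype W] [DecidableEq W]

lemma tab_of {σ τ : W → Bool} {b : ℕ} (hW : Fintype.card W = 4 * b) (hσ : σ ∈ bal W)
    (h1 : (univ.filter (fun w => τ w = true)).card = 2 * b)
    (h2 : (univ.filter (fun w => σ w = true ∧ τ w = true)).card = b) : Tab σ τ b := by
  have a1 := card_row σ τ true
  have a2 := card_row σ τ false
  have a3 := card_col σ τ true
  have a4 := card_four σ τ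
  have b1 := card_bool_fib true hσ
  intro x y
  cases x <;> cases y <;> omega

lemma exists_common {σ σ' : W → Bool} {b : ℕ} (hW : Fintype.card W = 4 * b) (hσ : σ ∈ bal W)
    (hσ' : σ' ∈ bal W) : ∃ τ : W → Bool, Tab σ τ b ∧ Tab σ' τ b := by
  have a1 := card_row σ σ' true
  have a2 := card_row σ σ' false
  have a3 := card_col σ σ' true
  have a5 := card_col σ σ' false
  have a4 := card_four σ σ'
  have b1 := card_bool_fib true hσ
  have b2 := card_bool_fib true hσ'
  have b3 := card_bool_fib false hσ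
  have b4 := card_bool_fib false hσ'
  obtain ⟨a, ha⟩ : ∃ a, a = (univ.filter (fun w => σ w = true ∧ σ' w = true)).card := ⟨_, rfl⟩
  obtain ⟨A11, s11, c11⟩ := Finset.exists_subset_card_eq
    (s := univ.filter (fun w => σ w = true ∧ σ' w = true)) (n := a / 2) (by omega)
  obtain ⟨A10, s10, c10⟩ := Finset.exists_subset_card_eq
    (s := univ.filter (fun w => σ w = true ∧ σ' w = false)) (n := b - a / 2) (by omega)
  obtain ⟨A01, s01, c01⟩ := Finset.exists_subset_card_eq
    (s := univ.filter (fun w => σ w = false ∧ σ' w = true)) (n := b - a / 2) (by omega)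
  obtain ⟨A00, s00, c00⟩ := Finset.exists_subset_card_eq
    (s := univ.filter (fun w => σ w = false ∧ σ' w = false)) (n := a / 2) (by omega)
  have m11 : ∀ w ∈ A11, σ w = true ∧ σ' w = true := fun w hw => by simpa using s11 hw
  have m10 : ∀ w ∈ A10, σ w = true ∧ σ' w = false := fun w hw => by simpa using s10 hw
  have m01 : ∀ w ∈ A01, σ w = false ∧ σ' w = true := fun w hw => by simpa using s01 hw
  have m00 : ∀ w ∈ A00, σ w = false ∧ σ' w = false := fun w hw => by simpa using s00 hw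
  have hab : a / 2 ≤ b := by omega
  have d1 : Disjoint A11 A10 := Finset.disjoint_left.mpr (fun w h1 h2 => by
    have := m11 w h1; have := m10 w h2; simp_all)
  have d2 : Disjoint A11 A01 := Finset.disjoint_left.mpr (fun w h1 h2 => by
    have := m11 w h1; have := m01 w h2; simp_all)
  have d3 : Disjoint A01 A00 := Finset.disjoint_left.mpr (fun w h1 h2 => by
    have := m01 w h1; have := m00 w h2; simp_all)
  have d4 : Disjoint (A11 ∪ A10) (A01 ∪ A00) := Finset.disjoint_left.mpr (fun w h1 h2 => by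
    rw [Finset.mem_union] at h1 h2
    have g1 : σ w = true := by
      rcases h1 with h | h
      · exact (m11 w h).1
      · exact (m10 w h).1
    have g2 : σ w = false := by
      rcases h2 with h | h
      · exact (m01 w h).1
      · exact (m00 w h).1
    rw [g1] at g2; exact absurd g2 (by decide))
  refine ⟨fun w => decide (w ∈ (A11 ∪ A10) ∪ (A01 ∪ A00)), ?_, ?_⟩
  · apply tab_of hW hσ
    · have : univ.filter (fun w => decide (w ∈ (A11 ∪ A10) ∪ (A01 ∪ A00)) = true) =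
          (A11 ∪ A10) ∪ (A01 ∪ A00) := by
        ext w; simp
      rw [this, Finset.card_union_of_disjoint d4, Finset.card_union_of_disjoint d1,
        Finset.card_union_of_disjoint d3]
      omega
    · have : univ.filter (fun w => σ w = true ∧
          decide (w ∈ (A11 ∪ A10) ∪ (A01 ∪ A00)) = true) = A11 ∪ A10 := by
        ext w
        simp only [mem_filter, mem_univ, true_and, decide_eq_true_eq]
        constructor
        · rintro ⟨h1, h2⟩
          rw [Finset.mem_union] at h2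
          rcases h2 with h | h
          · exact h
          · exfalso
            rw [Finset.mem_union] at h
            rcases h with h | h
            · rw [(m01 w h).1] at h1; exact absurd h1 (by decide)
            · rw [(m00 w h).1] at h1; exact absurd h1 (by decide)
        · intro h
          refine ⟨?_, Finset.mem_union_left _ h⟩
          rw [Finset.mem_union] at h
          rcases h with h | h
          · exact (m11 w h).1
          · exact (m10 w h).1
      rw [this, Finset.card_union_of_disjoint d1]; omega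
  · apply tab_of hW hσ'
    · have : univ.filter (fun w => decide (w ∈ (A11 ∪ A10) ∪ (A01 ∪ A00)) = true) =
          (A11 ∪ A10) ∪ (A01 ∪ A00) := by
        ext w; simp
      rw [this, Finset.card_union_of_disjoint d4, Finset.card_union_of_disjoint d1,
        Finset.card_union_of_disjoint d3]
      omega
    · have : univ.filter (fun w => σ' w = true ∧
          decide (w ∈ (A11 ∪ A10) ∪ (A01 ∪ A00)) = true) = A11 ∪ A01 := by
        ext w
        simp only [mem_filter, mem_univ, true_and, decide_eq_true_eq]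
        constructor
        · rintro ⟨h1, h2⟩
          rw [Finset.mem_union, Finset.mem_union, Finset.mem_union] at h2
          rw [Finset.mem_union]
          rcases h2 with (h | h) | (h | h)
          · exact Or.inl h
          · rw [(m10 w h).2] at h1; exact absurd h1 (by decide)
          · exact Or.inr h
          · rw [(m00 w h).2] at h1; exact absurd h1 (by decide)
        · intro h
          rw [Finset.mem_union] at h
          refine ⟨?_, ?_⟩
          · rcases h with h | h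
            · exact (m11 w h).2
            · exact (m01 w h).2
          · rw [Finset.mem_union, Finset.mem_union, Finset.mem_union]
            rcases h with h | h
            · exact Or.inl (Or.inl h)
            · exact Or.inr (Or.inl h)
      rw [this, Finset.card_union_of_disjoint d2]; omega

lemma comp_bal {row : W → Bool} (h : row ∈ bal W) (π : Equiv.Perm W) : row ∘ π ∈ bal W := by
  rw [mem_bal] at h ⊢
  rw [ssum_comp]; exact h

lemma exists_perm_pair {row col σ τ : W → Bool} {b : ℕ} (h : Tab row col b) (h' : Tab σ τ b) :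
    ∃ π : Equiv.Perm W, row ∘ π = σ ∧ col ∘ π = τ := by
  have h1 := (mem_orb_jl (x := σ) (y := τ) h).2 h'
  obtain ⟨π, hπ⟩ := (mem_orb _ _).1 h1
  refine ⟨π, ?_, ?_⟩
  · funext w
    have := congrFun hπ w
    simp only [jl, Function.comp, Prod.mk.injEq] at this
    exact this.1.symm
  · funext w
    have := congrFun hπ w
    simp only [jl, Function.comp, Prod.mk.injEq] at this
    exact this.2.symm

lemma connect {row col : W → Bool} {b : ℕ} (h : Tab row col b) (ω ω' : Equiv.Perm W) :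
    ∃ ω₁ ω₂ : Equiv.Perm W, row ∘ ω₁ = row ∘ ω ∧ col ∘ ω₁ = col ∘ ω₂ ∧ row ∘ ω₂ = row ∘ ω' := by
  obtain ⟨τ, h1, h2⟩ := exists_common (tab_card h) (comp_bal (tab_bal h).1 ω)
    (comp_bal (tab_bal h).1 ω')
  obtain ⟨ω₁, p1, p2⟩ := exists_perm_pair h h1
  obtain ⟨ω₂, p3, p4⟩ := exists_perm_pair h h2
  exact ⟨ω₁, ω₂, p1, by rw [p2, p4], p3⟩

end Small

end Vale.Agent.P162.Tb

namespace Vale.Agent.P162

open Tb

theorem table (hyper : S_HYPER) (soft : S_SOFT) : S_TABLE := by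
  classical
  choose σ hσ0 hσ1 hσ using fun r : ℕ => soft ((4 * 2 ^ r).factorial)
  refine ⟨fun r => if 12 ≤ r ∧ eX r < 1 then eX r else σ r, ?_, ?_, ?_, ?_⟩
  · -- summability
    have h0 : Filter.Tendsto eX Filter.atTop (nhds 0) := summable_eX.tendsto_atTop_zero
    have h1 : ∀ᶠ r in Filter.atTop, eX r < 1 := h0.eventually (gt_mem_nhds zero_lt_one)
    have h2 : ∀ᶠ r in (Filter.atTop : Filter ℕ), 12 ≤ r := Filter.eventually_ge_atTop 12
    have h3 : (fun r => if 12 ≤ r ∧ eX r < 1 then eX r else σ r) =ᶠ[Filter.atTop] eX := by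
      filter_upwards [h1, h2] with r a1 a2
      rw [if_pos ⟨a2, a1⟩]
    rw [← Nat.cofinite_eq_atTop] at h3
    exact (summable_congr_cofinite h3).mpr summable_eX
  · intro r
    show 0 ≤ (if 12 ≤ r ∧ eX r < 1 then eX r else σ r)
    split
    · exact eX_nonneg r
    · exact hσ0 r
  · intro r
    show (if 12 ≤ r ∧ eX r < 1 then eX r else σ r) < 1
    split
    · rename_i h; exact h.2
    · exact hσ1 r
  · intro r W _ _ row col h
    show LP (Ω := Equiv.Perm W) (fun π => row ∘ π) (fun π => col ∘ π)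
      (if 12 ≤ r ∧ eX r < 1 then eX r else σ r)
    split
    · rename_i hr; exact large_eX hyper r hr.1 h
    · apply hσ r
      · rw [Fintype.card_perm, tab_card h]
      · exact connect h

end Vale.Agent.P162
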