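import Mathlib
import Vale.Agent.P162.Defs
import Vale.Agent.P162.Basic

/-!
P162, task T1: tensorisation of the two-map entropy inequality.
-/

namespace Vale.Agent.P162

section Prod

variable {Ω₁ Ω₂ S₁ S₂ T₁ T₂ : Type} [Fintype Ω₁] [Fintype Ω₂]

lemma avg_prod (K : Ω₁ × Ω₂ → ℝ) : avg K = avg (fun b => avg (fun a => K (a, b))) := by
  unfold avg
  rw [Fintype.sum_prod_type_right, Fintype.card_prod, ← Finset.sum_div, div_div]
  push_cast
  ring

lemma fib_prod (u : Ω₁ → S₁) (v : Ω₂ → S₂) (p : Ω₁ × Ω₂) :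
    fib (fun p : Ω₁ × Ω₂ => (u p.1, v p.2)) p = fib u p.1 ×ˢ fib v p.2 := by
  ext q
  simp only [mem_fib, Finset.mem_product, Prod.mk.injEq]

lemma cavg_prod (u : Ω₁ → S₁) (v : Ω₂ → S₂) (K : Ω₁ × Ω₂ → ℝ) (p : Ω₁ × Ω₂) :
    cavg (fun p : Ω₁ × Ω₂ => (u p.1, v p.2)) K p =
      cavg u (fun a => cavg v (fun b => K (a, b)) p.2) p.1 := by
  unfold cavg
  rw [fib_prod, Finset.sum_product, Finset.card_product, ← Finset.sum_div, div_div]
  push_cast
  ring

lemma cavg_id (F : Ω₁ → ℝ) : cavg (fun a : Ω₁ => a) F = F :=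
  cavg_of_injective (fun _ _ h => h) F

lemma cavg_avg_comm (v : Ω₂ → S₂) (K : Ω₁ × Ω₂ → ℝ) (b : Ω₂) :
    avg (fun a => cavg v (fun b => K (a, b)) b) = cavg v (fun b => avg (fun a => K (a, b))) b := by
  unfold avg cavg
  rw [← Finset.sum_div, ← Finset.sum_div, Finset.sum_comm]
  ring

/-- Cross inequality: forgetting the first coordinate. -/
lemma cross_le (s₁ : Ω₁ → S₁) (s₂ : Ω₂ → S₂) {F : Ω₁ × Ω₂ → ℝ} (hF : ∀ p, 0 ≤ F p)
    [Nonempty Ω₁] :
    Phi (cavg (fun p : Ω₁ × Ω₂ => (s₁ p.1, s₂ p.2)) F)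
        - Phi (cavg (fun p : Ω₁ × Ω₂ => ((), s₂ p.2)) F) ≤
      Phi (cavg (fun p : Ω₁ × Ω₂ => (s₁ p.1, p.2)) F)
        - Phi (cavg (fun p : Ω₁ × Ω₂ => ((), p.2)) F) := by
  set a := cavg (fun p : Ω₁ × Ω₂ => (s₁ p.1, p.2)) F with ha
  set m := cavg (fun p : Ω₁ × Ω₂ => ((), p.2)) F with hm
  have ha0 : ∀ p, 0 ≤ a p := cavg_nonneg _ hF
  have hm0 : ∀ p, 0 ≤ m p := cavg_nonneg _ hF
  have hma : m = cavg (fun p : Ω₁ × Ω₂ => ((), p.2)) a := by
    rw [hm, ha, cavg_cavg_of_finer]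
    intro p q h
    simp only [Prod.mk.injEq] at h ⊢
    exact ⟨trivial, h.2⟩
  have h1 := kl_cavg_le' (fun p : Ω₁ × Ω₂ => (s₁ p.1, s₂ p.2)) ha0 hm0
    (fun p h => cavg_eq_zero ha0 (by rw [← hma]; exact h))
  have h2 : KL a m = Phi a - Phi m := by
    have := kl_self_cavg (fun p : Ω₁ × Ω₂ => ((), p.2)) ha0
    rw [← hma] at this
    exact this
  have h3 : cavg (fun p : Ω₁ × Ω₂ => (s₁ p.1, s₂ p.2)) a =
      cavg (fun p : Ω₁ × Ω₂ => (s₁ p.1, s₂ p.2)) F := by
    rw [ha, cavg_cavg_of_finer]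
    intro p q h
    simp only [Prod.mk.injEq] at h ⊢
    exact ⟨h.1, by rw [h.2]⟩
  have h4 : cavg (fun p : Ω₁ × Ω₂ => (s₁ p.1, s₂ p.2)) m =
      cavg (fun p : Ω₁ × Ω₂ => ((), s₂ p.2)) F := by
    have hmf : m = fun p : Ω₁ × Ω₂ => avg (fun a => F (a, p.2)) := by
      funext p
      rw [hm]
      have := cavg_prod (fun _ : Ω₁ => ()) (fun b : Ω₂ => b) F p
      rw [this, cavg_unit]
      apply avg_congr
      intro a
      rw [cavg_id]
    funext p
    rw [cavg_prod, cavg_prod (fun _ : Ω₁ => ()) s₂ F p, cavg_unit, hmf, cavg_avg_comm]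
    exact cavg_const s₁ (cavg s₂ (fun b => avg fun a => F (a, b)) p.2) p.1
  rw [h2, h3, h4] at h1
  have h5 : KL (cavg (fun p : Ω₁ × Ω₂ => (s₁ p.1, s₂ p.2)) F)
      (cavg (fun p : Ω₁ × Ω₂ => ((), s₂ p.2)) F) =
      Phi (cavg (fun p : Ω₁ × Ω₂ => (s₁ p.1, s₂ p.2)) F)
        - Phi (cavg (fun p : Ω₁ × Ω₂ => ((), s₂ p.2)) F) := by
    have h6 := kl_self_cavg (fun p : Ω₁ × Ω₂ => ((), s₂ p.2))
      (cavg_nonneg (fun p : Ω₁ × Ω₂ => (s₁ p.1, s₂ p.2)) hF)
    rw [cavg_cavg_of_finer] at h6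
    · exact h6
    · intro p q h
      simp only [Prod.mk.injEq] at h ⊢
      exact ⟨trivial, h.2⟩
  rw [h5] at h1
  exact h1

/-- Two factors. -/
lemma LP_prod [Nonempty Ω₁] [Nonempty Ω₂] {s₁ : Ω₁ → S₁} {t₁ : Ω₁ → T₁} {s₂ : Ω₂ → S₂}
    {t₂ : Ω₂ → T₂} {ε : ℝ} (h₁ : LP s₁ t₁ ε) (h₂ : LP s₂ t₂ ε) :
    LP (fun p : Ω₁ × Ω₂ => (s₁ p.1, s₂ p.2)) (fun p : Ω₁ × Ω₂ => (t₁ p.1, t₂ p.2)) ε := by
  intro F hF
  have hcs := cross_le s₁ s₂ hF
  have hct := cross_le t₁ t₂ hF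
  set G : Ω₂ → ℝ := fun b => avg (fun a => F (a, b)) with hG
  have hG0 : ∀ b, 0 ≤ G b := fun b => avg_nonneg (fun a => hF _)
  -- conditional expectation given the second coordinate
  have hm : cavg (fun p : Ω₁ × Ω₂ => ((), p.2)) F = fun p => G p.2 := by
    funext p
    have := cavg_prod (fun _ : Ω₁ => ()) (fun b : Ω₂ => b) F p
    rw [this, cavg_unit]
    apply avg_congr
    intro a
    rw [cavg_id]
  have hsnd : ∀ {S : Type} (v : Ω₂ → S),
      cavg (fun p : Ω₁ × Ω₂ => ((), v p.2)) F = fun p => cavg v G p.2 := by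
    intro S v
    funext p
    rw [cavg_prod (fun _ : Ω₁ => ()) v F p, cavg_unit, cavg_avg_comm]
  have hfst : ∀ {S : Type} (u : Ω₁ → S),
      cavg (fun p : Ω₁ × Ω₂ => (u p.1, p.2)) F = fun p => cavg u (fun a => F (a, p.2)) p.1 := by
    intro S u
    funext p
    have := cavg_prod u (fun b : Ω₂ => b) F p
    rw [this]
    congr 1
    funext a
    rw [cavg_id]
  have hPhisnd : ∀ K : Ω₂ → ℝ, Phi (fun p : Ω₁ × Ω₂ => K p.2) = Phi K := by
    intro K
    unfold Phi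
    rw [avg_prod]
    apply avg_congr
    intro b
    exact avg_const (Ω := Ω₁) (phi (K b))
  have hPhifst : ∀ K : Ω₁ × Ω₂ → ℝ, Phi K = avg (fun b => Phi (fun a => K (a, b))) := by
    intro K
    unfold Phi
    rw [avg_prod]
  -- first factor, averaged over the second coordinate
  have e1 : Phi (cavg (fun p : Ω₁ × Ω₂ => (s₁ p.1, p.2)) F) +
      Phi (cavg (fun p : Ω₁ × Ω₂ => (t₁ p.1, p.2)) F) ≤ (1 + ε) * Phi F + (1 - ε) * Phi G := by
    rw [hfst s₁, hfst t₁, hPhifst (fun p => cavg s₁ (fun a => F (a, p.2)) p.1),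
      hPhifst (fun p => cavg t₁ (fun a => F (a, p.2)) p.1), hPhifst F]
    have : Phi G = avg (fun b => phi (G b)) := rfl
    rw [this, ← avg_add, ← avg_const_mul, ← avg_const_mul, ← avg_add]
    apply avg_mono
    intro b
    exact h₁ (fun a => F (a, b)) (fun a => hF _)
  have e2 := h₂ G hG0
  have e3 : avg G = avg F := by
    rw [avg_prod F]
  rw [hm, hPhisnd G, hsnd s₂, hPhisnd (cavg s₂ G)] at hcs
  rw [hm, hPhisnd G, hsnd t₂, hPhisnd (cavg t₂ G)] at hct
  rw [e3] at e2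
  nlinarith [hcs, hct, e1, e2]

end Prod

lemma LP_of_subsingleton {Ω S T : Type} [Fintype Ω] [Subsingleton Ω] [Nonempty Ω]
    (s : Ω → S) (t : Ω → T) (ε : ℝ) : LP s t ε := by
  intro F _
  have hs : cavg s F = F := cavg_of_injective (fun a b _ => Subsingleton.elim a b) F
  have ht : cavg t F = F := cavg_of_injective (fun a b _ => Subsingleton.elim a b) F
  obtain ⟨ω₀⟩ := ‹Nonempty Ω›
  have hF : F = fun _ => F ω₀ := by
    funext ω
    rw [Subsingleton.elim ω ω₀]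
  have h1 : Phi F = phi (F ω₀) := by
    unfold Phi
    rw [hF]
    exact avg_const _
  have h2 : avg F = F ω₀ := by
    rw [hF]
    exact avg_const _
  rw [hs, ht, h1, h2]
  linarith

lemma LP_fin {Ω S T : Type} [Fintype Ω] [Nonempty Ω] {s : Ω → S} {t : Ω → T} {ε : ℝ}
    (h : LP s t ε) : ∀ n : ℕ,
      LP (Ω := Fin n → Ω) (fun ω i => s (ω i)) (fun ω i => t (ω i)) ε
  | 0 => LP_of_subsingleton _ _ _
  | n + 1 => by
    have ih := LP_fin h n
    have h2 := LP_equiv (Fin.consEquiv (fun _ : Fin (n + 1) => Ω)).symm (LP_prod h ih)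
    refine LP_congr_maps ?_ ?_ h2
    · intro ω ω'
      simp only [Fin.consEquiv_symm_apply, Prod.mk.injEq]
      constructor
      · rintro ⟨h0, h1⟩
        funext i
        refine Fin.cases h0 (fun j => ?_) i
        exact congrFun h1 j
      · intro h0
        exact ⟨congrFun h0 0, funext (fun j => congrFun h0 j.succ)⟩
    · intro ω ω'
      simp only [Fin.consEquiv_symm_apply, Prod.mk.injEq]
      constructor
      · rintro ⟨h0, h1⟩
        funext i
        refine Fin.cases h0 (fun j => ?_) i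
        exact congrFun h1 j
      · intro h0
        exact ⟨congrFun h0 0, funext (fun j => congrFun h0 j.succ)⟩

theorem tensor : S_TENSOR := by
  intro Ω S T _ _ s t ε h ι _ _
  have h1 := LP_fin h (Fintype.card ι)
  let e : (ι → Ω) ≃ (Fin (Fintype.card ι) → Ω) :=
    Equiv.arrowCongr (Fintype.equivFin ι) (Equiv.refl Ω)
  have h2 := LP_equiv e h1
  refine LP_congr_maps ?_ ?_ h2
  · intro ω ω'
    constructor
    · intro h0
      funext i
      have := congrFun h0 (Fintype.equivFin ι i)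
      simpa [e, Equiv.arrowCongr] using this
    · intro h0
      funext j
      have := congrFun h0 ((Fintype.equivFin ι).symm j)
      simpa [e, Equiv.arrowCongr] using this
  · intro ω ω'
    constructor
    · intro h0
      funext i
      have := congrFun h0 (Fintype.equivFin ι i)
      simpa [e, Equiv.arrowCongr] using this
    · intro h0
      funext j
      have := congrFun h0 ((Fintype.equivFin ι).symm j)
      simpa [e, Equiv.arrowCongr] using this

end Vale.Agent.P162
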