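import Mathlib
import Vale.Agent.P162.Defs

/-! T8, part 1: one Thorp shuffle. -/

namespace Vale.Agent.P162

open Finset

section

variable {m : ℕ}

lemma thorpFun_lt {b : Fin m → Bool} {p : Fin (2 * m)} (h : (p : ℕ) < m) :
    (thorpFun b p : ℕ) = 2 * (p : ℕ) + (if b ⟨p, h⟩ then 1 else 0) := by
  unfold thorpFun
  rw [dif_pos h]

lemma thorpFun_ge {b : Fin m → Bool} {p : Fin (2 * m)} (h : ¬ (p : ℕ) < m) :
    (thorpFun b p : ℕ) = 2 * ((p : ℕ) - m)
      + (if b ⟨(p : ℕ) - m, by have := p.isLt; omega⟩ then 0 else 1) := by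
  unfold thorpFun
  rw [dif_neg h]

lemma mod_of_ge {p m : ℕ} (h : ¬ p < m) (h2 : p < 2 * m) : p % m = p - m := by
  rw [Nat.mod_eq_sub_mod (by omega), Nat.mod_eq_of_lt (by omega)]

lemma thorpFun_div (b : Fin m → Bool) (p : Fin (2 * m)) :
    (thorpFun b p : ℕ) / 2 = (p : ℕ) % m := by
  by_cases h : (p : ℕ) < m
  · rw [thorpFun_lt h, Nat.mod_eq_of_lt h]
    split <;> omega
  · rw [thorpFun_ge h, mod_of_ge h p.isLt]
    split <;> omega

lemma thorpFun_injective (b : Fin m → Bool) : Function.Injective (thorpFun b) := by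
  intro p p' hpp
  have hv : (thorpFun b p : ℕ) = thorpFun b p' := by rw [hpp]
  have h1 := thorpFun_div b p
  have h2 := thorpFun_div b p'
  have hmod : (p : ℕ) % m = (p' : ℕ) % m := by rw [← h1, ← h2, hv]
  have hp := p.isLt
  have hp' := p'.isLt
  apply Fin.ext
  by_cases h : (p : ℕ) < m <;> by_cases h' : (p' : ℕ) < m
  · rwa [Nat.mod_eq_of_lt h, Nat.mod_eq_of_lt h'] at hmod
  · exfalso
    rw [Nat.mod_eq_of_lt h, mod_of_ge h' hp'] at hmod
    rw [thorpFun_lt h, thorpFun_ge h'] at hv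
    have e : (⟨(p' : ℕ) - m, by omega⟩ : Fin m) = ⟨p, h⟩ := Fin.ext hmod.symm
    rw [e] at hv
    split at hv <;> omega
  · exfalso
    rw [mod_of_ge h hp, Nat.mod_eq_of_lt h'] at hmod
    rw [thorpFun_ge h, thorpFun_lt h'] at hv
    have e : (⟨(p : ℕ) - m, by omega⟩ : Fin m) = ⟨p', h'⟩ := Fin.ext hmod
    rw [e] at hv
    split at hv <;> omega
  · rw [mod_of_ge h hp, mod_of_ge h' hp'] at hmod
    omega

/-- the permutation performed by a Thorp shuffle with given coins -/
noncomputable def thorpPerm (b : Fin m → Bool) : Equiv.Perm (Fin (2 * m)) :=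
  Equiv.ofBijective (thorpFun b)
    ((Fintype.bijective_iff_injective_and_card _).2 ⟨thorpFun_injective b, rfl⟩)

lemma thorpPerm_apply (b : Fin m → Bool) (p : Fin (2 * m)) : thorpPerm b p = thorpFun b p := rfl

/-- `g` is a possible result of one Thorp shuffle -/
def Good (g : Equiv.Perm (Fin (2 * m))) : Prop := ∀ p, (g p : ℕ) / 2 = (p : ℕ) % m

lemma thorpPerm_good (b : Fin m → Bool) : Good (thorpPerm b) := fun p => thorpFun_div b p

lemma thorpPerm_injective : Function.Injective (thorpPerm (m := m)) := by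
  intro b b' h
  funext i
  have hi : (i : ℕ) < m := i.isLt
  have h1 : (thorpFun b ⟨i, by omega⟩ : ℕ) = thorpFun b' ⟨i, by omega⟩ := by
    rw [← thorpPerm_apply, ← thorpPerm_apply, h]
  rw [thorpFun_lt (by exact hi), thorpFun_lt (by exact hi)] at h1
  simp only [Fin.eta] at h1
  cases hb : b i <;> cases hb' : b' i <;> simp_all

lemma exists_of_good {g : Equiv.Perm (Fin (2 * m))} (hg : Good g) : ∃ b, thorpPerm b = g := by
  refine ⟨fun i => decide ((g ⟨i, by have := i.isLt; omega⟩ : ℕ) % 2 = 1), ?_⟩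
  ext p
  rw [thorpPerm_apply]
  have hp := p.isLt
  have hgp := hg p
  by_cases h : (p : ℕ) < m
  · rw [thorpFun_lt h]
    rw [Nat.mod_eq_of_lt h] at hgp
    simp only [Fin.eta, decide_eq_true_eq]
    split_ifs <;> omega
  · rw [thorpFun_ge h]
    rw [mod_of_ge h hp] at hgp
    simp only [decide_eq_true_eq]
    set p' : Fin (2 * m) := ⟨(p : ℕ) - m, by omega⟩ with hp'
    have hlt : (p' : ℕ) < m := by rw [hp']; simp only; omega
    have hgp' := hg p'
    rw [Nat.mod_eq_of_lt hlt] at hgp'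
    have hne : (g p : ℕ) ≠ g p' := by
      intro e
      have : p = p' := g.injective (Fin.ext e)
      rw [this] at h
      exact h hlt
    have hval : (p' : ℕ) = (p : ℕ) - m := rfl
    split_ifs <;> omega

open Classical in
lemma thorpLaw_eq (g : Equiv.Perm (Fin (2 * m))) :
    thorpLaw m g = if Good g then 1 / (2 : ℝ) ^ m else 0 := by
  unfold thorpLaw
  split_ifs with hg
  · obtain ⟨b, hb⟩ := exists_of_good hg
    have : Fintype.card {b : Fin m → Bool // ∀ p, g p = thorpFun b p} = 1 := by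
      rw [Fintype.card_eq_one_iff]
      refine ⟨⟨b, fun p => by rw [← hb, thorpPerm_apply]⟩, ?_⟩
      rintro ⟨b', hb'⟩
      rw [Subtype.mk.injEq]
      apply thorpPerm_injective
      ext p
      rw [thorpPerm_apply, ← hb', hb]
    rw [this]
    simp
  · have : IsEmpty {b : Fin m → Bool // ∀ p, g p = thorpFun b p} := by
      constructor
      rintro ⟨b, hb⟩
      apply hg
      intro p
      rw [hb, thorpFun_div]
    rw [Fintype.card_eq_zero]
    simp

lemma thorpLaw_nonneg (g : Equiv.Perm (Fin (2 * m))) : 0 ≤ thorpLaw m g := by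
  classical
  rw [thorpLaw_eq]
  split_ifs <;> positivity

open Classical in
lemma card_good : (univ.filter (fun g : Equiv.Perm (Fin (2 * m)) => Good g)).card = 2 ^ m := by
  have h1 : (univ.filter (fun g : Equiv.Perm (Fin (2 * m)) => Good g))
      = univ.image (thorpPerm (m := m)) := by
    ext g
    simp only [mem_filter, mem_univ, true_and, mem_image]
    constructor
    · exact exists_of_good
    · rintro ⟨b, rfl⟩
      exact thorpPerm_good b
  rw [h1, card_image_of_injective _ thorpPerm_injective]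
  simp

lemma sum_thorpLaw : ∑ g : Equiv.Perm (Fin (2 * m)), thorpLaw m g = 1 := by
  classical
  rw [sum_congr rfl fun g _ => thorpLaw_eq g, ← sum_filter, sum_const, card_good]
  rw [nsmul_eq_mul]
  push_cast
  field_simp

lemma thorpPow_nonneg (t : ℕ) (g : Equiv.Perm (Fin (2 * m))) : 0 ≤ thorpPow m t g := by
  induction t generalizing g with
  | zero => unfold thorpPow; split_ifs <;> norm_num
  | succ t ih =>
    unfold thorpPow
    exact sum_nonneg fun h _ => mul_nonneg (thorpLaw_nonneg h) (ih _)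

lemma sum_thorpPow (t : ℕ) : ∑ g : Equiv.Perm (Fin (2 * m)), thorpPow m t g = 1 := by
  induction t with
  | zero =>
    simp only [thorpPow]
    rw [sum_ite_eq']
    simp
  | succ t ih =>
    simp only [thorpPow]
    rw [sum_comm]
    calc ∑ h : Equiv.Perm (Fin (2 * m)), ∑ g : Equiv.Perm (Fin (2 * m)),
          thorpLaw m h * thorpPow m t (h⁻¹ * g)
        = ∑ h : Equiv.Perm (Fin (2 * m)), thorpLaw m h * 1 := by
          refine sum_congr rfl fun h _ => ?_
          rw [← mul_sum, ← ih]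
          congr 1
          exact Equiv.sum_comp (Equiv.mulLeft h⁻¹) (fun g => thorpPow m t g)
      _ = 1 := by rw [← sum_mul, sum_thorpLaw, one_mul]

/-- total variation distance does not increase -/
lemma thorpTV_succ_le (t : ℕ) : thorpTV m (t + 1) ≤ thorpTV m t := by
  unfold thorpTV
  refine mul_le_mul_of_nonneg_left ?_ (by norm_num)
  set u : ℝ := 1 / ((2 * m).factorial : ℝ) with hu
  have h1 : ∀ g : Equiv.Perm (Fin (2 * m)), |thorpPow m (t + 1) g - u|
      ≤ ∑ h : Equiv.Perm (Fin (2 * m)), thorpLaw m h * |thorpPow m t (h⁻¹ * g) - u| := by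
    intro g
    have e : thorpPow m (t + 1) g - u
        = ∑ h : Equiv.Perm (Fin (2 * m)), thorpLaw m h * (thorpPow m t (h⁻¹ * g) - u) := by
      simp only [mul_sub, sum_sub_distrib]
      rw [← sum_mul, sum_thorpLaw, one_mul]
      simp only [thorpPow]
    rw [e]
    refine (abs_sum_le_sum_abs _ _).trans (le_of_eq ?_)
    refine sum_congr rfl fun h _ => ?_
    rw [abs_mul, abs_of_nonneg (thorpLaw_nonneg h)]
  refine (sum_le_sum fun g _ => h1 g).trans (le_of_eq ?_)
  rw [sum_comm]
  calc ∑ h : Equiv.Perm (Fin (2 * m)), ∑ g : Equiv.Perm (Fin (2 * m)),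
        thorpLaw m h * |thorpPow m t (h⁻¹ * g) - u|
      = ∑ h : Equiv.Perm (Fin (2 * m)), thorpLaw m h * ∑ g, |thorpPow m t g - u| := by
        refine sum_congr rfl fun h _ => ?_
        rw [← mul_sum]
        congr 1
        exact Equiv.sum_comp (Equiv.mulLeft h⁻¹) (fun g => |thorpPow m t g - u|)
    _ = ∑ g, |thorpPow m t g - u| := by rw [← sum_mul, sum_thorpLaw, one_mul]

lemma thorpTV_anti {s t : ℕ} (h : s ≤ t) : thorpTV m t ≤ thorpTV m s := by
  induction h with
  | refl => exact le_refl _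
  | step _ ih => exact (thorpTV_succ_le _).trans ih

end

/-! ### A Pinsker-type inequality -/

lemma phi_star_ge {x : ℝ} (hx : 0 ≤ x) : (Real.sqrt x - 1) ^ 2 ≤ x * Real.log x - x + 1 := by
  rcases eq_or_lt_of_le hx with h | h
  · rw [← h]; simp
  · set y := Real.sqrt x with hy
    have hy0 : 0 < y := Real.sqrt_pos.2 h
    have hxy : x = y ^ 2 := (Real.sq_sqrt hx).symm
    rw [hxy, Real.log_pow]
    have h1 : 1 - 1 / y ≤ Real.log y := by
      have := Real.one_sub_inv_le_log_of_pos hy0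
      rwa [one_div]
    have h2 : y ^ 2 * (1 - 1 / y) ≤ y ^ 2 * Real.log y :=
      mul_le_mul_of_nonneg_left h1 (by positivity)
    have h3 : y ^ 2 * (1 - 1 / y) = y ^ 2 - y := by field_simp
    push_cast
    nlinarith

lemma pinsker {Ω : Type} [Fintype Ω] [Nonempty Ω] (f : Ω → ℝ) (hf : ∀ ω, 0 ≤ f ω)
    (h1 : avg f = 1) : (1 / 2) * avg (fun ω => |f ω - 1|) ≤ Real.sqrt (Phi f) := by
  set N : ℝ := (Fintype.card Ω : ℝ) with hN
  have hNpos : 0 < N := by rw [hN]; exact_mod_cast Fintype.card_pos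
  have hsum : ∑ ω, f ω = N := by
    unfold avg at h1
    rw [← hN, div_eq_one_iff_eq hNpos.ne'] at h1
    exact h1
  have hcard : ∑ _ω : Ω, (1 : ℝ) = N := by simp [hN]
  -- Hellinger part
  set a : ℝ := ∑ ω, (Real.sqrt (f ω) - 1) ^ 2 with ha
  set b : ℝ := ∑ ω, (Real.sqrt (f ω) + 1) ^ 2 with hb
  have ha0 : 0 ≤ a := sum_nonneg fun _ _ => sq_nonneg _
  have haPhi : a ≤ N * Phi f := by
    have e : N * Phi f = ∑ ω, phi (f ω) := by
      unfold Phi avg; rw [← hN]; field_simp
    have e2 : ∑ ω, phi (f ω) = ∑ ω, (f ω * Real.log (f ω) - f ω + 1) := by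
      rw [sum_add_distrib, sum_sub_distrib, hsum, hcard]
      unfold phi; ring
    rw [e, e2]
    exact sum_le_sum fun ω _ => phi_star_ge (hf ω)
  have hb4 : b ≤ 4 * N := by
    calc b ≤ ∑ ω, (2 * f ω + 2) := by
          refine sum_le_sum fun ω _ => ?_
          have := Real.sq_sqrt (hf ω)
          nlinarith [sq_nonneg (Real.sqrt (f ω) - 1)]
      _ = 4 * N := by
          rw [sum_add_distrib, ← mul_sum, hsum]
          have : ∑ _ω : Ω, (2 : ℝ) = 2 * N := by simp [hN, mul_comm]
          rw [this]; ring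
  have hcs : (∑ ω, |f ω - 1|) ^ 2 ≤ a * b := by
    have := Finset.sum_mul_sq_le_sq_mul_sq (univ : Finset Ω) (fun ω => |Real.sqrt (f ω) - 1|)
      (fun ω => Real.sqrt (f ω) + 1)
    have e : ∀ ω, |Real.sqrt (f ω) - 1| * (Real.sqrt (f ω) + 1) = |f ω - 1| := by
      intro ω
      have h2 : 0 ≤ Real.sqrt (f ω) + 1 := by positivity
      rw [← abs_of_nonneg h2, ← abs_mul]
      congr 1
      have := Real.sq_sqrt (hf ω)
      nlinarith
    rw [sum_congr rfl fun ω _ => e ω] at this
    simp only [sq_abs] at this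
    exact this
  have hPhi0 : 0 ≤ Phi f := by
    have : 0 ≤ N * Phi f := ha0.trans haPhi
    exact (mul_nonneg_iff_of_pos_left hNpos).1 this
  have hle : (∑ ω, |f ω - 1|) ^ 2 ≤ (2 * N * Real.sqrt (Phi f)) ^ 2 := by
    rw [mul_pow, Real.sq_sqrt hPhi0]
    calc (∑ ω, |f ω - 1|) ^ 2 ≤ a * b := hcs
      _ ≤ (N * Phi f) * (4 * N) := mul_le_mul haPhi hb4
          (sum_nonneg fun _ _ => sq_nonneg _) (by positivity)
      _ = _ := by ring
  have hle2 : ∑ ω, |f ω - 1| ≤ 2 * N * Real.sqrt (Phi f) :=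
    le_of_sq_le_sq hle (by positivity)
  unfold avg
  rw [← hN, ← mul_div_assoc, div_le_iff₀ hNpos]
  linarith

end Vale.Agent.P162
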