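import Mathlib
import Vale.Agent.P162.Defs
import Vale.Agent.P162.Thorp1

/-! T8, part 2: the Thorp shuffle as a butterfly network. -/

namespace Vale.Agent.P162

open Finset

lemma perm_apply_inv {α : Type} (f : Equiv.Perm α) (x : α) : f (f⁻¹ x) = x :=
  f.apply_symm_apply x

/-- coordinates of a position: coordinate `j` is bit `n - j` -/
def crd (n : ℕ) (p : Fin (2 * 2 ^ n)) (j : Fin (n + 1)) : Bool := Nat.testBit (p : ℕ) (n - j)

lemma pos_lt {n : ℕ} (p : Fin (2 * 2 ^ n)) : (p : ℕ) < 2 ^ (n + 1) := by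
  have := p.isLt
  rw [pow_succ]; omega

lemma crd_injective (n : ℕ) : Function.Injective (crd n) := by
  intro p p' h
  apply Fin.ext
  apply Nat.eq_of_testBit_eq
  intro i
  rcases Nat.lt_or_ge i (n + 1) with hi | hi
  · have := congrFun h ⟨n - i, by omega⟩
    unfold crd at this
    simp only at this
    rwa [show n - (n - i) = i by omega] at this
  · rw [Nat.testBit_lt_two_pow (lt_of_lt_of_le (pos_lt p) (Nat.pow_le_pow_right (by norm_num) hi)),
      Nat.testBit_lt_two_pow (lt_of_lt_of_le (pos_lt p') (Nat.pow_le_pow_right (by norm_num) hi))]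

/-- positions as bit strings -/
noncomputable def crdEquiv (n : ℕ) : Fin (2 * 2 ^ n) ≃ (Fin (n + 1) → Bool) :=
  Equiv.ofBijective (crd n) ((Fintype.bijective_iff_injective_and_card _).2
    ⟨crd_injective n, by simp [pow_succ, mul_comm]⟩)

lemma crdEquiv_apply (n : ℕ) (p : Fin (2 * 2 ^ n)) : crdEquiv n p = crd n p := rfl

lemma good_iff (n : ℕ) (g : Equiv.Perm (Fin (2 * 2 ^ n))) :
    Good g ↔ ∀ p, ∀ k : Fin (n + 1), k ≠ 0 → crd n p k = crd n (g p) (k - 1) := by
  unfold Good
  refine forall_congr' fun p => ?_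
  constructor
  · intro h k hk
    have hk' : (k : ℕ) ≠ 0 := fun e => hk (Fin.ext e)
    have hk1 := Fin.val_sub_one_of_ne_zero hk
    have hkn := k.isLt
    unfold crd
    rw [hk1]
    have h1 : Nat.testBit ((g p : ℕ) / 2) (n - k) = Nat.testBit ((p : ℕ) % 2 ^ n) (n - k) := by
      rw [h]
    rw [Nat.testBit_div_two, Nat.testBit_mod_two_pow] at h1
    have h2 : n - (k : ℕ) < n := by omega
    rw [decide_eq_true h2, Bool.true_and] at h1
    rw [← h1]
    congr 1
    omega
  · intro h
    apply Nat.eq_of_testBit_eq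
    intro i
    rw [Nat.testBit_div_two, Nat.testBit_mod_two_pow]
    rcases Nat.lt_or_ge i n with hi | hi
    · have hk : (⟨n - i, by omega⟩ : Fin (n + 1)) ≠ 0 := by
        intro e
        have := congrArg Fin.val e
        simp only [Fin.val_zero] at this
        omega
      have h1 := h ⟨n - i, by omega⟩ hk
      have hk1 := Fin.val_sub_one_of_ne_zero hk
      unfold crd at h1
      rw [hk1] at h1
      simp only at h1
      rw [decide_eq_true hi, Bool.true_and]
      rw [show n - (n - i) = i by omega, show n - (n - i - 1) = i + 1 by omega] at h1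
      exact h1.symm
    · have h2 : (g p : ℕ) < 2 ^ (i + 1) :=
        lt_of_lt_of_le (pos_lt (g p)) (Nat.pow_le_pow_right (by norm_num) (by omega))
      rw [Nat.testBit_lt_two_pow h2, decide_eq_false (by omega), Bool.false_and]

/-- the residue of `t` -/
def tf (n t : ℕ) : Fin (n + 1) := ⟨t % (n + 1), Nat.mod_lt _ (Nat.succ_pos n)⟩

lemma tf_succ (n t : ℕ) : tf n (t + 1) = tf n t + 1 := by
  apply Fin.ext
  unfold tf
  rw [Fin.val_add]
  simp only [Fin.val_one']
  rw [← Nat.add_mod]

/-- rotation of the coordinates -/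
def rotV (n : ℕ) (a : Fin (n + 1)) : Equiv.Perm (Fin (n + 1) → Bool) where
  toFun x i := x (i + a)
  invFun x i := x (i - a)
  left_inv x := by funext i; simp
  right_inv x := by funext i; simp

lemma rotV_apply (n : ℕ) (a : Fin (n + 1)) (x : Fin (n + 1) → Bool) (i : Fin (n + 1)) :
    rotV n a x i = x (i + a) := rfl

/-- The density of the deck after `t` Thorp shuffles, in rotating coordinates. -/
noncomputable def dens (n t : ℕ) (Y : Equiv.Perm (Fin (n + 1) → Bool)) : ℝ :=
  ((2 * 2 ^ n).factorial : ℝ) *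
    thorpPow (2 ^ n) t ((crdEquiv n).symm.permCongr (rotV n (tf n t) * Y))

lemma lab_eq_iff {d : ℕ} (I : Finset (Fin d)) (X Y : Equiv.Perm (Fin d → Bool)) :
    lab I X = lab I Y ↔ ∀ c, ∀ i ∈ I, X c i = Y c i := by
  constructor
  · intro h c i hi
    have := congrFun (congrFun h c) i
    unfold lab at this
    rwa [if_pos hi, if_pos hi] at this
  · intro h
    funext c i
    unfold lab
    split_ifs with hi
    · exact h c i hi
    · rfl

/-- reindexing between shuffles `h` and previous states `Y'` -/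
noncomputable def reidx (n t : ℕ) (Y : Equiv.Perm (Fin (n + 1) → Bool)) :
    Equiv.Perm (Fin (2 * 2 ^ n)) ≃ Equiv.Perm (Fin (n + 1) → Bool) :=
  (Equiv.inv _).trans <|
    (Equiv.mulRight ((crdEquiv n).symm.permCongr (rotV n (tf n (t + 1)) * Y))).trans <|
      (crdEquiv n).symm.permCongr.symm.trans (Equiv.mulLeft (rotV n (tf n t))⁻¹)

lemma reidx_spec (n t : ℕ) (Y : Equiv.Perm (Fin (n + 1) → Bool))
    (h : Equiv.Perm (Fin (2 * 2 ^ n))) :
    (crdEquiv n).symm.permCongr (rotV n (tf n t) * reidx n t Y h)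
      = h⁻¹ * (crdEquiv n).symm.permCongr (rotV n (tf n (t + 1)) * Y) := by
  unfold reidx
  simp only [Equiv.trans_apply, Equiv.coe_mulLeft, Equiv.coe_mulRight, Equiv.inv_apply]
  rw [mul_inv_cancel_left, Equiv.apply_symm_apply]

lemma good_iff_fib (n t : ℕ) (Y : Equiv.Perm (Fin (n + 1) → Bool))
    (h : Equiv.Perm (Fin (2 * 2 ^ n))) :
    Good h ↔ lab (univ.erase (tf n t)) (reidx n t Y h)
      = lab (univ.erase (tf n t)) Y := by
  rw [good_iff, lab_eq_iff]
  set Y' := reidx n t Y h with hY'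
  have spec := reidx_spec n t Y h
  rw [← hY'] at spec
  -- h sends the position with rotated coordinates of Y' c to that of Y c
  have key : ∀ c, h ((crdEquiv n).symm (rotV n (tf n t) (Y' c)))
      = (crdEquiv n).symm (rotV n (tf n (t + 1)) (Y c)) := by
    intro c
    have h1 := congrArg (fun σ : Equiv.Perm (Fin (2 * 2 ^ n)) => h (σ ((crdEquiv n).symm c))) spec
    simp only [Equiv.permCongr_apply, Equiv.symm_symm, Equiv.apply_symm_apply,
      Equiv.Perm.mul_apply, perm_apply_inv] at h1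
    exact h1
  constructor
  · intro hg c i hi
    have hi' : i ≠ (tf n t) := (mem_erase.1 hi).1
    have hk : i - (tf n t) ≠ 0 := fun e => hi' (sub_eq_zero.1 e)
    have h1 := hg ((crdEquiv n).symm (rotV n (tf n t) (Y' c))) _ hk
    rw [key c, ← crdEquiv_apply, ← crdEquiv_apply, Equiv.apply_symm_apply,
      Equiv.apply_symm_apply, rotV_apply, rotV_apply] at h1
    rw [sub_add_cancel] at h1
    rw [h1, tf_succ, sub_sub, sub_add_cancel]
  · intro hf p k hk
    obtain ⟨c, hc⟩ : ∃ c, p = (crdEquiv n).symm (rotV n (tf n t) (Y' c)) := by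
      refine ⟨Y'⁻¹ ((rotV n (tf n t))⁻¹ (crdEquiv n p)), ?_⟩
      rw [perm_apply_inv, perm_apply_inv, Equiv.symm_apply_apply]
    rw [hc, key c, ← crdEquiv_apply, ← crdEquiv_apply, Equiv.apply_symm_apply,
      Equiv.apply_symm_apply, rotV_apply, rotV_apply]
    have hi : k + (tf n t) ∈ univ.erase (tf n t) := by
      rw [mem_erase]
      refine ⟨fun e => hk ?_, mem_univ _⟩
      have := congrArg (fun z => z - (tf n t)) e
      simpa using this
    have e : k - 1 + (tf n t + 1) = k + tf n t := by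
      rw [add_comm (tf n t) 1, ← add_assoc, sub_add_cancel]
    rw [hf c _ hi, tf_succ, e]

lemma dens_succ (n t : ℕ) (Y : Equiv.Perm (Fin (n + 1) → Bool)) :
    dens n (t + 1) Y = cavg (lab (univ.erase (tf n t))) (dens n t) Y := by
  classical
  have hfib : fib (lab (univ.erase (tf n t))) Y
      = (univ.filter (fun g : Equiv.Perm (Fin (2 * 2 ^ n)) => Good g)).image (reidx n t Y) := by
    ext Z
    unfold fib
    simp only [mem_filter, mem_univ, true_and, mem_image]
    constructor
    · intro h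
      refine ⟨(reidx n t Y).symm Z, ?_, Equiv.apply_symm_apply _ _⟩
      rw [good_iff_fib n t Y, Equiv.apply_symm_apply]
      exact h
    · rintro ⟨h, hg, rfl⟩
      exact (good_iff_fib n t Y h).1 hg
  unfold cavg
  rw [hfib, card_image_of_injective _ (reidx n t Y).injective, card_good,
    sum_image (fun _ _ _ _ e => (reidx n t Y).injective e)]
  have e1 : ∀ h, dens n t (reidx n t Y h) = ((2 * 2 ^ n).factorial : ℝ) *
      thorpPow (2 ^ n) t (h⁻¹ *
        (crdEquiv n).symm.permCongr (rotV n (tf n (t + 1)) * Y)) := by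
    intro h
    unfold dens
    rw [reidx_spec]
  rw [sum_congr rfl fun h _ => e1 h]
  unfold dens
  simp only [thorpPow]
  rw [sum_congr rfl fun h _ => by rw [thorpLaw_eq h, ite_mul, zero_mul], ← sum_filter,
    ← mul_sum, ← mul_sum]
  push_cast
  ring

lemma dens_nonneg (n t : ℕ) (Y : Equiv.Perm (Fin (n + 1) → Bool)) : 0 ≤ dens n t Y :=
  mul_nonneg (Nat.cast_nonneg _) (thorpPow_nonneg _ _)

lemma card_permV (n : ℕ) :
    Fintype.card (Equiv.Perm (Fin (n + 1) → Bool)) = (2 * 2 ^ n).factorial := by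
  rw [Fintype.card_perm]
  congr 1
  simp [pow_succ, mul_comm]

lemma card_permF (n : ℕ) :
    Fintype.card (Equiv.Perm (Fin (2 * 2 ^ n))) = (2 * 2 ^ n).factorial := by
  rw [Fintype.card_perm, Fintype.card_fin]

/-- averages of functions of the density -/
lemma avg_dens (n t : ℕ) (u : ℝ → ℝ) :
    avg (fun Y => u (dens n t Y)) = (∑ g : Equiv.Perm (Fin (2 * 2 ^ n)),
      u (((2 * 2 ^ n).factorial : ℝ) * thorpPow (2 ^ n) t g)) / ((2 * 2 ^ n).factorial : ℝ) := by
  unfold avg
  rw [card_permV]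
  congr 1
  exact Equiv.sum_comp ((Equiv.mulLeft (rotV n (tf n t))).trans
    (crdEquiv n).symm.permCongr)
    (fun g => u (((2 * 2 ^ n).factorial : ℝ) * thorpPow (2 ^ n) t g))

lemma fact_pos (n : ℕ) : (0 : ℝ) < ((2 * 2 ^ n).factorial : ℝ) := by
  exact_mod_cast Nat.factorial_pos _

lemma avg_dens_one (n t : ℕ) : avg (dens n t) = 1 := by
  have := avg_dens n t (fun x => x)
  rw [this, ← mul_sum, sum_thorpPow, mul_one, div_self (fact_pos n).ne']

lemma Phi_dens_zero (n : ℕ) : Phi (dens n 0) = Real.log ((2 * 2 ^ n).factorial : ℝ) := by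
  unfold Phi
  rw [avg_dens]
  have h1 : ∀ g : Equiv.Perm (Fin (2 * 2 ^ n)),
      phi (((2 * 2 ^ n).factorial : ℝ) * thorpPow (2 ^ n) 0 g)
        = if g = 1 then phi ((2 * 2 ^ n).factorial : ℝ) else 0 := by
    intro g
    simp only [thorpPow]
    split_ifs
    · rw [mul_one]
    · rw [mul_zero]; simp [phi]
  rw [sum_congr rfl fun g _ => h1 g, sum_ite_eq']
  simp only [mem_univ, if_true]
  unfold phi
  have := (fact_pos n).ne'
  field_simp

lemma tv_le (n t : ℕ) : thorpTV (2 ^ n) t ≤ Real.sqrt (Phi (dens n t)) := by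
  have h1 := pinsker (dens n t) (dens_nonneg n t) (avg_dens_one n t)
  have h2 := avg_dens n t (fun x => |x - 1|)
  refine le_trans (le_of_eq ?_) h1
  rw [h2]
  unfold thorpTV
  congr 1
  rw [sum_div]
  refine sum_congr rfl fun g _ => ?_
  have hp := fact_pos n
  rw [eq_div_iff hp.ne', mul_comm, ← abs_of_pos hp, ← abs_mul, abs_of_pos hp]
  congr 1
  field_simp

lemma law_dens (n k : ℕ) : ∀ j, j ≤ n + 1 →
    law (dens n (k * (n + 1))) j = dens n (k * (n + 1) + j) := by
  intro j
  induction j with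
  | zero => intro _; rfl
  | succ j ih =>
    intro hj
    have hj' : j < n + 1 := by omega
    unfold law
    rw [dif_pos hj', ih (by omega)]
    funext Y
    rw [← Nat.add_assoc, dens_succ]
    have : tf n (k * (n + 1) + j) = ⟨j, hj'⟩ := by
      apply Fin.ext
      unfold tf
      simp only
      rw [Nat.mul_comm, Nat.mul_add_mod, Nat.mod_eq_of_lt hj']
    rw [this]

theorem thorp : S_BUTTERFLY → S_GOAL := by
  rintro ⟨C, hC, hB⟩
  set θ : ℝ := C / (1 + C) with hθ
  have hθ0 : 0 ≤ θ := by positivity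
  have hθ1 : θ < 1 := by rw [hθ, div_lt_one (by linarith)]; linarith
  obtain ⟨K, hK⟩ := exists_pow_lt_of_lt_one (show (0 : ℝ) < 1 / 64 by norm_num) hθ1
  -- main estimate
  have main : ∀ n : ℕ, thorpTV (2 ^ n) (K * (n + 1) * (n + 1)) ≤ 1 / 4 := by
    intro n
    have step : ∀ k, Phi (dens n ((k + 1) * (n + 1))) ≤ θ * Phi (dens n (k * (n + 1))) := by
      intro k
      have h1 := hB (n + 1) (dens n (k * (n + 1))) (dens_nonneg n _)
      rw [law_dens n k (n + 1) le_rfl, avg_dens_one] at h1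
      have h2 : phi 1 = 0 := by simp [phi]
      rw [h2] at h1
      have e : (k + 1) * (n + 1) = k * (n + 1) + (n + 1) := by ring
      rw [e, hθ, div_mul_eq_mul_div, le_div_iff₀ (by linarith)]
      linarith
    have hk : ∀ k, Phi (dens n (k * (n + 1))) ≤ θ ^ k * Real.log ((2 * 2 ^ n).factorial : ℝ) := by
      intro k
      induction k with
      | zero => rw [zero_mul, Phi_dens_zero]; simp
      | succ k ih =>
        refine (step k).trans ?_
        rw [pow_succ, mul_comm (θ ^ k), mul_assoc]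
        exact mul_le_mul_of_nonneg_left ih hθ0
    have hlog : Real.log ((2 * 2 ^ n).factorial : ℝ) ≤ (n + 1 : ℝ) * 2 ^ (n + 1) := by
      have h1 : ((2 * 2 ^ n).factorial : ℝ) ≤ ((2 : ℝ) ^ (n + 1)) ^ (2 ^ (n + 1)) := by
        have := Nat.factorial_le_pow (2 * 2 ^ n)
        have e : 2 * 2 ^ n = 2 ^ (n + 1) := by ring
        rw [e] at this ⊢
        exact_mod_cast this
      have h2 := Real.log_le_log (fact_pos n) h1
      rw [Real.log_pow, Real.log_pow] at h2
      refine h2.trans ?_
      have h3 : Real.log 2 ≤ 1 := by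
        have := Real.log_two_lt_d9; linarith
      push_cast
      have h4 : (0 : ℝ) ≤ 2 ^ (n + 1) * (n + 1) := by positivity
      nlinarith
    have hθK : θ ^ (K * (n + 1)) ≤ (1 / 64) ^ (n + 1) := by
      rw [pow_mul]
      exact pow_le_pow_left₀ (pow_nonneg hθ0 _) hK.le _
    have hPhi : Phi (dens n (K * (n + 1) * (n + 1))) ≤ (1 / 4) ^ 2 := by
      refine (hk _).trans ?_
      have hlog0 : 0 ≤ Real.log ((2 * 2 ^ n).factorial : ℝ) :=
        Real.log_nonneg (by exact_mod_cast Nat.factorial_pos _)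
      have h5 : ((n : ℝ) + 1) ≤ 2 ^ n := by
        exact_mod_cast Nat.lt_two_pow_self
      calc θ ^ (K * (n + 1)) * Real.log ((2 * 2 ^ n).factorial : ℝ)
          ≤ (1 / 64) ^ (n + 1) * ((n + 1 : ℝ) * 2 ^ (n + 1)) :=
            mul_le_mul hθK hlog hlog0 (by positivity)
        _ ≤ (1 / 64) ^ (n + 1) * (2 ^ n * 2 ^ (n + 1)) := by
            refine mul_le_mul_of_nonneg_left ?_ (by positivity)
            exact mul_le_mul_of_nonneg_right h5 (by positivity)
        _ = (1 / 16) ^ n * (1 / 32) := by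
            rw [pow_succ, pow_succ]
            have : (1 / 16 : ℝ) ^ n = (1 / 64) ^ n * (2 ^ n * 2 ^ n) := by
              rw [← mul_pow, ← mul_pow]; norm_num
            rw [this]; ring
        _ ≤ 1 * (1 / 32) :=
            mul_le_mul_of_nonneg_right (pow_le_one₀ (by norm_num) (by norm_num)) (by norm_num)
        _ ≤ (1 / 4) ^ 2 := by norm_num
    refine (tv_le n _).trans ?_
    rw [Real.sqrt_le_left (by norm_num)]
    exact hPhi
  refine ⟨K, ?_⟩
  intro d hd
  obtain ⟨n, rfl⟩ : ∃ n, d = n + 1 := ⟨d - 1, by omega⟩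
  rw [Nat.add_sub_cancel]
  constructor
  · intro t ht
    have h1 : K * (n + 1) * (n + 1) ≤ t := by
      have : ((K * (n + 1) * (n + 1) : ℕ) : ℝ) ≤ t := by
        push_cast at ht ⊢
        calc (K : ℝ) * (n + 1) * (n + 1) = K * (n + 1) ^ 2 := by ring
          _ ≤ t := ht
      exact_mod_cast this
    exact (thorpTV_anti h1).trans (main n)
  · have h1 : tmix (2 ^ n) ≤ K * (n + 1) * (n + 1) := Nat.sInf_le (main n)
    calc (tmix (2 ^ n) : ℝ) ≤ ((K * (n + 1) * (n + 1) : ℕ) : ℝ) := by exact_mod_cast h1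
      _ = K * ((n + 1 : ℕ) : ℝ) ^ 2 := by push_cast; ring

end Vale.Agent.P162
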