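import Mathlib
import Vale.Agent.P162.Defs

/-! T4: the triangular system. -/

namespace Vale.Agent.P162

open Finset

theorem triangle : S_TRIANGLE := by
  intro d ε hε0 hε1 H hmono hinv hupd hloc
  -- `A k j` = all labels except `k, …, k+j`
  obtain ⟨A, hA⟩ : ∃ A : ℕ → ℕ → Finset ℕ, ∀ k j, A k j = range d \ Icc k (k + j) :=
    ⟨_, fun _ _ => rfl⟩
  have hAsub : ∀ k j, A k j ⊆ range d := fun k j => by rw [hA]; exact sdiff_subset
  have hAmem : ∀ k j a, a ∈ A k j ↔ (a < d ∧ ¬ (k ≤ a ∧ a ≤ k + j)) := by
    intro k j a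
    rw [hA, mem_sdiff, mem_range, mem_Icc]
  have hins1 : ∀ k r, k + r + 1 < d → insert (k + r + 1) (A k (r + 1)) = A k r := by
    intro k r h
    ext a
    rw [mem_insert, hAmem, hAmem]
    omega
  have hins2 : ∀ k r, k + r + 1 < d → insert k (A k (r + 1)) = A (k + 1) r := by
    intro k r h
    ext a
    rw [mem_insert, hAmem, hAmem]
    omega
  have hins3 : ∀ k r, k + r + 1 < d →
      insert k (A k r) = insert (k + r + 1) (A (k + 1) r) := by
    intro k r h
    ext a
    rw [mem_insert, mem_insert, hAmem, hAmem]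
    omega
  have hins0 : ∀ k, k < d → insert k (A k 0) = range d := by
    intro k h
    ext a
    rw [mem_insert, hAmem, mem_range]
    omega
  have hA0 : ∀ k, k < d → A k 0 = (range d).erase k := by
    intro k h
    ext a
    rw [mem_erase, hAmem, mem_range]
    omega
  obtain ⟨x, hx⟩ : ∃ x : ℕ → ℕ → ℝ, ∀ k j, x k j =
      if j = 0 then 0 else H (k + j) (insert k (A k j)) - H (k + j) (A k j) :=
    ⟨_, fun _ _ => rfl⟩
  obtain ⟨y, hy⟩ : ∃ y : ℕ → ℕ → ℝ, ∀ k j, y k j =
      H (k + j) (insert (k + j) (A k j)) - H (k + j) (A k j) := ⟨_, fun _ _ => rfl⟩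
  obtain ⟨e, he⟩ : ∃ e : ℕ → ℕ → ℝ, ∀ k r, e k r = x k (r + 1) - x k r := ⟨_, fun _ _ => rfl⟩
  have hx0 : ∀ k, x k 0 = 0 := fun k => by rw [hx]; simp
  have hxpos : ∀ k j, k + j < d → 0 ≤ x k j := by
    intro k j h
    rw [hx]
    split_ifs with h0
    · exact le_refl _
    · have hk : insert k (A k j) ⊆ range d := by
        intro a ha
        rw [mem_insert, hAmem] at ha
        rw [mem_range]; omega
      have := hmono (k + j) (A k j) (insert k (A k j)) (subset_insert _ _) hk
      linarith
  have hypos : ∀ k j, k + j < d → 0 ≤ y k j := by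
    intro k j h
    rw [hy]
    have hk : insert (k + j) (A k j) ⊆ range d := by
      intro a ha
      rw [mem_insert, hAmem] at ha
      rw [mem_range]; omega
    have := hmono (k + j) (A k j) (insert (k + j) (A k j)) (subset_insert _ _) hk
    linarith
  -- the joint increment
  obtain ⟨J, hJ⟩ : ∃ J : ℕ → ℕ → ℝ, ∀ k r, J k r =
      H (k + r + 1) (insert k (insert (k + r + 1) (A k (r + 1)))) - H (k + r + 1) (A k (r + 1)) :=
    ⟨_, fun _ _ => rfl⟩
  have hJ1 : ∀ k r, k + r + 1 < d → J k r = y k (r + 1) + x k r := by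
    intro k r h
    rw [hJ, hy, hins1 k r h, show k + (r + 1) = k + r + 1 by ring, hins1 k r h]
    rcases Nat.eq_zero_or_pos r with hr | hr
    · subst hr
      rw [hx0, add_zero]
      have h1 := hupd k (by omega)
      have h2 := hinv k ((range d).erase k) (by omega) (erase_subset _ _) (notMem_erase _ _)
      rw [hins0 k (by omega), hA0 k (by omega)]
      simp only [add_zero] at *
      rw [h1, h2]
    · rw [hx, if_neg (by omega)]
      have h3 : k + r ∉ insert k (A k r) := by
        rw [mem_insert, hAmem]; omega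
      have h4 : insert k (A k r) ⊆ range d := by
        intro a ha
        rw [mem_insert, hAmem] at ha
        rw [mem_range]; omega
      have h5 : k + r ∉ A k r := by rw [hAmem]; omega
      have h1 := hinv (k + r) (insert k (A k r)) (by omega) h4 h3
      have h2 := hinv (k + r) (A k r) (by omega) (hAsub _ _) h5
      rw [h1, h2]
      ring
  have hJ2 : ∀ k r, k + r + 1 < d → J k r = x k (r + 1) + y (k + 1) r := by
    intro k r h
    rw [hJ, hy, hins1 k r h, hx, if_neg (by omega), show k + (r + 1) = k + r + 1 by ring,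
      hins2 k r h, show k + 1 + r = k + r + 1 by ring, hins3 k r h]
    ring
  -- recursion for `y`
  have hyrec : ∀ k r, k + r + 1 < d → y k (r + 1) = y (k + 1) r + e k r := by
    intro k r h
    have h1 := hJ1 k r h
    have h2 := hJ2 k r h
    rw [he]
    linarith
  have hlocal : ∀ k r, k + r + 1 < d → e k r ≤ (ε r / (1 - ε r)) * (x k r + y (k + 1) r) := by
    intro k r h
    have hkn : k ∉ A k (r + 1) := by rw [hAmem]; omega
    have hin : k + r + 1 ∉ A k (r + 1) := by rw [hAmem]; omega
    have h1 := hloc (k + r + 1) k (k + r + 1) (A k (r + 1)) (by omega) (by omega) h (by omega)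
      (hAsub _ _) hkn hin
    have hcard : (A k (r + 1)).card = d - (r + 2) := by
      rw [hA, card_sdiff_of_subset, card_range, Nat.card_Icc]
      · omega
      · intro a ha
        rw [mem_Icc] at ha
        rw [mem_range]; omega
    have hr : d - 2 - (A k (r + 1)).card = r := by rw [hcard]; omega
    rw [hr] at h1
    have hpos : 0 < 1 - ε r := by linarith [hε1 r]
    have hJe := hJ k r
    have hxe := hx k (r + 1)
    rw [if_neg (by omega), show k + (r + 1) = k + r + 1 by ring] at hxe
    have hye := hy k (r + 1)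
    rw [show k + (r + 1) = k + r + 1 by ring] at hye
    have h2 : x k (r + 1) + y k (r + 1) ≤ (1 + ε r) * J k r := by
      rw [hxe, hye, hJe]
      nlinarith
    have h3 := hJ1 k r h
    have h4 := hJ2 k r h
    have h5 := he k r
    rw [div_mul_eq_mul_div, le_div_iff₀ hpos]
    nlinarith
  -- sums over the diagonals
  obtain ⟨Xs, hXs⟩ : ∃ Xs : ℕ → ℝ, ∀ r, Xs r = ∑ k ∈ range (d - r), x k r := ⟨_, fun _ => rfl⟩
  obtain ⟨Ys, hYs⟩ : ∃ Ys : ℕ → ℝ, ∀ r, Ys r = ∑ k ∈ range (d - r), y k r := ⟨_, fun _ => rfl⟩
  obtain ⟨Es, hEs⟩ : ∃ Es : ℕ → ℝ, ∀ r, Es r = ∑ k ∈ range (d - (r + 1)), e k r :=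
    ⟨_, fun _ => rfl⟩
  have hXs0 : ∀ r, 0 ≤ Xs r := fun r => by
    rw [hXs]
    exact sum_nonneg fun k hk => hxpos k r (by rw [mem_range] at hk; omega)
  have hYs0 : ∀ r, 0 ≤ Ys r := fun r => by
    rw [hYs]
    exact sum_nonneg fun k hk => hypos k r (by rw [mem_range] at hk; omega)
  have hx_le : ∀ r, ∑ k ∈ range (d - (r + 1)), x k r ≤ Xs r := by
    intro r
    rw [hXs]
    refine sum_le_sum_of_subset_of_nonneg (range_subset_range.2 (by omega)) ?_
    intro k hk _
    exact hxpos k r (by rw [mem_range] at hk; omega)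
  have hy_le : ∀ r, ∑ k ∈ range (d - (r + 1)), y (k + 1) r ≤ Ys r := by
    intro r
    rw [hYs]
    rcases Nat.lt_or_ge r d with h | h
    · have : d - r = (d - (r + 1)) + 1 := by omega
      rw [this, sum_range_succ']
      have := hypos 0 r (by omega)
      linarith
    · have h1 : d - (r + 1) = 0 := by omega
      have h2 : d - r = 0 := by omega
      rw [h1, h2]
      simp
  have hXrec : ∀ r, Xs (r + 1) ≤ Xs r + Es r := by
    intro r
    have : Xs (r + 1) = ∑ k ∈ range (d - (r + 1)), x k r + Es r := by
      rw [hXs, hEs, ← sum_add_distrib]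
      exact sum_congr rfl fun k _ => by rw [he]; ring
    linarith [hx_le r]
  have hYrec : ∀ r, Ys (r + 1) ≤ Ys r + Es r := by
    intro r
    have : Ys (r + 1) = ∑ k ∈ range (d - (r + 1)), y (k + 1) r + Es r := by
      rw [hYs, hEs, ← sum_add_distrib]
      exact sum_congr rfl fun k hk => hyrec k r (by rw [mem_range] at hk; omega)
    linarith [hy_le r]
  have hγ0 : ∀ r, 0 ≤ ε r / (1 - ε r) := fun r =>
    div_nonneg (hε0 r) (by linarith [hε1 r])
  have hEle : ∀ r, Es r ≤ (ε r / (1 - ε r)) * (Xs r + Ys r) := by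
    intro r
    calc Es r = ∑ k ∈ range (d - (r + 1)), e k r := hEs r
      _ ≤ ∑ k ∈ range (d - (r + 1)), (ε r / (1 - ε r)) * (x k r + y (k + 1) r) :=
          sum_le_sum fun k hk => hlocal k r (by rw [mem_range] at hk; omega)
      _ = (ε r / (1 - ε r)) * (∑ k ∈ range (d - (r + 1)), x k r
            + ∑ k ∈ range (d - (r + 1)), y (k + 1) r) := by
          rw [← mul_sum, sum_add_distrib]
      _ ≤ _ := mul_le_mul_of_nonneg_left (add_le_add (hx_le r) (hy_le r)) (hγ0 r)
  -- the loss
  obtain ⟨L, hL⟩ : ∃ L : ℝ, L = H 0 (range d) - H d (range d) := ⟨_, rfl⟩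
  have hT0 : Xs 0 + Ys 0 = L := by
    rw [hXs, hYs, hL]
    have h1 : ∑ k ∈ range (d - 0), x k 0 = 0 := sum_eq_zero fun k _ => hx0 k
    have h2 : ∀ k ∈ range (d - 0), y k 0 = H k (range d) - H (k + 1) (range d) := by
      intro k hk
      rw [mem_range] at hk
      have hk' : k < d := by omega
      rw [hy, add_zero, hins0 k hk', hA0 k hk', hupd k hk']
    rw [h1, sum_congr rfl h2, zero_add, Nat.sub_zero]
    rw [sum_range_sub' (fun k => H k (range d))]
  have hTprod : ∀ r, Xs r + Ys r ≤ L * ∏ i ∈ range r, (1 + 2 * (ε i / (1 - ε i))) := by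
    intro r
    induction r with
    | zero => rw [hT0]; simp
    | succ r ih =>
      rw [prod_range_succ]
      have h1 : Xs (r + 1) + Ys (r + 1) ≤ (Xs r + Ys r) * (1 + 2 * (ε r / (1 - ε r))) := by
        have := hXrec r
        have := hYrec r
        have := hEle r
        nlinarith
      refine h1.trans ?_
      rw [← mul_assoc]
      exact mul_le_mul_of_nonneg_right ih (by linarith [hγ0 r])
  have hEsum : ∀ n, ∑ r ∈ range n, Es r
      ≤ (1 / 2) * (∏ r ∈ range n, (1 + 2 * (ε r / (1 - ε r))) - 1) * L := by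
    intro n
    induction n with
    | zero => simp
    | succ n ih =>
      rw [sum_range_succ, prod_range_succ]
      have h1 := hEle n
      have h2 := hTprod n
      have h3 := mul_le_mul_of_nonneg_left h2 (hγ0 n)
      nlinarith
  -- the total
  have htel : ∀ k j, x k j = ∑ r ∈ range j, e k r := by
    intro k j
    induction j with
    | zero => rw [hx0]; simp
    | succ j ih => rw [sum_range_succ, ← ih, he]; ring
  have htop : H d (range d) - H d ∅ = ∑ k ∈ range d, x k (d - 1 - k) := by
    have h1 : H d (range d) - H d (range 0)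
        = ∑ k ∈ range d, (H d (range (k + 1)) - H d (range k)) :=
      (sum_range_sub (fun k => H d (range k)) d).symm
    rw [range_zero] at h1
    rw [h1]
    refine sum_congr rfl fun k hk => ?_
    rw [mem_range] at hk
    rcases Nat.lt_or_ge (k + 1) d with hk1 | hk1
    · rw [hx, if_neg (by omega)]
      have e1 : k + (d - 1 - k) = d - 1 := by omega
      have e2 : A k (d - 1 - k) = range k := by
        ext a
        rw [hAmem, mem_range]
        omega
      rw [e1, e2]
      have e3 : insert k (range k) = range (k + 1) := (range_add_one).symm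
      rw [e3]
      have h2 := hinv (d - 1) (range (k + 1)) (by omega)
        (range_subset_range.2 (by omega)) (by rw [mem_range]; omega)
      have h3 := hinv (d - 1) (range k) (by omega)
        (range_subset_range.2 (by omega)) (by rw [mem_range]; omega)
      rw [Nat.sub_add_cancel (by omega)] at h2 h3
      rw [h2, h3]
    · have hkd : k + 1 = d := by omega
      have e0 : d - 1 - k = 0 := by omega
      rw [e0, hx0, hkd]
      have h2 := hupd k hk
      have h3 := hinv k (range k) hk (range_subset_range.2 (by omega))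
        (by rw [mem_range]; omega)
      rw [hkd] at h2 h3
      have e4 : (range d).erase k = range k := by
        ext a
        rw [mem_erase, mem_range, mem_range]
        omega
      rw [h2, h3, e4]
      ring
  have hdouble : ∑ k ∈ range d, x k (d - 1 - k) = ∑ r ∈ range d, Es r := by
    have h1 : ∀ k ∈ range d, x k (d - 1 - k)
        = ∑ r ∈ range d, if k + r + 1 < d then e k r else 0 := by
      intro k hk
      rw [mem_range] at hk
      rw [htel, ← sum_filter]
      refine sum_congr ?_ fun _ _ => rfl
      ext a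
      rw [mem_filter, mem_range, mem_range]
      omega
    have h2 : ∀ r ∈ range d, Es r = ∑ k ∈ range d, if k + r + 1 < d then e k r else 0 := by
      intro r hr
      rw [mem_range] at hr
      rw [hEs, ← sum_filter]
      refine sum_congr ?_ fun _ _ => rfl
      ext a
      rw [mem_filter, mem_range, mem_range]
      omega
    rw [sum_congr rfl h1, sum_congr rfl h2, sum_comm]
  rw [htop, hdouble, ← hL]
  exact hEsum d

end Vale.Agent.P162
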